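import Mathlib

/-! Finite chamber systems: `π ω c` is the vertex of colour `c` of the chamber `ω`. -/

namespace Vale.Agent.P067

variable {Ω V : Type} [Fintype Ω] {N : ℕ}

def rel (π : Ω → Fin N → V) (T : Finset (Fin N)) (ω ω' : Ω) : Prop := ∀ c ∈ T, π ω c = π ω' c

open Classical in
noncomputable def loc (π : Ω → Fin N → V) (R : Finset (Fin N)) (ω0 : Ω) : Finset Ω :=
  Finset.univ.filter fun ω => rel π R ω ω0

theorem mem_loc {π : Ω → Fin N → V} {R : Finset (Fin N)} {ω0 ω : Ω} :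
    ω ∈ loc π R ω0 ↔ rel π R ω ω0 := by
  simp [loc]

def Inv (π : Ω → Fin N → V) (F : Ω → Finset (Fin N) → ZMod 2) : Prop :=
  ∀ T ω ω', rel π T ω ω' → F ω T = F ω' T

/-- coboundary in the link of a face of type `R` -/
def dR (R : Finset (Fin N)) (F : Ω → Finset (Fin N) → ZMod 2) (ω : Ω) (T : Finset (Fin N)) :
    ZMod 2 :=
  ∑ c ∈ T \ R, F ω (T.erase c)

/-- number of pairs (chamber in `U`, type of size `j` containing `R`) where `F` is nonzero -/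
def Wt (U : Finset Ω) (R : Finset (Fin N)) (j : ℕ) (F : Ω → Finset (Fin N) → ZMod 2) : ℕ :=
  ((U ×ˢ (Finset.univ : Finset (Finset (Fin N)))).filter
    fun x => R ⊆ x.2 ∧ x.2.card = j ∧ F x.1 x.2 ≠ 0).card

def LinkExp (π : Ω → Fin N → V) (M : ℕ) (R : Finset (Fin N)) (ω0 : Ω) : Prop :=
  ∀ j < N, ∀ F, Inv π F → ∃ k, Inv π k ∧
    Wt (loc π R ω0) R j (F + dR R k) ≤ M * Wt (loc π R ω0) R (j + 1) (dR R F)

def LocMin (π : Ω → Fin N → V) (j : ℕ) (F : Ω → Finset (Fin N) → ZMod 2) : Prop :=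
  ∀ R : Finset (Fin N), R.Nonempty → ∀ ω0 k, Inv π k →
    Wt (loc π R ω0) R j F ≤ Wt (loc π R ω0) R j (F + dR R k)

def MixOn (U : Finset Ω) (α β : Ω → V) (lam : ℝ) : Prop :=
  ∀ φ ψ : Ω → ℝ, (∀ x ∈ U, ∀ y ∈ U, α x = α y → φ x = φ y) →
    (∀ x ∈ U, ∀ y ∈ U, β x = β y → ψ x = ψ y) → ∑ x ∈ U, φ x = 0 → ∑ x ∈ U, ψ x = 0 →
    2 * ∑ x ∈ U, φ x * ψ x ≤ lam * (∑ x ∈ U, φ x ^ 2 + ∑ x ∈ U, ψ x ^ 2)

def Mix (π : Ω → Fin N → V) (lam : ℝ) (R : Finset (Fin N)) (ω0 : Ω) (a b : Fin N) : Prop :=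
  MixOn (loc π R ω0) (fun ω => π ω a) (fun ω => π ω b) lam

def Conn (π : Ω → Fin N → V) (R : Finset (Fin N)) (ω0 : Ω) : Prop :=
  ∀ P : Ω → Prop,
    (∀ c, c ∉ R → ∀ ω ∈ loc π R ω0, ∀ ω' ∈ loc π R ω0, π ω c = π ω' c → P ω → P ω') →
    P ω0 → ∀ ω ∈ loc π R ω0, P ω

def VanA (π : Ω → Fin N → V) (j : ℕ) : Prop :=
  ∀ F, Inv π F → (∀ ω T, T.card = j + 1 → dR ∅ F ω T = 0) →
    ∃ k, Inv π k ∧ ∀ ω T, T.card = j → F ω T = dR ∅ k ω T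

/-- global expansion inequality for cochains of size `j` -/
def GExp (π : Ω → Fin N → V) (C j : ℕ) : Prop :=
  ∀ F, Inv π F → ∃ k, Inv π k ∧
    Wt Finset.univ ∅ j (F + dR ∅ k) ≤ C * Wt Finset.univ ∅ (j + 1) (dR ∅ F)

end Vale.Agent.P067
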