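import Vale.Agent.P067.Defs
import Vale.Agent.P067.CsD

namespace Vale.Agent.P067

open Finset

section
variable {N : ℕ} {Ω : Type} {π : Ω → Fin N → ℕ}

theorem asm_subset (hc : ∀ ω ω' c c', π ω c = π ω' c' → c = c') {ω ω' : Ω}
    {T T' : Finset (Fin N)} (h : T.image (π ω) ⊆ T'.image (π ω')) : T ⊆ T' ∧ rel π T ω ω' := by
  have : ∀ c ∈ T, c ∈ T' ∧ π ω c = π ω' c := fun c hcT => by
    obtain ⟨c', h1, h2⟩ := mem_image.1 (h (mem_image_of_mem _ hcT))
    obtain rfl := hc _ _ _ _ h2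
    exact ⟨h1, h2.symm⟩
  exact ⟨fun c h => (this c h).1, fun c h => (this c h).2⟩

theorem asm_eq (hc : ∀ ω ω' c c', π ω c = π ω' c' → c = c') {ω ω' : Ω}
    {T T' : Finset (Fin N)} (h : T.image (π ω) = T'.image (π ω')) : T = T' ∧ rel π T ω ω' :=
  ⟨(asm_subset hc h.le).1.antisymm (asm_subset hc h.ge).1, (asm_subset hc h.le).2⟩

theorem asm_card (hc : ∀ ω ω' c c', π ω c = π ω' c' → c = c') (ω : Ω) (T : Finset (Fin N)) :
    (T.image (π ω)).card = T.card :=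
  card_image_of_injective _ fun c c' h => hc _ _ c c' h

variable [Fintype Ω]

/-- the complex -/
def asmX [Nonempty Ω] (π : Ω → Fin N → ℕ) (d : ℕ) (hN : d + 1 ≤ N)
    (hc : ∀ ω ω' c c', π ω c = π ω' c' → c = c') : Cx d where
  faces := ((univ : Finset (Ω × Finset (Fin N))).filter
    fun x => x.2.Nonempty ∧ x.2.card ≤ d + 1).image fun x => x.2.image (π x.1)
  faces_nonempty := Nonempty.image ⟨(Classical.arbitrary Ω, {⟨0, by omega⟩}), by simp⟩ _
  nonempty_of_mem σ hσ := by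
    obtain ⟨x, hx, rfl⟩ := mem_image.1 hσ
    exact (mem_filter.1 hx).2.1.image _
  down_closed σ hσ τ hτ hne := by
    obtain ⟨x, hx, rfl⟩ := mem_image.1 hσ
    obtain ⟨T, hT, rfl⟩ := subset_image_iff.1 hτ
    exact mem_image.2 ⟨(x.1, T), mem_filter.2 ⟨mem_univ _, hne.of_image,
      (card_le_card hT).trans (mem_filter.1 hx).2.2⟩, rfl⟩
  pure σ hσ := by
    obtain ⟨x, hx, rfl⟩ := mem_image.1 hσ
    obtain ⟨T, hT, e⟩ := exists_superset_card_eq (mem_filter.1 hx).2.2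
      (show d + 1 ≤ Fintype.card (Fin N) by simpa using hN)
    exact ⟨T.image (π x.1), mem_image.2 ⟨(x.1, T), mem_filter.2 ⟨mem_univ _,
      (mem_filter.1 hx).2.1.mono hT, e.le⟩, rfl⟩, image_subset_image hT, (asm_card hc _ _).trans e⟩

variable [Nonempty Ω] {d : ℕ} {hN : d + 1 ≤ N} {hc : ∀ ω ω' c c', π ω c = π ω' c' → c = c'}

theorem asm_of_mem {i : ℕ} {σ : Finset ℕ} (h : σ ∈ (asmX π d hN hc).face i) :
    ∃ (ω : Ω) (T : Finset (Fin N)), T.card = i + 1 ∧ T.image (π ω) = σ := by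
  obtain ⟨h1, h2⟩ := mem_filter.1 h
  obtain ⟨x, -, rfl⟩ := mem_image.1 h1
  exact ⟨x.1, x.2, (asm_card hc _ _).symm.trans h2, rfl⟩

theorem asm_mem {i : ℕ} (hi : i ≤ d) (ω : Ω) {T : Finset (Fin N)} (hT : T.card = i + 1) :
    T.image (π ω) ∈ (asmX π d hN hc).face i :=
  mem_filter.2 ⟨mem_image.2 ⟨(ω, T), mem_filter.2 ⟨mem_univ _, card_pos.1 (by
    rw [hT]; omega), by rw [hT]; omega⟩, rfl⟩, (asm_card hc _ _).trans hT⟩

theorem asm_deg {D : ℕ} (hD : ∀ R ω, R.Nonempty → (loc π R ω).card ≤ D) {i : ℕ} {σ : Finset ℕ}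
    (h : σ ∈ (asmX π d hN hc).face i) :
    (((asmX π d hN hc).face d).filter fun τ => σ ⊆ τ).card ≤ D * 2 ^ N := by
  obtain ⟨ω, T, hT, rfl⟩ := asm_of_mem h
  refine (card_le_card (t := (loc π T ω ×ˢ (univ : Finset (Finset (Fin N)))).image
    fun x => x.2.image (π x.1)) fun τ hτ => ?_).trans (card_image_le.trans ?_)
  · obtain ⟨ω', T', -, rfl⟩ := asm_of_mem (mem_filter.1 hτ).1
    exact mem_image.2 ⟨(ω', T'), mem_product.2 ⟨mem_loc.2 fun c hcT =>
      ((asm_subset hc (mem_filter.1 hτ).2).2 c hcT).symm, mem_univ _⟩, rfl⟩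
  · rw [card_product, card_univ, Fintype.card_finset, Fintype.card_fin]
    exact Nat.mul_le_mul_right _ (hD _ _ (card_pos.1 (by omega)))

/-- `G` represents the cochain `g` -/
def AsmRep (i : ℕ) (G : Ω → Finset (Fin N) → ZMod 2) (g : (asmX π d hN hc).Cochain i) : Prop :=
  ∀ ω T (h : T.image (π ω) ∈ (asmX π d hN hc).face i), G ω T = g ⟨_, h⟩

theorem asm_lift {i : ℕ} (g : (asmX π d hN hc).Cochain i) : ∃ G, Inv π G ∧ AsmRep i G g :=
  ⟨fun ω T => if h : T.image (π ω) ∈ (asmX π d hN hc).face i then g ⟨_, h⟩ else 0,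
    fun T ω ω' h => by
      have e : T.image (π ω) = T.image (π ω') := image_congr fun c hcT => h c hcT
      simp only [e], fun ω T h => dif_pos h⟩

theorem asm_desc (i : ℕ) {G : Ω → Finset (Fin N) → ZMod 2} (hG : Inv π G) :
    ∃ g : (asmX π d hN hc).Cochain i, AsmRep i G g := by
  choose w S _ e using fun σ : (asmX π d hN hc).face i => asm_of_mem σ.2
  refine ⟨fun σ => G (w σ) (S σ), fun ω T h => ?_⟩
  obtain ⟨h1, h2⟩ := asm_eq hc (e ⟨_, h⟩)
  change _ = G (w ⟨_, h⟩) (S ⟨_, h⟩)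
  rw [hG _ _ _ h2, h1]

theorem asm_cob {i : ℕ} (hi : i ≤ d) {G : Ω → Finset (Fin N) → ZMod 2}
    {g : (asmX π d hN hc).Cochain i} (h : AsmRep i G g) :
    AsmRep (i + 1) (dR ∅ G) ((asmX π d hN hc).cob i g) := by
  intro ω T hT
  have hT' : T.card = i + 2 := (asm_card hc _ _).symm.trans (mem_filter.1 hT).2
  have he : ∀ c ∈ T, (T.erase c).card = i + 1 := fun c hcT => by
    rw [card_erase_of_mem hcT, hT']; rfl
  rw [dR, sdiff_empty, Cx.cob]
  refine sum_bij (fun c hcT => ⟨_, asm_mem hi ω (he c hcT)⟩)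
    (fun c _ => mem_filter.2 ⟨mem_univ _, image_subset_image (erase_subset _ _)⟩)
    (fun c h1 c' h2 e => erase_injOn T h1 h2 (asm_eq hc (congrArg Subtype.val e)).1)
    (fun σ hσ => ?_) fun c _ => h _ _ _
  obtain ⟨S, hS, e⟩ := subset_image_iff.1 (mem_filter.1 hσ).2
  have hS' : S.card = i + 1 := (asm_card hc ω _).symm.trans (e ▸ (mem_filter.1 σ.2).2)
  obtain ⟨c, h1, h2⟩ := exists_mem_notMem_of_card_lt_card (show S.card < T.card by omega)
  refine ⟨c, h1, Subtype.ext ?_⟩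
  rw [← e, eq_of_subset_of_card_le (subset_erase.2 ⟨hS, h2⟩) (by rw [he c h1, hS'])]

theorem asm_wt_ge {i : ℕ} {G : Ω → Finset (Fin N) → ZMod 2}
    {g : (asmX π d hN hc).Cochain i} (h : AsmRep i G g) :
    (univ.filter fun σ => g σ ≠ 0).card ≤ Wt univ ∅ (i + 1) G := by
  choose w S hS e using fun σ : (asmX π d hN hc).face i => asm_of_mem σ.2
  refine card_le_card_of_injOn (fun σ => (w σ, S σ)) (fun σ hσ => ?_) fun σ _ τ _ h => ?_
  · refine mem_coe.2 (mem_filter.2 ⟨by simp, empty_subset _, hS σ, ?_⟩)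
    rw [h _ _ ((e σ).symm ▸ σ.2)]
    simpa only [e] using (mem_filter.1 (mem_coe.1 hσ)).2
  · obtain ⟨h1, h2⟩ := Prod.ext_iff.1 h
    refine Subtype.ext ?_
    rw [← e σ, ← e τ, show w σ = w τ from h1, show S σ = S τ from h2]

theorem asm_wt_le {D : ℕ} (hD : ∀ R ω, R.Nonempty → (loc π R ω).card ≤ D) {i : ℕ} (hi : i ≤ d)
    {G : Ω → Finset (Fin N) → ZMod 2} {g : (asmX π d hN hc).Cochain i} (h : AsmRep i G g) :
    Wt univ ∅ (i + 1) G ≤ D * (univ.filter fun σ => g σ ≠ 0).card := by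
  rw [← card_map (Function.Embedding.subtype _)]
  refine card_le_mul_card_image_of_maps_to (f := fun x => x.2.image (π x.1)) (fun x hx => ?_) _
    fun σ hσ => ?_
  · obtain ⟨-, -, h1, h2⟩ := mem_filter.1 hx
    exact mem_map.2 ⟨⟨_, asm_mem hi x.1 h1⟩, mem_filter.2 ⟨mem_univ _, h _ _ _ ▸ h2⟩, rfl⟩
  · obtain ⟨τ, -, rfl⟩ := mem_map.1 hσ
    obtain ⟨ω, T, hT, e⟩ := asm_of_mem τ.2
    refine (card_le_card_of_injOn (t := loc π T ω) Prod.fst (fun x hx => ?_)
      fun x hx y hy e' => Prod.ext e' ?_).trans (hD _ _ (card_pos.1 (by omega)))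
    · obtain ⟨h1, h2⟩ := asm_eq hc ((mem_filter.1 (mem_coe.1 hx)).2.trans e.symm)
      exact mem_coe.2 (mem_loc.2 (h1 ▸ h2))
    · exact (asm_eq hc ((mem_filter.1 (mem_coe.1 hx)).2.trans
        (mem_filter.1 (mem_coe.1 hy)).2.symm)).1

end

namespace Cx
variable {d : ℕ} (X : Cx d)

theorem asm_top_pos : 0 < ((X.face d).card : ℝ) := by
  obtain ⟨σ, hσ⟩ := X.faces_nonempty
  obtain ⟨τ, h1, -, h2⟩ := X.pure σ hσ
  exact Nat.cast_pos.2 (card_pos.2 ⟨τ, mem_filter.2 ⟨h1, h2⟩⟩)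

theorem asm_norm_nonneg (i : ℕ) (f : X.Cochain i) : 0 ≤ X.norm i f :=
  sum_nonneg fun σ _ => by unfold weight; positivity

theorem asm_norm_le {i K : ℕ} (hi : i ≤ d)
    (hK : ∀ σ ∈ X.face i, ((X.face d).filter fun τ => σ ⊆ τ).card ≤ K) (f : X.Cochain i) :
    X.norm i f * (X.face d).card ≤ K * (univ.filter fun σ => f σ ≠ 0).card := by
  have h0 := X.asm_top_pos
  rw [norm, sum_mul, mul_comm (K : ℝ), ← nsmul_eq_mul]
  refine sum_le_card_nsmul _ _ _ fun σ _ => ?_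
  have h1 : (1 : ℝ) ≤ (d + 1).choose (i + 1) := Nat.one_le_cast.2 (Nat.choose_pos (by omega))
  rw [weight, ← div_div, div_mul_cancel₀ _ h0.ne']
  exact (div_le_self (Nat.cast_nonneg _) h1).trans (Nat.cast_le.2 (hK _ σ.2))

theorem asm_le_norm {i : ℕ} (hi : i ≤ d) (f : X.Cochain i) :
    ((univ.filter fun σ => f σ ≠ 0).card : ℝ) ≤ 2 ^ (d + 1) * (X.norm i f * (X.face d).card) := by
  have h0 := X.asm_top_pos
  rw [norm, sum_mul, mul_sum, ← mul_one (Nat.cast _), ← nsmul_eq_mul]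
  refine card_nsmul_le_sum _ _ _ fun σ _ => ?_
  have h1 : (0 : ℝ) < (d + 1).choose (i + 1) := Nat.cast_pos.2 (Nat.choose_pos (by omega))
  have h2 : ((d + 1).choose (i + 1) : ℝ) ≤ 2 ^ (d + 1) := by
    exact_mod_cast Nat.choose_le_two_pow (d + 1) (i + 1)
  obtain ⟨τ, h3, h4, h5⟩ := X.pure σ.1 (mem_filter.1 σ.2).1
  have h6 : (1 : ℝ) ≤ ((X.face d).filter fun τ => σ.1 ⊆ τ).card :=
    Nat.one_le_cast.2 (card_pos.2 ⟨τ, mem_filter.2 ⟨mem_filter.2 ⟨h3, h5⟩, h4⟩⟩)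
  rw [weight, ← div_div, div_mul_cancel₀ _ h0.ne', ← mul_div_assoc, one_le_div h1]
  exact h2.trans (le_mul_of_one_le_right (by positivity) h6)

end Cx

/-- the `d`-skeleton of the complex of a chamber system -/
theorem assemble (N d D C : ℕ) (hd : 1 ≤ d) (hN : d + 1 ≤ N) : ∃ (D' : ℕ) (ε : ℝ), 0 < ε ∧
    ∀ (Ω : Type) [Fintype Ω] [Nonempty Ω] (π : Ω → Fin N → ℕ),
      (∀ ω ω' c c', π ω c = π ω' c' → c = c') →
      (∀ R ω, R.Nonempty → (loc π R ω).card ≤ D) →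
      (∀ j, 1 ≤ j → j ≤ d → GExp π C j) →
      ∃ X : Cx d, X.Connected ∧ X.degree ≤ D' ∧ X.IsCobExp ε ∧
        Fintype.card Ω ≤ D * (X.face 0).card := by
  classical
  refine ⟨D * 2 ^ N, ((D * 2 ^ N : ℕ) * (C * (D * 2 ^ (d + 1))) + 1 : ℝ)⁻¹, by positivity,
    fun Ω _ _ π hc hD hG => ⟨asmX π d hN hc, fun u v hu hv => ?_,
      Finset.sup_le fun σ hσ => asm_deg hD hσ, fun i hi f => ?_, ?_⟩⟩
  · set P := Relation.ReflTransGen (fun a b : ℕ => ({a, b} : Finset ℕ) ∈ (asmX π d hN hc).faces) u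
    obtain ⟨k, hk, h⟩ := hG 1 le_rfl hd (fun ω T => ∑ c ∈ T, if P (π ω c) then 1 else 0)
      fun T ω ω' h => sum_congr rfl fun c hcT => by rw [h c hcT]
    have h2 : Wt univ ∅ 2 (dR ∅ fun ω T => ∑ c ∈ T, if P (π ω c) then 1 else 0) = 0 := by
      refine card_eq_zero.2 (filter_eq_empty_iff.2 fun x _ hx => hx.2.2 ?_)
      have h3 := (mem_filter.1 (asm_mem (hN := hN) (hc := hc) hd x.1 hx.2.1)).1
      obtain ⟨a, b, hab, e⟩ := card_eq_two.1 hx.2.1
      rw [e] at h3 ⊢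
      rw [image_insert, image_singleton] at h3
      have h4 : P (π x.1 a) ↔ P (π x.1 b) :=
        ⟨fun h => h.tail h3, fun h => h.tail (pair_comm (π x.1 a) _ ▸ h3)⟩
      rw [dR, sdiff_empty, sum_pair hab, erase_insert (by simpa using hab), pair_comm,
        erase_insert (by simpa using hab.symm), sum_singleton, sum_singleton, h4]
      exact CharTwo.add_self_eq_zero _
    rw [h2, mul_zero, Nat.le_zero, Wt, card_eq_zero, filter_eq_empty_iff] at h
    have h5 : ∀ w, {w} ∈ (asmX π d hN hc).faces → ∀ ω, (if P w then 1 else 0) + k ω ∅ = 0 := by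
      intro w hw ω
      obtain ⟨ω', T, hT, e⟩ := asm_of_mem (i := 0) (mem_filter.2 ⟨hw, rfl⟩)
      obtain ⟨c, rfl⟩ := card_eq_one.1 hT
      rw [image_singleton, singleton_inj] at e
      have := h (x := (ω', {c})) (by simp)
      rw [hk ∅ ω ω' fun _ h => absurd h (notMem_empty _), ← e]
      simpa [dR, -sum_boole] using this
    have h6 := (h5 u hu (Classical.arbitrary Ω)).trans (h5 v hv (Classical.arbitrary Ω)).symm
    rw [add_left_inj, if_pos (show P u from .refl)] at h6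
    by_contra h7
    rw [if_neg h7] at h6
    exact one_ne_zero h6
  · obtain ⟨G, hG1, hG2⟩ := asm_lift f
    obtain ⟨k, hk, h⟩ := hG (i + 1) (by omega) hi G hG1
    obtain ⟨a, ha, hr⟩ : ∃ a ∈ (asmX π d hN hc).cobdry i, AsmRep i (dR ∅ k) a := by
      cases i with
      | zero =>
        refine ⟨fun _ => k (Classical.arbitrary Ω) ∅, ⟨_, fun _ => rfl⟩, fun ω T hT => ?_⟩
        obtain ⟨c, rfl⟩ := card_eq_one.1 ((asm_card hc _ _).symm.trans (mem_filter.1 hT).2)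
        rw [dR, sdiff_empty, sum_singleton, erase_singleton]
        exact hk _ _ _ fun _ h => absurd h (notMem_empty _)
      | succ i =>
        obtain ⟨g, hg⟩ := asm_desc (hN := hN) (hc := hc) i hk
        exact ⟨_, ⟨g, rfl⟩, asm_cob (by omega) hg⟩
    have h1 : AsmRep i (G + dR ∅ k) (f - a) := fun ω T hT => by
      rw [Pi.sub_apply, CharTwo.sub_eq_add, ← hG2 ω T hT, ← hr ω T hT]
      rfl
    have h2 := ((asm_wt_ge h1).trans h).trans
      (Nat.mul_le_mul_left C (asm_wt_le hD hi (asm_cob hi.le hG2)))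
    have h3 := (asmX π d hN hc).asm_norm_le hi.le (fun σ hσ => asm_deg hD hσ) (f - a)
    have h4 := (asmX π d hN hc).asm_le_norm hi ((asmX π d hN hc).cob i f)
    have h5 : (asmX π d hN hc).dist i f ((asmX π d hN hc).cobdry i) ≤
        (asmX π d hN hc).norm i (f - a) := csInf_le ⟨0, by
      rintro _ ⟨b, -, rfl⟩
      exact Cx.asm_norm_nonneg _ _ _⟩ ⟨a, ha, rfl⟩
    have h6 := (asmX π d hN hc).asm_norm_nonneg (i + 1) ((asmX π d hN hc).cob i f)
    rw [inv_mul_le_iff₀ (by positivity), add_mul, one_mul]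
    refine h5.trans (le_add_of_le_of_nonneg (le_of_mul_le_mul_right (h3.trans ?_)
      (asmX π d hN hc).asm_top_pos) h6)
    rw [mul_assoc, mul_assoc]
    refine mul_le_mul_of_nonneg_left ((Nat.cast_le.2 h2).trans ?_) (Nat.cast_nonneg _)
    push_cast
    rw [mul_assoc, mul_assoc]
    gcongr
  · refine card_le_mul_card_image_of_maps_to (s := univ)
      (f := fun ω => ({⟨0, by omega⟩} : Finset (Fin N)).image (π ω))
      (fun ω _ => asm_mem (Nat.zero_le _) ω (card_singleton _)) _ fun σ hσ => ?_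
    obtain ⟨ω, T, hT, e⟩ := asm_of_mem hσ
    refine (card_le_card fun x hx => ?_).trans (hD T ω (card_pos.1 (by omega)))
    obtain ⟨h1, h2⟩ := asm_eq hc ((mem_filter.1 hx).2.trans e.symm)
    exact mem_loc.2 (h1 ▸ h2)

end Vale.Agent.P067
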