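import Mathlib

/-! Chains and cochains on abstract complexes (a complex is a predicate on `Finset V`;
the empty set is allowed as a face, everything is augmented; size = number of vertices). -/

namespace Vale.Agent.P067

variable {V : Type} [DecidableEq V]

abbrev Ch (V : Type) : Type := Finset V →₀ ZMod 2

noncomputable def sx (σ : Finset V) : Ch V := Finsupp.single σ 1

noncomputable def bd : Ch V →ₗ[ZMod 2] Ch V :=
  Finsupp.linearCombination (ZMod 2) fun σ => ∑ u ∈ σ, sx (σ.erase u)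

noncomputable def jn (v : V) : Ch V →ₗ[ZMod 2] Ch V :=
  Finsupp.linearCombination (ZMod 2) fun σ => if v ∈ σ then 0 else sx (insert v σ)

noncomputable def lk (v : V) : Ch V →ₗ[ZMod 2] Ch V :=
  Finsupp.linearCombination (ZMod 2) fun σ => if v ∈ σ then sx (σ.erase v) else 0

def InCh (L : Finset V → Prop) (i : ℕ) (z : Ch V) : Prop :=
  ∀ σ ∈ z.support, L σ ∧ σ.card = i

def Down (L : Finset V → Prop) : Prop := ∀ σ τ, L σ → τ ⊆ σ → L τ

def Fill (L : Finset V → Prop) (i Z Z' : ℕ) : Prop :=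
  ∀ z : Ch V, InCh L i z → bd z = 0 → z.support.card ≤ Z →
    ∃ y : Ch V, InCh L (i + 1) y ∧ bd y = z ∧ y.support.card ≤ Z'

def Contr (L : Finset V → Prop) (n M : ℕ) : Prop :=
  ∃ c : Finset V → Ch V, ∀ σ, L σ → σ.card ≤ n →
    InCh L (σ.card + 1) (c σ) ∧ (c σ).support.card ≤ M ∧
      bd (c σ) = sx σ + ∑ u ∈ σ, c (σ.erase u)

def Cone (L : Finset V → Prop) (m : ℕ) : Prop :=
  ∀ F : Finset V, F.card ≤ m → ∃ v, v ∉ F ∧ ∀ τ, τ ⊆ F → L τ → L (insert v τ)

/-- coboundary of a cochain with values in any additive monoid -/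
def dl {M : Type} [AddCommMonoid M] (f : Finset V → M) (σ : Finset V) : M :=
  ∑ u ∈ σ, f (σ.erase u)

/-- value of a cochain on a possibly degenerate simplex -/
def mv {M : Type} [AddCommMonoid M] (f : Finset V → M) (s : Multiset V) : M :=
  if s.Nodup then f s.toFinset else 0

/-- prism operator between the vertex maps `a` and `b`, ordered by the key `κ` -/
def pr {M : Type} [AddCommMonoid M] (f : Finset V → M) (κ : V → ℤ) (a b : V → V)
    (x : Finset V) : M :=
  ∑ u ∈ x, mv f ((x.filter fun w => κ w ≤ κ u).val.map a + (x.filter fun w => κ u ≤ κ w).val.map b)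

open scoped Pointwise in
/-- `f` is `χ`-equivariant on faces of size `i` -/
def Eqv {Γ 𝔽 : Type} [Group Γ] [MulAction Γ V] [Field 𝔽] (χ : Γ → 𝔽) (L : Finset V → Prop)
    (i : ℕ) (f : Finset V → 𝔽) : Prop :=
  ∀ (γ : Γ) (σ : Finset V), L σ → σ.card = i → f (γ • σ) = χ γ * f σ

/-- `f` (thought of as a cochain on faces of size `i`) is a cocycle -/
def Coc {𝔽 : Type} [Field 𝔽] (L : Finset V → Prop) (i : ℕ) (f : Finset V → 𝔽) : Prop :=
  ∀ σ, L σ → σ.card = i + 1 → dl f σ = 0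

/-- every `χ`-equivariant cocycle of size `i + 1` is the coboundary of a `χ`-equivariant cochain -/
def Van {Γ 𝔽 : Type} [Group Γ] [MulAction Γ V] [Field 𝔽] (χ : Γ → 𝔽) (L : Finset V → Prop)
    (i : ℕ) : Prop :=
  ∀ f : Finset V → 𝔽, Eqv χ L (i + 1) f → Coc L (i + 1) f →
    ∃ k : Finset V → 𝔽, Eqv χ L i k ∧ ∀ σ, L σ → σ.card = i + 1 → dl k σ = f σ

open scoped Pointwise in
/-- exactness of the columns of the double complex over the index set `P` -/
def ColEx {Γ J 𝔽 : Type} [Group Γ] [MulAction Γ V] [MulAction Γ J] [Field 𝔽] (χ : Γ → 𝔽)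
    (L : Finset V → Prop) (P : J → Prop) : Prop :=
  ∀ (i : ℕ) (F : Finset V → J → 𝔽),
    (∀ (γ : Γ) σ τ, L σ → σ.card = i → P τ → F (γ • σ) (γ • τ) = χ γ * F σ τ) →
    (∀ σ τ, L σ → σ.card = i + 1 → P τ → dl (fun σ' => F σ' τ) σ = 0) →
    ∃ G : Finset V → J → 𝔽,
      (∀ (γ : Γ) σ τ, L σ → σ.card + 1 = i → P τ → G (γ • σ) (γ • τ) = χ γ * G σ τ) ∧
      ∀ σ τ, L σ → σ.card = i → P τ → dl (fun σ' => G σ' τ) σ = F σ τ

end Vale.Agent.P067
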