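import Vale.Agent.P067.ChD

namespace Vale.Agent.P067

open Finset

variable {V : Type} [DecidableEq V]

omit [DecidableEq V] in
theorem ch_add_self (z : Ch V) : z + z = 0 := by
  ext σ
  exact CharTwo.add_self_eq_zero (z σ)

omit [DecidableEq V] in
theorem ch_eq_sum (z : Ch V) : z = ∑ σ ∈ z.support, sx σ := by
  conv_lhs => rw [← Finsupp.sum_single z, Finsupp.sum]
  refine sum_congr rfl fun σ hσ => ?_
  have h : ∀ a : ZMod 2, a ≠ 0 → a = 1 := by decide
  rw [h _ (Finsupp.mem_support_iff.1 hσ), sx]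

omit [DecidableEq V] in
theorem ch_map_eq {M : Type} [AddCommGroup M] [Module (ZMod 2) M] (φ : Ch V →ₗ[ZMod 2] M)
    (z : Ch V) : φ z = ∑ σ ∈ z.support, φ (sx σ) := by
  conv_lhs => rw [ch_eq_sum z, map_sum]

omit [DecidableEq V] in
theorem ch_lc_sx {M : Type} [AddCommGroup M] [Module (ZMod 2) M] (f : Finset V → M)
    (σ : Finset V) : Finsupp.linearCombination (ZMod 2) f (sx σ) = f σ := by
  rw [sx, Finsupp.linearCombination_single, one_smul]

omit [DecidableEq V] in
theorem support_sx (σ : Finset V) : (sx σ).support = {σ} :=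
  Finsupp.support_single_ne_zero _ one_ne_zero

omit [DecidableEq V] in
theorem ch_sym_sum {M : Type} [AddCommMonoid M] (h2 : ∀ m : M, m + m = 0) (h : V → V → M)
    (hs : ∀ u w, h u w = h w u) (hd : ∀ u, h u u = 0) (s : Finset V) :
    ∑ u ∈ s, ∑ w ∈ s, h u w = 0 := by
  classical
  induction s using Finset.induction_on with
  | empty => simp
  | insert a s ha ih =>
    rw [sum_insert ha, sum_insert ha, hd, zero_add, sum_congr rfl fun u _ => sum_insert ha,
      sum_add_distrib, ih, add_zero, sum_congr rfl fun u _ => hs u a]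
    exact h2 _

theorem ch_dd {M : Type} [AddCommMonoid M] (h2 : ∀ m : M, m + m = 0) (g : Finset V → M)
    (σ : Finset V) : ∑ u ∈ σ, ∑ w ∈ σ.erase u, g ((σ.erase u).erase w) = 0 := by
  rw [← ch_sym_sum h2 (fun u w => if w ≠ u then g ((σ.erase u).erase w) else 0) ?_ (by simp) σ]
  · refine sum_congr rfl fun u _ => ?_
    rw [← sum_filter, filter_ne']
  · intro u w
    by_cases h : w = u
    · subst h; rfl
    · rw [if_pos h, if_pos (Ne.symm h), erase_right_comm]

theorem dl_dl {M : Type} [AddCommMonoid M] (h2 : ∀ m : M, m + m = 0) (g : Finset V → M)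
    (σ : Finset V) : dl (dl g) σ = 0 := ch_dd h2 g σ

theorem bd_sx (σ : Finset V) : bd (sx σ) = ∑ u ∈ σ, sx (σ.erase u) := ch_lc_sx _ σ

theorem jn_sx (v : V) (σ : Finset V) : jn v (sx σ) = if v ∈ σ then 0 else sx (insert v σ) :=
  ch_lc_sx _ σ

theorem lk_sx (v : V) (σ : Finset V) : lk v (sx σ) = if v ∈ σ then sx (σ.erase v) else 0 :=
  ch_lc_sx _ σ

theorem bd_bd (z : Ch V) : bd (bd z) = 0 := by
  rw [ch_map_eq bd z, map_sum]
  refine sum_eq_zero fun σ _ => ?_
  rw [bd_sx, map_sum, sum_congr rfl fun u _ => bd_sx (σ.erase u)]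
  exact ch_dd ch_add_self sx σ

theorem bd_jn_sx (v : V) (σ : Finset V) : bd (jn v (sx σ)) = sx σ + jn v (bd (sx σ)) := by
  rw [jn_sx, bd_sx, map_sum]
  by_cases h : v ∈ σ
  · rw [if_pos h, map_zero, sum_eq_single v, jn_sx, if_neg (notMem_erase v σ), insert_erase h,
      ch_add_self]
    · intro u _ hu
      rw [jn_sx, if_pos (mem_erase.2 ⟨hu.symm, h⟩)]
    · intro h'; exact absurd h h'
  · rw [if_neg h, bd_sx, sum_insert h, erase_insert h]
    congr 1
    refine sum_congr rfl fun u hu => ?_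
    rw [jn_sx, if_neg fun h' => h (mem_of_mem_erase h'),
      erase_insert_of_ne (fun e : v = u => h (e ▸ hu))]

theorem bd_jn (v : V) (z : Ch V) : bd (jn v z) = z + jn v (bd z) := by
  rw [ch_map_eq (jn v) z, map_sum, sum_congr rfl fun σ _ => bd_jn_sx v σ, sum_add_distrib,
    ← ch_eq_sum, ← map_sum, ← ch_map_eq]

theorem bd_lk_sx (v : V) (σ : Finset V) : bd (lk v (sx σ)) = lk v (bd (sx σ)) := by
  rw [lk_sx, bd_sx, map_sum]
  by_cases h : v ∈ σ
  · rw [if_pos h, bd_sx, ← sum_erase_add _ _ h, lk_sx, if_neg (notMem_erase v σ), add_zero]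
    refine sum_congr rfl fun u hu => ?_
    rw [lk_sx, if_pos (mem_erase.2 ⟨(mem_erase.1 hu).1.symm, h⟩), erase_right_comm]
  · rw [if_neg h, map_zero]
    refine (sum_eq_zero fun u _ => ?_).symm
    rw [lk_sx, if_neg fun h' => h (mem_of_mem_erase h')]

theorem bd_lk (v : V) (z : Ch V) : bd (lk v z) = lk v (bd z) := by
  rw [ch_map_eq (lk v) z, map_sum, sum_congr rfl fun σ _ => bd_lk_sx v σ, ← map_sum, ← ch_map_eq]

theorem card_support_sum {ι : Type} (s : Finset ι) (f : ι → Ch V) :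
    (∑ a ∈ s, f a).support.card ≤ ∑ a ∈ s, (f a).support.card :=
  (card_le_card Finsupp.support_finset_sum).trans card_biUnion_le

theorem card_support_add (y z : Ch V) :
    (y + z).support.card ≤ y.support.card + z.support.card :=
  (card_le_card Finsupp.support_add).trans (card_union_le _ _)

theorem card_support_map (φ : Ch V →ₗ[ZMod 2] Ch V) (z : Ch V) (m : ℕ)
    (h : ∀ σ ∈ z.support, (φ (sx σ)).support.card ≤ m) :
    (φ z).support.card ≤ m * z.support.card := by
  rw [ch_map_eq, mul_comm]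
  exact (card_support_sum _ _).trans (sum_le_card_nsmul _ _ _ h)

theorem card_support_jn (v : V) (z : Ch V) : (jn v z).support.card ≤ z.support.card := by
  refine (card_support_map _ z 1 fun σ _ => ?_).trans (one_mul _).le
  rw [jn_sx]
  split_ifs
  · simp
  · rw [support_sx, card_singleton]

theorem card_support_lk (v : V) (z : Ch V) : (lk v z).support.card ≤ z.support.card := by
  refine (card_support_map _ z 1 fun σ _ => ?_).trans (one_mul _).le
  rw [lk_sx]
  split_ifs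
  · rw [support_sx, card_singleton]
  · simp

theorem card_support_bd {L : Finset V → Prop} {i : ℕ} {y : Ch V} (hy : InCh L i y) :
    (bd y).support.card ≤ i * y.support.card := by
  refine card_support_map _ y i fun σ hσ => ?_
  rw [bd_sx]
  refine (card_support_sum _ _).trans ?_
  rw [sum_congr rfl fun u _ => by rw [support_sx, card_singleton], sum_const, smul_eq_mul, mul_one,
    (hy σ hσ).2]

theorem InCh.add {L : Finset V → Prop} {i : ℕ} {y z : Ch V} (hy : InCh L i y) (hz : InCh L i z) :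
    InCh L i (y + z) := fun σ hσ =>
  (mem_union.1 (Finsupp.support_add hσ)).elim (hy σ) (hz σ)

omit [DecidableEq V] in
theorem InCh.zero {L : Finset V → Prop} {i : ℕ} : InCh L i (0 : Ch V) := fun σ hσ => by
  simp at hσ

omit [DecidableEq V] in
theorem InCh.of_sx {L : Finset V → Prop} {i : ℕ} {σ : Finset V} (h : L σ) (hc : σ.card = i) :
    InCh L i (sx σ) := fun τ hτ => by
  rw [support_sx, mem_singleton] at hτ
  subst hτ
  exact ⟨h, hc⟩

theorem InCh.sum {L : Finset V → Prop} {i : ℕ} {ι : Type} {s : Finset ι} {f : ι → Ch V}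
    (h : ∀ a ∈ s, InCh L i (f a)) : InCh L i (∑ a ∈ s, f a) := fun σ hσ => by
  obtain ⟨a, ha, hσ'⟩ := mem_biUnion.1 (Finsupp.support_finset_sum hσ)
  exact h a ha σ hσ'

theorem InCh.map {L : Finset V → Prop} {i : ℕ} (φ : Ch V →ₗ[ZMod 2] Ch V) {z : Ch V}
    (h : ∀ σ ∈ z.support, InCh L i (φ (sx σ))) : InCh L i (φ z) := by
  rw [ch_map_eq]
  exact InCh.sum h

theorem InCh.mono {L L' : Finset V → Prop} {i : ℕ} {y : Ch V} (hy : InCh L i y)
    (h : ∀ σ, L σ → L' σ) : InCh L' i y := fun σ hσ => ⟨h σ (hy σ hσ).1, (hy σ hσ).2⟩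

theorem InCh.bd {L : Finset V → Prop} (hL : Down L) {i : ℕ} {y : Ch V} (hy : InCh L (i + 1) y) :
    InCh L i (bd y) := by
  refine InCh.map _ fun σ hσ => ?_
  rw [bd_sx]
  exact InCh.sum fun u hu => InCh.of_sx (hL _ _ (hy σ hσ).1 (erase_subset u σ))
    (by rw [card_erase_of_mem hu, (hy σ hσ).2]; rfl)

theorem InCh.jn {L L' : Finset V → Prop} {i : ℕ} {y : Ch V} (v : V) (hy : InCh L i y)
    (h : ∀ σ ∈ y.support, v ∉ σ → L' (insert v σ)) : InCh L' (i + 1) (jn v y) := by
  refine InCh.map _ fun σ hσ => ?_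
  rw [jn_sx]
  split_ifs with hv
  · exact InCh.zero
  · exact InCh.of_sx (h σ hσ hv) (by rw [card_insert_of_notMem hv, (hy σ hσ).2])

theorem InCh.lk {L : Finset V → Prop} {i : ℕ} {y : Ch V} (v : V) (hy : InCh L (i + 1) y) :
    InCh (fun τ => v ∉ τ ∧ L (insert v τ)) i (lk v y) := by
  refine InCh.map _ fun σ hσ => ?_
  rw [lk_sx]
  split_ifs with hv
  · exact InCh.of_sx ⟨notMem_erase v σ, by rw [insert_erase hv]; exact (hy σ hσ).1⟩
      (by rw [card_erase_of_mem hv, (hy σ hσ).2]; rfl)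
  · exact InCh.zero

theorem Fill.mono {L : Finset V → Prop} {i Z Z' W W' : ℕ} (h : Fill L i Z Z') (h1 : W ≤ Z)
    (h2 : Z' ≤ W') : Fill L i W W' := fun z hz hb hW => by
  obtain ⟨y, hy, hy', hc⟩ := h z hz hb (hW.trans h1)
  exact ⟨y, hy, hy', hc.trans h2⟩

theorem contr_zero {L : Finset V → Prop} {M : ℕ} (h : Fill L 0 1 M) : Contr L 0 M := by
  by_cases h0 : L ∅
  · obtain ⟨y, hy, hy', hc⟩ := h (sx ∅) (InCh.of_sx h0 rfl) (by rw [bd_sx, sum_empty])
      (by rw [support_sx, card_singleton])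
    refine ⟨fun _ => y, fun σ _ hσ => ?_⟩
    obtain rfl : σ = ∅ := card_eq_zero.1 (Nat.le_zero.1 hσ)
    exact ⟨hy, hc, by rw [hy', sum_empty, add_zero]⟩
  · refine ⟨fun _ => 0, fun σ hσ hc => ?_⟩
    obtain rfl : σ = ∅ := card_eq_zero.1 (Nat.le_zero.1 hc)
    exact absurd hσ h0

theorem contr_succ {L : Finset V → Prop} (hL : Down L) {n M M' : ℕ} (h : Contr L n M)
    (hf : Fill L (n + 1) (1 + (n + 1) * M) M') : Contr L (n + 1) (max M M') := by
  classical
  obtain ⟨c, hc⟩ := h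
  have key : ∀ σ, L σ → σ.card = n + 1 → ∃ y : Ch V, InCh L (n + 1 + 1) y ∧
      bd y = sx σ + ∑ u ∈ σ, c (σ.erase u) ∧ y.support.card ≤ M' := by
    intro σ hσ hcard
    have he : ∀ u ∈ σ, (σ.erase u).card = n := fun u hu => by
      rw [card_erase_of_mem hu, hcard]; rfl
    have h1 := fun u hu => hc (σ.erase u) (hL _ _ hσ (erase_subset u σ)) (he u hu).le
    refine hf _ ((InCh.of_sx hσ hcard).add (InCh.sum fun u hu => he u hu ▸ (h1 u hu).1)) ?_ ?_
    · rw [map_add, map_sum, sum_congr rfl fun u hu => (h1 u hu).2.2, sum_add_distrib,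
        ch_dd ch_add_self c σ, add_zero, bd_sx, ch_add_self]
    · refine (card_support_add _ _).trans (add_le_add (by rw [support_sx, card_singleton]) ?_)
      refine (card_support_sum _ _).trans ?_
      rw [← hcard]
      exact sum_le_card_nsmul _ _ _ fun u hu => (h1 u hu).2.1
  choose! y hy using key
  refine ⟨fun σ => if σ.card = n + 1 then y σ else c σ, fun σ hσ hcard => ?_⟩
  have he : ∑ u ∈ σ, (if (σ.erase u).card = n + 1 then y (σ.erase u) else c (σ.erase u)) =
      ∑ u ∈ σ, c (σ.erase u) := sum_congr rfl fun u hu => if_neg (by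
    have := card_erase_lt_of_mem hu
    omega)
  simp only [he]
  by_cases h : σ.card = n + 1
  · rw [if_pos h, h]
    exact ⟨(hy σ hσ h).1, (hy σ hσ h).2.2.trans (le_max_right _ _), (hy σ hσ h).2.1⟩
  · rw [if_neg h]
    have := hc σ hσ (by omega)
    exact ⟨this.1, this.2.1.trans (le_max_left _ _), this.2.2⟩

theorem Cone.mono {L : Finset V → Prop} {m m' : ℕ} (h : Cone L m) (hm : m' ≤ m) : Cone L m' :=
  fun F hF => h F (hF.trans hm)

theorem Cone.fill {L : Finset V → Prop} {i Z : ℕ} (h : Cone L (i * Z)) : Fill L i Z Z := by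
  intro z hz hb hZ
  obtain ⟨v, -, hv⟩ := h (z.support.biUnion id) (card_biUnion_le.trans (by
    rw [mul_comm]
    exact (sum_le_card_nsmul _ _ i fun σ hσ => (hz σ hσ).2.le).trans (Nat.mul_le_mul_right _ hZ)))
  refine ⟨jn v z, hz.jn v fun σ hσ _ => hv σ (subset_biUnion_of_mem id hσ) (hz σ hσ).1, ?_,
    (card_support_jn v z).trans hZ⟩
  rw [bd_jn, hb, map_zero, add_zero]

theorem contr_of_cone (n : ℕ) : ∃ m M : ℕ, ∀ (V : Type) [DecidableEq V] (L : Finset V → Prop),
    Down L → Cone L m → Contr L n M := by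
  induction n with
  | zero => exact ⟨0, 1, fun V _ L _ h => contr_zero (Cone.fill h)⟩
  | succ n ih =>
    obtain ⟨m, M, h⟩ := ih
    exact ⟨max m ((n + 1) * (1 + (n + 1) * M)), _, fun V _ L hL hc =>
      contr_succ hL (h V L hL (hc.mono (le_max_left _ _))) (Cone.fill (hc.mono (le_max_right _ _)))⟩

theorem lc_bd {M : Type} [AddCommGroup M] [Module (ZMod 2) M] (f : Finset V → M) (y : Ch V) :
    Finsupp.linearCombination (ZMod 2) f (bd y) = Finsupp.linearCombination (ZMod 2) (dl f) y := by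
  rw [ch_map_eq bd y, map_sum, ch_map_eq _ y]
  refine sum_congr rfl fun σ _ => ?_
  rw [bd_sx, map_sum, ch_lc_sx]
  exact sum_congr rfl fun u _ => ch_lc_sx _ _

theorem exact_of_contr {𝔽 : Type} [Field 𝔽] [CharP 𝔽 2] {L : Finset V → Prop} {n M i : ℕ}
    (hc : Contr L n M) (hi : i ≤ n) (f : Finset V → 𝔽) (hf : Coc L i f) :
    ∃ x : Finset V → 𝔽, ∀ σ, L σ → σ.card = i → dl x σ = f σ := by
  letI := ZMod.algebra 𝔽 2
  obtain ⟨c, hc⟩ := hc
  refine ⟨fun τ => Finsupp.linearCombination (ZMod 2) f (c τ), fun σ hσ hcard => ?_⟩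
  obtain ⟨h1, -, h2⟩ := hc σ hσ (hcard ▸ hi)
  have h3 := lc_bd f (c σ)
  rw [h2, map_add, map_sum, ch_lc_sx, ch_map_eq _ (c σ), sum_eq_zero (s := (c σ).support) fun τ hτ => by
    rw [ch_lc_sx]; exact hf τ (h1 τ hτ).1 (by rw [(h1 τ hτ).2, hcard])] at h3
  exact (CharTwo.add_eq_zero.1 h3).symm

/-- removing all vertices of one colour from a cycle -/
theorem remove_col (L : Finset V → Prop) (hL : Down L) (Q : V → Prop)
    (hQ : ∀ σ, L σ → ∀ u ∈ σ, ∀ w ∈ σ, Q u → Q w → u = w) (i Z Z1 : ℕ)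
    (hF : ∀ v, Q v → L {v} → Fill (fun τ => v ∉ τ ∧ L (insert v τ)) i Z Z1)
    (z : Ch V) (hz : InCh L (i + 1) z) (hb : bd z = 0) (hZ : z.support.card ≤ Z) :
    ∃ y : Ch V, InCh L (i + 2) y ∧ y.support.card ≤ (i + 1) * Z * Z1 ∧
      InCh (fun τ => L τ ∧ ∀ u ∈ τ, ¬ Q u) (i + 1) (z + bd y) := by
  classical
  set U := (z.support.biUnion id).filter Q with hU
  have hUc : U.card ≤ (i + 1) * Z := (card_filter_le _ _).trans (card_biUnion_le.trans (by
    rw [mul_comm]
    exact (sum_le_card_nsmul _ _ (i + 1) fun σ hσ => (hz σ hσ).2.le).trans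
      (Nat.mul_le_mul_right _ hZ)))
  have key : ∀ v ∈ U, ∃ y : Ch V, InCh (fun τ => v ∉ τ ∧ L (insert v τ)) (i + 1) y ∧
      bd y = lk v z ∧ y.support.card ≤ Z1 := by
    intro v hv
    obtain ⟨h1, h2⟩ := mem_filter.1 hv
    obtain ⟨σ, hσ, hvσ⟩ := mem_biUnion.1 h1
    exact hF v h2 (hL _ _ (hz σ hσ).1 (singleton_subset_iff.2 hvσ)) _ (hz.lk v)
      (by rw [bd_lk, hb, map_zero]) ((card_support_lk v z).trans hZ)
  choose! y hy using key
  refine ⟨∑ v ∈ U, jn v (y v), InCh.sum fun v hv => (hy v hv).1.jn v fun σ hσ _ =>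
    ((hy v hv).1 σ hσ).1.2, ?_, ?_⟩
  · refine (card_support_sum _ _).trans ((sum_le_card_nsmul _ _ Z1 fun v hv =>
      (card_support_jn v _).trans (hy v hv).2.2).trans ?_)
    exact Nat.mul_le_mul_right _ hUc
  · rw [map_sum, sum_congr rfl fun v hv => by rw [bd_jn, (hy v hv).2.1], sum_add_distrib,
      add_left_comm]
    refine InCh.add (InCh.sum fun v hv => (hy v hv).1.mono fun τ hτ => ⟨hL _ _ hτ.2
      (subset_insert v τ), fun u hu hq => hτ.1 ?_⟩) ?_
    · rwa [← hQ _ hτ.2 u (mem_insert_of_mem hu) v (mem_insert_self v τ) hq (mem_filter.1 hv).2]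
    · have e : z + ∑ v ∈ U, jn v (lk v z) =
          ∑ σ ∈ z.support, (sx σ + ∑ v ∈ U, jn v (lk v (sx σ))) := by
        rw [sum_add_distrib, ← ch_eq_sum, sum_comm]
        congr 1
        exact sum_congr rfl fun v _ => by rw [← map_sum, ← ch_map_eq]
      rw [e]
      refine InCh.sum fun σ hσ => ?_
      have e2 : ∀ v, jn v (lk v (sx σ)) = if v ∈ σ then sx σ else 0 := by
        intro v
        rw [lk_sx]
        split_ifs with h
        · rw [jn_sx, if_neg (notMem_erase v σ), insert_erase h]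
        · rw [map_zero]
      simp only [e2]
      by_cases h : ∃ u ∈ σ, Q u
      · obtain ⟨u, hu, hq⟩ := h
        rw [sum_eq_single u, if_pos hu, ch_add_self]
        · exact InCh.zero
        · intro v hv hne
          exact if_neg fun h' => hne (hQ σ (hz σ hσ).1 v h' u hu (mem_filter.1 hv).2 hq)
        · intro h'
          exact absurd (mem_filter.2 ⟨mem_biUnion.2 ⟨σ, hσ, hu⟩, hq⟩) h'
      · rw [sum_eq_zero fun v hv => if_neg fun h' => h ⟨v, h', (mem_filter.1 hv).2⟩, add_zero]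
        exact InCh.of_sx ⟨(hz σ hσ).1, fun u hu hq => h ⟨u, hu, hq⟩⟩ (hz σ hσ).2

end Vale.Agent.P067
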