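import Vale.Agent.P067.Chain

namespace Vale.Agent.P067

open scoped Pointwise

variable {V : Type} [DecidableEq V]

theorem equi_dl_smul {Γ M : Type} [Group Γ] [MulAction Γ V] [AddCommMonoid M] (γ : Γ)
    (x : Finset V → M) (τ : Finset V) : dl x (γ • τ) = ∑ u ∈ τ, x (γ • τ.erase u) := by
  unfold dl
  rw [Finset.smul_finset_def, Finset.sum_image fun a _ b _ h => MulAction.injective γ h]
  refine Finset.sum_congr rfl fun u _ => ?_
  rw [Finset.smul_finset_def, Finset.image_erase (MulAction.injective γ)]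

theorem equi_dl_dl {𝔽 : Type} [Field 𝔽] [CharP 𝔽 2] (f : Finset V → 𝔽) (σ : Finset V) :
    dl (dl f) σ = 0 := by
  unfold dl
  rw [Finset.sum_sigma']
  refine Finset.sum_involution (fun p _ => ⟨p.2, p.1⟩) (fun p _ => ?_) (fun p hp _ h => ?_)
    (fun p hp => ?_) (fun p _ => rfl)
  · rw [Finset.erase_right_comm]
    exact CharTwo.add_self_eq_zero _
  · have h1 := (Finset.mem_erase.1 (Finset.mem_sigma.1 hp).2).1
    exact h1 (congrArg Sigma.fst h)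
  · obtain ⟨h1, h2⟩ := Finset.mem_sigma.1 hp
    obtain ⟨h3, h4⟩ := Finset.mem_erase.1 h2
    exact Finset.mem_sigma.2 ⟨h4, Finset.mem_erase.2 ⟨h3.symm, h1⟩⟩

/-- equivariant solving of `dl x = y` when the index stabilizers have odd order -/
theorem eqSolve {Γ I 𝔽 : Type} [Group Γ] [MulAction Γ I] [MulAction Γ V] [Field 𝔽] [CharP 𝔽 2]
    (χ : Γ →* 𝔽) (P : I → Prop) (hP : ∀ (γ : Γ) i, P i → P (γ • i))
    (hodd : ∀ i, P i → Odd (Nat.card (MulAction.stabilizer Γ i)))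
    (L : I → Finset V → Prop) (hL : ∀ (γ : Γ) i τ, P i → L i τ → L (γ • i) (γ • τ))
    (y : I → Finset V → 𝔽)
    (hy : ∀ (γ : Γ) i τ, P i → L i τ → y (γ • i) (γ • τ) = χ γ * y i τ)
    (hs : ∀ i, P i → ∃ x : Finset V → 𝔽, ∀ τ, L i τ → dl x τ = y i τ) :
    ∃ x : I → Finset V → 𝔽, (∀ (γ : Γ) i τ, P i → x (γ • i) (γ • τ) = χ γ * x i τ) ∧
      ∀ i τ, P i → L i τ → dl (x i) τ = y i τ := by
  classical
  choose! x0 hx0 using hs
  let r : I → I := fun i => (Quotient.mk (MulAction.orbitRel Γ I) i).out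
  have hr : ∀ i, ∃ g : Γ, g • i = r i := fun i =>
    MulAction.orbitRel_apply.1 (Quotient.exact (Quotient.out_eq (Quotient.mk _ i)))
  have hrγ : ∀ (γ : Γ) i, r (γ • i) = r i := fun γ i =>
    congrArg Quotient.out (Quotient.sound (MulAction.orbitRel_apply.2 ⟨γ, rfl⟩))
  have hPr : ∀ i, P i → P (r i) := fun i hi => by
    obtain ⟨g, hg⟩ := hr i
    exact hg ▸ hP g i hi
  have hS : ∀ i, P i → ∃ S : Finset Γ, (∀ γ, γ ∈ S ↔ γ • r i = i) ∧ Odd S.card := by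
    intro i hi
    obtain ⟨g, hg⟩ := hr i
    have ho := hodd i hi
    have hfin : Finite (MulAction.stabilizer Γ i) := Nat.finite_of_card_ne_zero ho.pos.ne'
    have := Fintype.ofFinite (MulAction.stabilizer Γ i)
    refine ⟨Finset.univ.image fun s : MulAction.stabilizer Γ i => (s : Γ) * g⁻¹, fun γ => ?_, ?_⟩
    · rw [Finset.mem_image]
      constructor
      · rintro ⟨s, -, rfl⟩
        rw [← hg, mul_smul, inv_smul_smul]
        exact s.2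
      · intro h
        refine ⟨⟨γ * g, ?_⟩, Finset.mem_univ _, by simp⟩
        rw [MulAction.mem_stabilizer_iff, mul_smul, hg, h]
    · rw [Finset.card_image_of_injective _ fun a b h => Subtype.ext (mul_right_cancel h),
        Finset.card_univ, ← Nat.card_eq_fintype_card]
      exact ho
  choose! S hS1 hS2 using hS
  refine ⟨fun i τ => ∑ γ ∈ S i, χ γ * x0 (r i) (γ⁻¹ • τ), fun δ i τ hi => ?_, fun i τ hi hτ => ?_⟩
  · simp only [hrγ]
    rw [Finset.mul_sum]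
    symm
    refine Finset.sum_bijective (fun γ => δ * γ) (Equiv.mulLeft δ).bijective (fun γ => ?_)
      (fun γ _ => ?_)
    · rw [hS1 i hi, hS1 _ (hP δ i hi), hrγ, mul_smul, smul_left_cancel_iff]
    · rw [map_mul, mul_assoc, mul_inv_rev, mul_smul, inv_smul_smul]
  · have h1 : ∀ γ ∈ S i, ∑ u ∈ τ, χ γ * x0 (r i) (γ⁻¹ • τ.erase u) = y i τ := by
      intro γ hγ
      have h2 := (hS1 i hi γ).1 hγ
      have h3 : L (r i) (γ⁻¹ • τ) := by
        have := hL γ⁻¹ i τ hi hτ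
        rwa [show γ⁻¹ • i = r i from inv_smul_eq_iff.2 h2.symm] at this
      rw [← Finset.mul_sum, ← equi_dl_smul, hx0 _ (hPr i hi) _ h3, ← hy γ _ _ (hPr i hi) h3, h2,
        smul_inv_smul]
    unfold dl
    rw [Finset.sum_comm, Finset.sum_congr rfl h1, Finset.sum_const, nsmul_eq_mul]
    obtain ⟨m, hm⟩ := hS2 i hi
    rw [hm]
    push_cast
    rw [CharTwo.two_eq_zero]
    ring

theorem tower {α β : Type} (ht : α → ℕ) (Pr : ℕ → (α → β) → Prop) (f0 : α → β) (h0 : Pr 0 f0)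
    (step : ∀ h F, Pr h F → ∃ F', Pr (h + 1) F' ∧ ∀ a, ht a ≤ h → F' a = F a) :
    ∃ F : α → β, (∀ a, ht a = 0 → F a = f0 a) ∧
      ∀ h, ∃ F', Pr h F' ∧ ∀ a, ht a ≤ h → F a = F' a := by
  choose nx hnx1 hnx2 using step
  let G : (h : ℕ) → {F : α → β // Pr h F} := fun h =>
    Nat.rec ⟨f0, h0⟩ (fun h p => ⟨nx h p.1 p.2, hnx1 h p.1 p.2⟩) h
  have hG : ∀ a h, ht a ≤ h → (G h).1 a = (G (ht a)).1 a := by
    intro a h hh
    induction h, hh using Nat.le_induction with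
    | base => rfl
    | succ h hh ih => exact (hnx2 h (G h).1 (G h).2 a hh).trans ih
  refine ⟨fun a => (G (ht a)).1 a, fun a ha => ?_, fun h => ⟨(G h).1, (G h).2, fun a ha => ?_⟩⟩
  · exact (hG a 0 ha.le).symm
  · exact (hG a h ha).symm

theorem equi_row {Γ U 𝔽 : Type} [DecidableEq U] [Group Γ] [MulAction Γ V] [MulAction Γ U] [Field 𝔽]
    [CharP 𝔽 2] (χ : Γ →* 𝔽) (L : Finset V → Prop) (Kc : Finset U → Prop)
    (hLΓ : ∀ (γ : Γ) σ, L σ → L (γ • σ)) (hKΓ : ∀ (γ : Γ) τ, Kc τ → Kc (γ • τ))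
    (hodd : ∀ σ, L σ → σ.Nonempty → Odd (Nat.card (MulAction.stabilizer Γ σ)))
    (hzero : ∀ τ, Kc τ → τ.Nonempty → ∃ r : Γ, r • τ = τ ∧ χ r ≠ 1)
    (n M : ℕ) (hc : Contr Kc n M) (i j : ℕ) (hj : j + 1 ≤ n) (F : Finset V → Finset U → 𝔽)
    (hF : ∀ (γ : Γ) σ τ, L σ → σ.card = i → Kc τ → τ.card = j + 1 →
      F (γ • σ) (γ • τ) = χ γ * F σ τ)
    (hd : ∀ σ τ, L σ → σ.card = i → Kc τ → τ.card = j + 2 → dl (F σ) τ = 0) :
    ∃ H : Finset V → Finset U → 𝔽,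
      (∀ (γ : Γ) σ τ, L σ → σ.card = i → H (γ • σ) (γ • τ) = χ γ * H σ τ) ∧
      ∀ σ τ, L σ → σ.card = i → Kc τ → τ.card = j + 1 → dl (H σ) τ = F σ τ := by
  rcases Nat.eq_zero_or_pos i with rfl | hi
  · refine ⟨fun _ _ => 0, fun _ _ _ _ _ => by simp, fun σ τ hσ hσc hτ hτc => ?_⟩
    obtain ⟨r, hr1, hr2⟩ := hzero τ hτ (Finset.card_pos.1 (by omega))
    have h1 := hF r σ τ hσ hσc hτ hτc
    obtain rfl : σ = ∅ := Finset.card_eq_zero.1 hσc
    rw [hr1, Finset.smul_finset_empty] at h1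
    have h2 : (χ r - 1) * F ∅ τ = 0 := by rw [sub_mul, one_mul, ← h1, sub_self]
    rw [(mul_eq_zero.1 h2).resolve_left (sub_ne_zero.2 hr2)]
    simp [dl]
  · obtain ⟨x, hx1, hx2⟩ := eqSolve χ (fun σ : Finset V => L σ ∧ σ.card = i)
      (fun γ σ h => ⟨hLΓ γ σ h.1, by rw [Finset.card_smul_finset, h.2]⟩)
      (fun σ h => hodd σ h.1 (Finset.card_pos.1 (by omega)))
      (fun _ (τ : Finset U) => Kc τ ∧ τ.card = j + 1)
      (fun γ _ τ _ h => ⟨hKΓ γ τ h.1, by rw [Finset.card_smul_finset, h.2]⟩) F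
      (fun γ σ τ h h' => hF γ σ τ h.1 h.2 h'.1 h'.2)
      (fun σ h => by
        obtain ⟨x, hx⟩ := exact_of_contr hc hj (F σ) fun τ hτ hτc => hd σ τ h.1 h.2 hτ hτc
        exact ⟨x, fun τ h' => hx τ h'.1 h'.2⟩)
    exact ⟨x, fun γ σ τ h h' => hx1 γ σ τ ⟨h, h'⟩,
      fun σ τ h h' k k' => hx2 σ τ ⟨h, h'⟩ ⟨k, k'⟩⟩

theorem equi_dl_congr {M : Type} [AddCommMonoid M] {L : Finset V → Prop} (hL : Down L)
    {f g : Finset V → M} {i : ℕ} {σ : Finset V} (hσ : L σ) (hc : σ.card = i + 1)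
    (h : ∀ τ, L τ → τ.card = i → f τ = g τ) : dl f σ = dl g σ :=
  Finset.sum_congr rfl fun u hu => h _ (hL σ _ hσ (Finset.erase_subset u σ))
    (by rw [Finset.card_erase_of_mem hu, hc]; rfl)

theorem equi_dl_eqv {Γ 𝔽 : Type} [Group Γ] [MulAction Γ V] [Field 𝔽] {L : Finset V → Prop}
    (hL : Down L) {f g : Finset V → 𝔽} {i : ℕ} {σ : Finset V} (hσ : L σ) (hc : σ.card = i + 1)
    (γ : Γ) (c : 𝔽) (h : ∀ τ, L τ → τ.card = i → g (γ • τ) = c * f τ) :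
    dl g (γ • σ) = c * dl f σ := by
  rw [equi_dl_smul, dl, Finset.mul_sum]
  exact Finset.sum_congr rfl fun u hu => h _ (hL σ _ hσ (Finset.erase_subset u σ))
    (by rw [Finset.card_erase_of_mem hu, hc]; rfl)

theorem equi_comm {U M : Type} [DecidableEq U] [AddCommMonoid M] (F : Finset V → Finset U → M)
    (σ : Finset V) (τ : Finset U) :
    dl (fun σ' => dl (F σ') τ) σ = dl (fun τ' => dl (fun σ' => F σ' τ') σ) τ := by
  unfold dl
  exact Finset.sum_comm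

theorem equi_both {Γ U 𝔽 : Type} [DecidableEq U] [Group Γ] [MulAction Γ V] [MulAction Γ U]
    [Field 𝔽] [CharP 𝔽 2] (χ : Γ →* 𝔽) (L : Finset V → Prop) (Kc : Finset U → Prop)
    (hL : Down L) (hK : Down Kc)
    (hLΓ : ∀ (γ : Γ) σ, L σ → L (γ • σ)) (hKΓ : ∀ (γ : Γ) τ, Kc τ → Kc (γ • τ))
    (hodd : ∀ σ, L σ → σ.Nonempty → Odd (Nat.card (MulAction.stabilizer Γ σ)))
    (hzero : ∀ τ, Kc τ → τ.Nonempty → ∃ r : Γ, r • τ = τ ∧ χ r ≠ 1)
    (n M : ℕ) (hc : Contr Kc n M)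
    (hcol : ∀ j, ColEx χ L (fun τ : Finset U => Kc τ ∧ τ.card = j + 1)) (i : ℕ) :
    ∀ j, i + 1 + j ≤ n → ∀ F : Finset V → Finset U → 𝔽,
      (∀ (γ : Γ) σ τ, L σ → σ.card = i + 1 → Kc τ → τ.card = j + 1 →
        F (γ • σ) (γ • τ) = χ γ * F σ τ) →
      (∀ σ τ, L σ → σ.card = i + 2 → Kc τ → τ.card = j + 1 → dl (fun σ' => F σ' τ) σ = 0) →
      (∀ σ τ, L σ → σ.card = i + 1 → Kc τ → τ.card = j + 2 → dl (F σ) τ = 0) →
      ∃ G : Finset V → Finset U → 𝔽,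
        (∀ (γ : Γ) σ τ, L σ → σ.card = i → Kc τ → τ.card = j + 1 →
          G (γ • σ) (γ • τ) = χ γ * G σ τ) ∧
        (∀ σ τ, L σ → σ.card = i + 1 → Kc τ → τ.card = j + 1 →
          dl (fun σ' => G σ' τ) σ = F σ τ) ∧
        ∀ σ τ, L σ → σ.card = i → Kc τ → τ.card = j + 2 → dl (G σ) τ = 0 := by
  induction i with
  | zero =>
    intro j hj F h1 h2 _
    obtain ⟨G, hG1, hG2⟩ := hcol j 1 F (fun γ σ τ a b c => h1 γ σ τ a b c.1 c.2)
      (fun σ τ a b c => h2 σ τ a b c.1 c.2)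
    have hG0 : ∀ σ τ, L σ → σ.card = 0 → Kc τ → τ.card = j + 1 → G σ τ = 0 := by
      intro σ τ hσ hσc hτ hτc
      obtain ⟨r, hr1, hr2⟩ := hzero τ hτ (Finset.card_pos.1 (by omega))
      have h1 := hG1 r σ τ hσ (by omega) ⟨hτ, hτc⟩
      obtain rfl : σ = ∅ := Finset.card_eq_zero.1 hσc
      rw [hr1, Finset.smul_finset_empty] at h1
      have h2 : (χ r - 1) * G ∅ τ = 0 := by rw [sub_mul, one_mul, ← h1, sub_self]
      exact (mul_eq_zero.1 h2).resolve_left (sub_ne_zero.2 hr2)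
    refine ⟨G, fun γ σ τ a b c d => hG1 γ σ τ a (by omega) ⟨c, d⟩,
      fun σ τ a b c d => hG2 σ τ a b ⟨c, d⟩, fun σ τ a b c d => ?_⟩
    rw [equi_dl_congr hK c d (g := fun _ => 0) fun τ' e f => hG0 σ τ' a b e f]
    simp [dl]
  | succ i ih =>
    intro j hj F h1 h2 h3
    obtain ⟨G, hG1, hG2⟩ := hcol j (i + 2) F (fun γ σ τ a b c => h1 γ σ τ a b c.1 c.2)
      (fun σ τ a b c => h2 σ τ a b c.1 c.2)
    obtain ⟨G', hG'1, hG'2, hG'3⟩ := ih (j + 1) (by omega) (fun σ τ => dl (G σ) τ)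
      (fun γ σ τ a b c d => equi_dl_eqv hK c d γ _ fun τ' e f => hG1 γ σ τ' a (by omega) ⟨e, f⟩)
      (fun σ τ a b c d => by
        rw [equi_comm, equi_dl_congr hK c d fun τ' e f => hG2 σ τ' a b ⟨e, f⟩]
        exact h3 σ τ a b c d)
      (fun σ τ _ _ _ _ => equi_dl_dl (G σ) τ)
    obtain ⟨H, hH1, hH2⟩ := equi_row χ L Kc hLΓ hKΓ hodd hzero n M hc i (j + 1) (by omega) G'
      hG'1 hG'3
    refine ⟨fun σ τ => G σ τ + dl (fun σ' => H σ' τ) σ, fun γ σ τ a b c d => ?_,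
      fun σ τ a b c d => ?_, fun σ τ a b c d => ?_⟩
    · beta_reduce
      rw [hG1 γ σ τ a (by omega) ⟨c, d⟩, mul_add,
        equi_dl_eqv hL a b γ (χ γ) (f := fun σ' => H σ' τ) fun σ' e f => hH1 γ σ' τ e f]
    · have e1 := equi_dl_dl (fun σ' => H σ' τ) σ
      have e2 := hG2 σ τ a b ⟨c, d⟩
      unfold dl at e1 e2 ⊢
      rw [Finset.sum_add_distrib, e1, e2, add_zero]
    · have e1 := equi_comm H σ τ
      rw [equi_dl_congr hL a b fun σ' e f => hH2 σ' τ e f c d, hG'2 σ τ a b c d] at e1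
      have e2 : dl (fun τ => G σ τ + dl (fun σ' => H σ' τ) σ) τ =
          dl (G σ) τ + dl (fun τ' => dl (fun σ' => H σ' τ') σ) τ := Finset.sum_add_distrib
      rw [e2, ← e1]
      exact CharTwo.add_self_eq_zero _

/-- the double complex argument -/
theorem dbl {Γ U 𝔽 : Type} [DecidableEq U] [Group Γ] [MulAction Γ V] [MulAction Γ U] [Field 𝔽]
    [CharP 𝔽 2] (χ : Γ →* 𝔽) (L : Finset V → Prop) (Kc : Finset U → Prop)
    (hL : Down L) (hK : Down Kc) (hK0 : Kc ∅)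
    (hLΓ : ∀ (γ : Γ) σ, L σ → L (γ • σ)) (hKΓ : ∀ (γ : Γ) τ, Kc τ → Kc (γ • τ))
    (hodd : ∀ σ, L σ → σ.Nonempty → Odd (Nat.card (MulAction.stabilizer Γ σ)))
    (hzero : ∀ τ, Kc τ → τ.Nonempty → ∃ r : Γ, r • τ = τ ∧ χ r ≠ 1)
    (n M : ℕ) (hc : Contr Kc n M)
    (hcol : ∀ j, ColEx χ L (fun τ : Finset U => Kc τ ∧ τ.card = j + 1))
    (i : ℕ) (hi : i + 1 ≤ n) : Van χ L i := by
  intro f hf1 hf2
  obtain ⟨G, hG1, hG2, hG3⟩ := equi_both χ L Kc hL hK hLΓ hKΓ hodd hzero n M hc hcol i 0 hi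
    (fun σ _ => f σ) (fun γ σ _ a b _ _ => hf1 γ σ a b) (fun σ _ a b _ _ => hf2 σ a b)
    (fun σ τ _ _ _ d => by
      rw [dl, Finset.sum_const, d, nsmul_eq_mul]
      push_cast
      rw [CharTwo.two_eq_zero, zero_mul])
  obtain ⟨H, hH1, hH2⟩ := equi_row χ L Kc hLΓ hKΓ hodd hzero n M hc i 0 (by omega) G hG1 hG3
  refine ⟨fun σ => H σ ∅, fun γ σ a b => ?_, fun σ a b => ?_⟩
  · have := hH1 γ σ ∅ a b
    rwa [Finset.smul_finset_empty] at this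
  · obtain ⟨x, hx⟩ := exact_of_contr hc (Nat.zero_le n)
      (fun _ => dl (fun σ => H σ ∅) σ - f σ) fun τ c d => by
        obtain ⟨u, rfl⟩ := Finset.card_eq_one.1 d
        rw [← hG2 σ {u} a b c d, ← equi_dl_congr hL a b fun σ' e f => hH2 σ' {u} e f c d]
        simp [dl]
    have := hx ∅ hK0 rfl
    rw [dl, Finset.sum_empty] at this
    exact sub_eq_zero.1 this.symm

/-- Fourier decomposition step -/
theorem van_step {Γ A ι 𝔽 : Type} [Group Γ] [MulAction Γ V] [AddCommGroup A] [Finite A]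
    [Fintype ι] [Field 𝔽] (κ : Γ → A) (hκ : ∀ γ γ', κ (γ * γ') = κ γ + κ γ')
    (χ : ι → AddChar A 𝔽) (hχ0 : ∑ Y, χ Y 0 = 1) (hχ : ∀ a, a ≠ 0 → ∑ Y, χ Y a = 0)
    (L : Finset V → Prop) (hL : Down L) (hLΓ : ∀ (γ : Γ) σ, L σ → L (γ • σ)) (i : ℕ)
    (hY : ∀ Y, Van (fun γ : Γ => χ Y (κ γ)) L i)
    (f : Finset V → 𝔽)
    (hf : ∀ (γ : Γ) σ, κ γ = 0 → L σ → σ.card = i + 1 → f (γ • σ) = f σ)
    (hd : Coc L (i + 1) f) :
    ∃ k : Finset V → 𝔽, (∀ (γ : Γ) σ, κ γ = 0 → L σ → σ.card = i → k (γ • σ) = k σ) ∧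
      ∀ σ, L σ → σ.card = i + 1 → dl k σ = f σ := by
  classical
  have := Fintype.ofFinite A
  have h1 : κ 1 = 0 := by
    have := hκ 1 1
    rw [mul_one] at this
    exact left_eq_add.1 this
  have hinv : ∀ γ, κ γ⁻¹ = -κ γ := fun γ => by
    have := hκ γ⁻¹ γ
    rw [inv_mul_cancel, h1] at this
    exact eq_neg_of_add_eq_zero_left this.symm
  have hdep : ∀ γ γ' σ, κ γ = κ γ' → L σ → σ.card = i + 1 → f (γ • σ) = f (γ' • σ) := by
    intro γ γ' σ h a b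
    have := hf (γ * γ'⁻¹) (γ' • σ) (by rw [hκ, hinv, h, add_neg_cancel]) (hLΓ _ _ a)
      (by rw [Finset.card_smul_finset, b])
    rwa [mul_smul, inv_smul_smul] at this
  let φ : A → Finset V → 𝔽 := fun Z σ => if h : ∃ γ, κ γ = Z then f (h.choose • σ) else 0
  have hφ : ∀ γ σ, L σ → σ.card = i + 1 → φ (κ γ) σ = f (γ • σ) := by
    intro γ σ a b
    have h : ∃ γ', κ γ' = κ γ := ⟨γ, rfl⟩
    simp only [φ, dif_pos h]
    exact hdep _ _ σ h.choose_spec a b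
  have hφ2 : ∀ Z γ σ, L σ → σ.card = i + 1 → φ Z (γ • σ) = φ (Z + κ γ) σ := by
    intro Z γ σ a b
    by_cases h : ∃ γ', κ γ' = Z
    · obtain ⟨γ', rfl⟩ := h
      rw [← hκ, hφ _ _ a b, hφ _ _ (hLΓ _ _ a) (by rw [Finset.card_smul_finset, b]), mul_smul]
    · have h' : ¬ ∃ γ', κ γ' = Z + κ γ := by
        rintro ⟨γ', h'⟩
        exact h ⟨γ' * γ⁻¹, by rw [hκ, hinv, h', add_neg_cancel_right]⟩
      simp only [φ, dif_neg h, dif_neg h']
  have hφ3 : ∀ Z σ, L σ → σ.card = i + 2 → dl (φ Z) σ = 0 := by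
    intro Z σ a b
    by_cases h : ∃ γ', κ γ' = Z
    · obtain ⟨γ, rfl⟩ := h
      rw [equi_dl_congr hL a b fun τ c d => hφ γ τ c d,
        ← hd (γ • σ) (hLΓ _ _ a) (by rw [Finset.card_smul_finset, b]), equi_dl_smul]
      rfl
    · simp [dl, φ, dif_neg h]
  have hk : ∀ Y, ∃ k : Finset V → 𝔽, Eqv (fun γ : Γ => χ Y (κ γ)) L i k ∧
      ∀ σ, L σ → σ.card = i + 1 → dl k σ = ∑ Z, χ Y (-Z) * φ Z σ := by
    intro Y
    refine hY Y (fun σ => ∑ Z, χ Y (-Z) * φ Z σ) (fun γ σ a b => ?_) (fun σ a b => ?_)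
    · simp only [hφ2 _ γ σ a b]
      rw [Finset.mul_sum]
      refine Fintype.sum_equiv (Equiv.addRight (κ γ)) _ _ fun Z => ?_
      rw [Equiv.coe_addRight, ← mul_assoc, ← AddChar.map_add_eq_mul,
        show κ γ + -(Z + κ γ) = -Z by abel]
    · unfold dl
      rw [Finset.sum_comm]
      refine Finset.sum_eq_zero fun Z _ => ?_
      rw [← Finset.mul_sum]
      exact mul_eq_zero_of_right _ (hφ3 Z σ a b)
  choose k hk1 hk2 using hk
  refine ⟨fun σ => ∑ Y, k Y σ, fun γ σ h a b => Finset.sum_congr rfl fun Y _ => ?_,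
    fun σ a b => ?_⟩
  · rw [hk1 Y γ σ a b]
    simp [h]
  · have e1 : dl (fun σ => ∑ Y, k Y σ) σ = ∑ Y, dl (k Y) σ := Finset.sum_comm
    rw [e1, Finset.sum_congr rfl fun Y _ => hk2 Y σ a b, Finset.sum_comm,
      Finset.sum_eq_single 0 (fun Z _ hZ => by
        rw [← Finset.sum_mul, hχ _ (neg_ne_zero.2 hZ), zero_mul]) (by simp),
      ← Finset.sum_mul, neg_zero, hχ0, one_mul, ← h1, hφ 1 σ a b, one_smul]

end Vale.Agent.P067
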