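import Vale.Agent.P067.LatD
import Vale.Agent.P067.Equi

namespace Vale.Agent.P067

open scoped Pointwise

section abstr

variable {V : Type} [DecidableEq V]

theorem cla_smul_erase {Γ : Type} [Group Γ] [MulAction Γ V] (γ : Γ) (σ : Finset V) (u : V) :
    γ • σ.erase u = (γ • σ).erase (γ • u) := by
  rw [Finset.smul_finset_def, Finset.smul_finset_def,
    Finset.image_erase (MulAction.injective γ)]

theorem cla_dl_union {M : Type} [AddCommMonoid M] (F : Finset V → M) {ρ τ : Finset V}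
    (h : Disjoint ρ τ) :
    dl F (ρ ∪ τ) = ∑ u ∈ ρ, F (ρ.erase u ∪ τ) + ∑ w ∈ τ, F (ρ ∪ τ.erase w) := by
  rw [dl, Finset.sum_union h]
  congr 1
  · refine Finset.sum_congr rfl fun u hu => ?_
    rw [Finset.erase_union_distrib, Finset.erase_eq_of_notMem (Finset.disjoint_left.1 h hu)]
  · refine Finset.sum_congr rfl fun u hu => ?_
    rw [Finset.erase_union_distrib, Finset.erase_eq_of_notMem (Finset.disjoint_right.1 h hu)]

/-- abstract height data -/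
structure ClaD (Γ V : Type) [DecidableEq V] [Group Γ] [MulAction Γ V] (Fc : Finset V → Prop)
    (R : Finset V → Set (ℕ × ℕ)) (ess : Finset V → Finset V) : Prop where
  down : Down Fc
  smul : ∀ (γ : Γ) σ, Fc σ → Fc (γ • σ)
  fin : ∀ σ, (R σ).Finite
  mono : ∀ σ τ, σ ⊆ τ → R σ ⊆ R τ
  un : ∀ σ τ, R (σ ∪ τ) = R σ ∪ R τ
  emp : R ∅ = ∅
  rsm : ∀ (γ : Γ) σ, R (γ • σ) = R σ
  sub : ∀ σ, ess σ ⊆ σ
  e1 : ∀ σ, R (ess σ) = R σ
  e2 : ∀ ρ σ, ρ ⊆ σ → Fc σ → R ρ = R σ → ess ρ = ess σ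
  e3 : ∀ σ u, u ∈ ess σ → Fc σ → R (σ.erase u) ⊂ R σ
  e4 : ∀ (γ : Γ) σ, ess (γ • σ) = γ • ess σ

variable {Γ 𝔽 : Type} [Group Γ] [MulAction Γ V] [Field 𝔽] [CharP 𝔽 2]
variable {Fc : Finset V → Prop} {R : Finset V → Set (ℕ × ℕ)} {ess : Finset V → Finset V}

/-- the property carried along the height induction -/
def ClaP (χ : Γ →* 𝔽) (Fc : Finset V → Prop) (R : Finset V → Set (ℕ × ℕ)) (i h : ℕ)
    (F : Finset V → 𝔽) : Prop :=
  (∀ (γ : Γ) σ, Fc σ → σ.card = i + 1 → (R σ).ncard ≤ h → F (γ • σ) = χ γ * F σ) ∧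
    ∀ σ, Fc σ → σ.card = i + 2 → (R σ).ncard ≤ h → dl F σ = 0

theorem ClaD.low (D : ClaD Γ V Fc R ess) {h : ℕ} {ρ τ : Finset V} (he : ess ρ = ρ)
    (hh : (R ρ).ncard = h + 1) (hd : Disjoint ρ τ) (hf : Fc (ρ ∪ τ)) (hr : R τ ⊆ R ρ) {u : V}
    (hu : u ∈ ρ) : Fc (ρ.erase u ∪ τ) ∧ (ρ.erase u ∪ τ).card + 1 = τ.card + ρ.card ∧
      (R (ρ.erase u ∪ τ)).ncard ≤ h := by
  have h1 : R ρ = R (ρ ∪ τ) := by rw [D.un, Set.union_eq_left.2 hr]
  have h2 : ess (ρ ∪ τ) = ρ := by rw [← D.e2 ρ _ Finset.subset_union_left hf h1, he]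
  have h3 : (ρ ∪ τ).erase u = ρ.erase u ∪ τ := by
    rw [Finset.erase_union_distrib, Finset.erase_eq_of_notMem (Finset.disjoint_left.1 hd hu)]
  have h4 := Set.ncard_lt_ncard (D.e3 (ρ ∪ τ) u (h2.symm ▸ hu) hf) (D.fin _)
  rw [← h1, hh, h3] at h4
  refine ⟨D.down _ _ hf (h3 ▸ Finset.erase_subset _ _), ?_, by omega⟩
  rw [← h3, Finset.card_erase_add_one (Finset.mem_union_left _ hu), Finset.card_union_of_disjoint hd,
    add_comm]

theorem ClaD.solve (D : ClaD Γ V Fc R ess) (χ : Γ →* 𝔽) (i h : ℕ)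
    (hodd : ∀ σ, Fc σ → σ.Nonempty → Odd (Nat.card (MulAction.stabilizer Γ σ)))
    (hcontr : ∀ ρ, Fc ρ → ρ.Nonempty → ∀ n, n + ρ.card = i + 2 →
      ∃ M, Contr (fun τ => Disjoint ρ τ ∧ Fc (ρ ∪ τ) ∧ R τ ⊆ R ρ) n M)
    (F : Finset V → 𝔽) (hF : ClaP χ Fc R i h F) :
    ∃ x : Finset V → Finset V → 𝔽,
      (∀ (γ : Γ) ρ τ, (Fc ρ ∧ ess ρ = ρ ∧ (R ρ).ncard = h + 1) →
        x (γ • ρ) (γ • τ) = χ γ * x ρ τ) ∧
      ∀ ρ τ, (Fc ρ ∧ ess ρ = ρ ∧ (R ρ).ncard = h + 1) →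
        ((Disjoint ρ τ ∧ Fc (ρ ∪ τ) ∧ R τ ⊆ R ρ) ∧ τ.card + ρ.card = i + 2) →
          dl (x ρ) τ = ∑ u ∈ ρ, F (ρ.erase u ∪ τ) := by
  have hne : ∀ ρ : Finset V, (R ρ).ncard = h + 1 → ρ.Nonempty := fun ρ hρ => by
    rw [Finset.nonempty_iff_ne_empty]
    rintro rfl
    rw [D.emp, Set.ncard_empty] at hρ
    omega
  refine eqSolve χ (fun ρ : Finset V => Fc ρ ∧ ess ρ = ρ ∧ (R ρ).ncard = h + 1) ?_ ?_
    (fun ρ τ => (Disjoint ρ τ ∧ Fc (ρ ∪ τ) ∧ R τ ⊆ R ρ) ∧ τ.card + ρ.card = i + 2) ?_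
    (fun ρ τ => ∑ u ∈ ρ, F (ρ.erase u ∪ τ)) ?_ ?_
  · rintro γ ρ ⟨h1, h2, h3⟩
    exact ⟨D.smul γ ρ h1, by rw [D.e4, h2], by rw [D.rsm, h3]⟩
  · rintro ρ ⟨h1, -, h3⟩
    exact hodd ρ h1 (hne ρ h3)
  · rintro γ ρ τ - ⟨⟨h1, h2, h3⟩, h4⟩
    refine ⟨⟨?_, ?_, by rwa [D.rsm, D.rsm]⟩, by rwa [Finset.card_smul_finset, Finset.card_smul_finset]⟩
    · rw [Finset.smul_finset_def, Finset.smul_finset_def,
        Finset.disjoint_image (MulAction.injective γ)]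
      exact h1
    · rw [← Finset.smul_finset_union]
      exact D.smul γ _ h2
  · rintro γ ρ τ ⟨-, h2, h3⟩ ⟨⟨h4, h5, h6⟩, h7⟩
    rw [Finset.mul_sum]
    conv_lhs => rw [Finset.smul_finset_def (a := γ) (s := ρ),
      Finset.sum_image fun a _ b _ e => MulAction.injective γ e]
    refine Finset.sum_congr rfl fun u hu => ?_
    obtain ⟨a1, a2, a3⟩ := D.low h2 h3 h4 h5 h6 hu
    rw [← hF.1 γ _ a1 (by omega) a3, Finset.smul_finset_union, cla_smul_erase,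
      Finset.smul_finset_def (a := γ) (s := ρ)]
  · rintro ρ ⟨h1, h2, h3⟩
    by_cases hc : i + 2 < ρ.card
    · exact ⟨fun _ => 0, fun τ hτ => by have := hτ.2; omega⟩
    obtain ⟨M, hM⟩ := hcontr ρ h1 (hne ρ h3) (i + 2 - ρ.card) (by omega)
    obtain ⟨x, hx⟩ := exact_of_contr hM le_rfl (fun τ => ∑ u ∈ ρ, F (ρ.erase u ∪ τ)) (by
      rintro τ ⟨h4, h5, h6⟩ h7
      have b1 : ∀ u ∈ ρ, ∑ w ∈ τ, F (ρ.erase u ∪ τ.erase w) =
          ∑ u' ∈ ρ.erase u, F ((ρ.erase u).erase u' ∪ τ) := fun u hu => by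
        obtain ⟨a1, a2, a3⟩ := D.low h2 h3 h4 h5 h6 hu
        have b2 := hF.2 _ a1 (by omega) a3
        rw [cla_dl_union F (h4.mono_left (Finset.erase_subset _ _))] at b2
        exact (CharTwo.add_eq_zero.1 b2).symm
      rw [dl, Finset.sum_comm, Finset.sum_congr rfl b1]
      exact ch_dd CharTwo.add_self_eq_zero (fun s => F (s ∪ τ)) ρ)
    exact ⟨x, fun τ hτ => hx τ hτ.1 (by have := hτ.2; omega)⟩

theorem ClaD.step (D : ClaD Γ V Fc R ess) (χ : Γ →* 𝔽) (i h : ℕ)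
    (hodd : ∀ σ, Fc σ → σ.Nonempty → Odd (Nat.card (MulAction.stabilizer Γ σ)))
    (hcontr : ∀ ρ, Fc ρ → ρ.Nonempty → ∀ n, n + ρ.card = i + 2 →
      ∃ M, Contr (fun τ => Disjoint ρ τ ∧ Fc (ρ ∪ τ) ∧ R τ ⊆ R ρ) n M)
    (F : Finset V → 𝔽) (hF : ClaP χ Fc R i h F) :
    ∃ F', ClaP χ Fc R i (h + 1) F' ∧ ∀ σ, (R σ).ncard ≤ h → F' σ = F σ := by
  obtain ⟨x, hx1, hx2⟩ := D.solve χ i h hodd hcontr F hF
  have hP : ∀ σ, Fc σ → (R σ).ncard = h + 1 →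
      Fc (ess σ) ∧ ess (ess σ) = ess σ ∧ (R (ess σ)).ncard = h + 1 := fun σ h1 h2 =>
    ⟨D.down _ _ h1 (D.sub σ), D.e2 _ _ (D.sub σ) h1 (D.e1 σ), by rw [D.e1, h2]⟩
  refine ⟨fun σ => if (R σ).ncard = h + 1 then x (ess σ) (σ \ ess σ) else F σ, ⟨?_, ?_⟩,
    fun σ hσ => if_neg (by omega)⟩
  · intro γ σ h1 h2 h3
    simp only [D.rsm]
    split_ifs with h4
    · rw [D.e4, ← Finset.smul_finset_sdiff, hx1 γ _ _ (hP σ h1 h4)]
    · exact hF.1 γ σ h1 h2 (by omega)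
  · intro σ h1 h2 h3
    by_cases h4 : (R σ).ncard = h + 1
    · obtain ⟨p1, p2, p3⟩ := hP σ h1 h4
      have q0 : ess σ ∪ σ \ ess σ = σ := Finset.union_sdiff_of_subset (D.sub σ)
      have q1 : Disjoint (ess σ) (σ \ ess σ) := Finset.disjoint_sdiff
      have q2 : Fc (ess σ ∪ σ \ ess σ) := by rwa [q0]
      have q3 : R (σ \ ess σ) ⊆ R (ess σ) := by
        rw [D.e1]
        exact D.mono _ _ Finset.sdiff_subset
      have q4 := hx2 (ess σ) (σ \ ess σ) ⟨p1, p2, p3⟩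
        ⟨⟨q1, q2, q3⟩, by rw [Finset.card_sdiff_add_card_eq_card (D.sub σ), h2]⟩
      generalize ess σ = ρ at *
      generalize σ \ ρ = τ at *
      subst q0
      rw [cla_dl_union _ q1, CharTwo.add_eq_zero, Finset.sum_congr rfl fun u hu =>
        if_neg (by have := (D.low p2 p3 q1 q2 q3 hu).2.2; omega), ← q4, dl]
      refine Finset.sum_congr rfl fun w hw => ?_
      have r1 : R ρ = R (ρ ∪ τ.erase w) := by
        rw [D.un, Set.union_eq_left.2 ((D.mono _ _ (Finset.erase_subset _ _)).trans q3)]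
      have r2 : ess (ρ ∪ τ.erase w) = ρ := by
        rw [← D.e2 ρ _ Finset.subset_union_left
          (D.down _ _ q2 (Finset.union_subset_union_right (Finset.erase_subset _ _))) r1, p2]
      rw [if_pos (by rw [← r1, p3]), r2,
        Finset.union_sdiff_cancel_left (q1.mono_right (Finset.erase_subset _ _))]
    · rw [← hF.2 σ h1 h2 (by omega), dl, dl]
      refine Finset.sum_congr rfl fun u _ => if_neg ?_
      have := Set.ncard_le_ncard (D.mono _ _ (Finset.erase_subset u σ)) (D.fin σ)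
      omega

theorem ClaD.van (D : ClaD Γ V Fc R ess) (χ : Γ →* 𝔽) (i : ℕ)
    (hodd : ∀ σ, Fc σ → σ.Nonempty → Odd (Nat.card (MulAction.stabilizer Γ σ)))
    (hcontr : ∀ ρ, Fc ρ → ρ.Nonempty → ∀ n, n + ρ.card = i + 2 →
      ∃ M, Contr (fun τ => Disjoint ρ τ ∧ Fc (ρ ∪ τ) ∧ R τ ⊆ R ρ) n M)
    (h : Van χ Fc i) : Van χ (fun σ => Fc σ ∧ R σ = ∅) i := by
  intro f hf1 hf2
  have h0 : ∀ σ, (R σ).ncard ≤ 0 → R σ = ∅ := fun σ hσ =>
    (Set.ncard_eq_zero (D.fin σ)).1 (by omega)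
  obtain ⟨F, hF0, hF⟩ := tower (fun σ => (R σ).ncard) (ClaP χ Fc R i) f
    ⟨fun γ σ a b c => hf1 γ σ ⟨a, h0 σ c⟩ b, fun σ a b c => hf2 σ ⟨a, h0 σ c⟩ b⟩
    fun h F hF => D.step χ i h hodd hcontr F hF
  obtain ⟨k, hk1, hk2⟩ := h F (fun γ σ a b => by
    obtain ⟨F', c1, c2⟩ := hF (R σ).ncard
    rw [c2 σ le_rfl, c2 (γ • σ) (by rw [D.rsm]), c1.1 γ σ a b le_rfl]) (fun σ a b => by
    obtain ⟨F', c1, c2⟩ := hF (R σ).ncard
    rw [← c1.2 σ a b le_rfl, dl, dl]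
    exact Finset.sum_congr rfl fun u _ =>
      c2 _ (Set.ncard_le_ncard (D.mono _ _ (Finset.erase_subset u σ)) (D.fin σ)))
  refine ⟨k, fun γ σ a b => hk1 γ σ a.1 b, fun σ a b => ?_⟩
  rw [hk2 σ a.1 b, hF0 σ (by simp only [a.2, Set.ncard_empty])]

end abstr

variable {K : Type} [Field K] {N : ℕ}

theorem cla_finite_RL (u : Vx K N) : (RL u.1).Finite := by
  obtain ⟨k0, hk0⟩ := h0_sh_eventually u.com
  obtain ⟨k1, hk1⟩ := h1_sh_eventually u.com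
  refine ((Set.finite_le_nat (h0 (sh k1 u.1))).prod (Set.finite_le_nat (h1 (sh k0 u.1)))).subset ?_
  rintro ⟨a, b⟩ ⟨ha, hb, k, h2, h3⟩
  have h4 : k0 ≤ k := by
    by_contra hc
    have := hk0 k (by omega)
    simp only at ha h2
    omega
  have h5 : k ≤ k1 := by
    by_contra hc
    have := hk1 k (by omega)
    simp only at hb h3
    omega
  exact ⟨h2.trans (h0_mono (u.com.sh k1) (u.lat.sh_le h5)),
    h3.trans (h1_anti (u.com.sh k0) (u.lat.sh_le h4))⟩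

theorem cla_finite_Rs (σ : Finset (Vx K N)) : (Rs σ).Finite :=
  (σ.finite_toSet.biUnion fun u _ => cla_finite_RL u).subset fun _ ⟨u, hu, h⟩ =>
    Set.mem_biUnion hu h

open Classical in
/-- the essential vertices of a face -/
noncomputable def claEss (σ : Finset (Vx K N)) : Finset (Vx K N) :=
  σ.filter fun u => ∃ k, Maximal (· ∈ Rs σ) (h0 (sh k u.1), h1 (sh k u.1))

theorem cla_mem_ess {σ : Finset (Vx K N)} {u : Vx K N} :
    u ∈ claEss σ ↔ u ∈ σ ∧ ∃ k, Maximal (· ∈ Rs σ) (h0 (sh k u.1), h1 (sh k u.1)) := by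
  classical
  rw [claEss, Finset.mem_filter]

theorem cla_corner {σ : Finset (Vx K N)} {c : ℕ × ℕ} (hc : Maximal (· ∈ Rs σ) c) {w : Vx K N}
    (hw : w ∈ σ) (h : c ∈ RL w.1) : ∃ l, c = (h0 (sh l w.1), h1 (sh l w.1)) := by
  obtain ⟨h1', h2, l, h3, h4⟩ := h
  have h5 : c ≤ (h0 (sh l w.1), h1 (sh l w.1)) := ⟨h3, h4⟩
  exact ⟨l, le_antisymm h5
    (hc.2 ⟨w, hw, h1'.trans h3, h2.trans h4, l, le_rfl, le_rfl⟩ h5)⟩

theorem cla_unique {σ : Finset (Vx K N)} (hσ : Face σ) {u w : Vx K N} (hu : u ∈ σ) (hw : w ∈ σ)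
    {k : ℤ} (hc : Maximal (· ∈ Rs σ) (h0 (sh k u.1), h1 (sh k u.1)))
    (h : (h0 (sh k u.1), h1 (sh k u.1)) ∈ RL w.1) : u = w := by
  obtain ⟨l, hl⟩ := cla_corner hc hw h
  obtain ⟨e0, e1⟩ := Prod.mk.inj hl
  exact (vx_eq_of_sh (((hσ u hu w hw).sh k l).eq_of_idx (u.com.sh k) (w.com.sh l)
    (by rw [idx, idx, e0, e1]))).1

theorem cla_data (Γ : Subgroup (GG K N)) : ClaD Γ (Vx K N) Face Rs claEss where
  down := face_down
  smul := fun γ _ h => h.smul γ.1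
  fin := cla_finite_Rs
  mono := fun _ _ => Rs_mono
  un := fun σ τ => by
    refine Set.Subset.antisymm ?_ (Set.union_subset (Rs_mono Finset.subset_union_left)
      (Rs_mono Finset.subset_union_right))
    rintro c ⟨u, hu, h⟩
    exact (Finset.mem_union.1 hu).imp (fun e => ⟨u, e, h⟩) fun e => ⟨u, e, h⟩
  emp := by simp [Rs]
  rsm := fun γ σ => Rs_smul γ.1 σ
  sub := fun σ u hu => (cla_mem_ess.1 hu).1
  e1 := fun σ => by
    refine Set.Subset.antisymm (Rs_mono fun u hu => (cla_mem_ess.1 hu).1) fun c hc => ?_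
    obtain ⟨m, hm1, hm2⟩ := (cla_finite_Rs σ).exists_le_maximal hc
    obtain ⟨u, hu, h⟩ := hm2.1
    obtain ⟨l, rfl⟩ := cla_corner hm2 hu h
    obtain ⟨w, -, a1, a2, -⟩ := hc
    exact ⟨u, cla_mem_ess.2 ⟨hu, l, hm2⟩, a1, a2, l, hm1.1, hm1.2⟩
  e2 := fun ρ σ h1 h2 h3 => by
    ext u
    rw [cla_mem_ess, cla_mem_ess, h3]
    refine ⟨fun h => ⟨h1 h.1, h.2⟩, fun ⟨hu, k, hk⟩ => ⟨?_, k, hk⟩⟩
    have h4 := hk.1
    rw [← h3] at h4
    obtain ⟨w, hw, h5⟩ := h4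
    rw [cla_unique h2 hu (h1 hw) hk h5]
    exact hw
  e3 := fun σ u hu h2 => by
    obtain ⟨hu, k, hk⟩ := cla_mem_ess.1 hu
    refine ⟨Rs_mono (Finset.erase_subset _ _), fun h => ?_⟩
    obtain ⟨w, hw, h5⟩ := h hk.1
    exact (Finset.mem_erase.1 hw).1 (cla_unique h2 hu (Finset.mem_of_mem_erase hw) hk h5).symm
  e4 := fun γ σ => by
    have h1 : Rs (γ • σ) = Rs σ := Rs_smul γ.1 σ
    ext u
    obtain ⟨u, rfl⟩ := MulAction.surjective γ u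
    rw [cla_mem_ess, Finset.smul_mem_smul_finset_iff, Finset.smul_mem_smul_finset_iff, cla_mem_ess,
      h1]
    have h2 : (γ • u).1 = gm γ.1 u.1 := rfl
    simp only [h2, ← gm_sh, h0_gm, h1_gm]

/-- equivariant cocycles extend from the good faces to the whole building -/
theorem claimA {𝔽 : Type} [Field 𝔽] [CharP 𝔽 2] (Γ : Subgroup (GG K N)) (χ : Γ →* 𝔽)
    (hodd : ∀ σ : Finset (Vx K N), Face σ → σ.Nonempty →
      Odd (Nat.card (MulAction.stabilizer Γ σ)))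
    (hcontr : ∀ ρ : Finset (Vx K N), Face ρ → ρ.Nonempty → ∀ n, n + ρ.card < N →
      ∃ M, Contr (LL ρ) n M)
    (i : ℕ) (hi : i + 3 ≤ N) (h : Van χ (Face : Finset (Vx K N) → Prop) i) :
    Van χ (Good : Finset (Vx K N) → Prop) i :=
  (cla_data Γ).van χ i hodd (fun ρ a b n c => hcontr ρ a b n (by omega)) h

end Vale.Agent.P067
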