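import Vale.Agent.P067.Chain

namespace Vale.Agent.P067

open Finset

variable {V : Type} [DecidableEq V]

theorem prism_mv_dl {M : Type} [AddCommGroup M] (h2 : ∀ m : M, m + m = 0) (f : Finset V → M)
    (s : Multiset V) : mv (dl f) s = (s.map fun v => mv f (s.erase v)).sum := by
  by_cases hs : s.Nodup
  · lift s to Finset V using hs
    rw [mv, if_pos s.nodup, val_toFinset, dl, Finset.sum]
    congr 1
    refine Multiset.map_congr rfl fun v _ => ?_
    rw [← erase_val, mv, if_pos (s.erase v).nodup, val_toFinset]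
  · rw [mv, if_neg hs]
    rw [Multiset.nodup_iff_ne_cons_cons] at hs
    push Not at hs
    obtain ⟨v, t, rfl⟩ := hs
    rw [Multiset.map_cons, Multiset.map_cons, Multiset.sum_cons, Multiset.sum_cons, ← add_assoc, h2,
      zero_add, Multiset.sum_eq_zero]
    intro m hm
    obtain ⟨w, hw, rfl⟩ := Multiset.mem_map.1 hm
    rw [Multiset.erase_cons_tail_of_mem (Multiset.mem_cons_of_mem hw),
      Multiset.erase_cons_tail_of_mem hw, mv, if_neg (by simp)]

theorem prism_mv_add {M : Type} [AddCommGroup M] (h2 : ∀ m : M, m + m = 0) (f : Finset V → M)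
    (a b : V → V) (A B : Finset V) : mv (dl f) (A.val.map a + B.val.map b) =
      ∑ w ∈ A, mv f ((A.erase w).val.map a + B.val.map b) +
        ∑ w ∈ B, mv f (A.val.map a + (B.erase w).val.map b) := by
  rw [prism_mv_dl h2, Multiset.map_add, Multiset.sum_add, Multiset.map_map, Multiset.map_map,
    Finset.sum, Finset.sum]
  congr 2
  · refine Multiset.map_congr rfl fun w hw => ?_
    rw [Function.comp_apply, Multiset.erase_add_left_pos _ (Multiset.mem_map_of_mem a hw),
      erase_val, Multiset.map_erase_of_mem a _ hw]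
  · refine Multiset.map_congr rfl fun w hw => ?_
    rw [Function.comp_apply, Multiset.erase_add_right_pos _ (Multiset.mem_map_of_mem b hw),
      erase_val, Multiset.map_erase_of_mem b _ hw]

theorem prism_mv_map {M : Type} [AddCommGroup M] (h2 : ∀ m : M, m + m = 0) (f : Finset V → M)
    (a : V → V) (A : Finset V) :
    mv (dl f) (A.val.map a) = ∑ w ∈ A, mv f ((A.erase w).val.map a) := by
  simpa using prism_mv_add h2 f a a A ∅

omit [DecidableEq V] in
theorem prism_tele {M : Type} [AddCommGroup M] (h2 : ∀ m : M, m + m = 0) (T : ℤ → M)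
    (κ : V → ℤ) (x : Finset V) (hκ : Set.InjOn κ x)
    (hT : ∀ k, (∀ u ∈ x, κ u ≠ k) → T (k + 1) = T k) (lo : ℤ) (hlo : ∀ u ∈ x, lo ≤ κ u) (n : ℕ) :
    ∑ u ∈ x.filter (fun u => κ u < lo + n), (T (κ u) + T (κ u + 1)) = T lo + T (lo + n) := by
  classical
  induction n with
  | zero =>
    rw [filter_false_of_mem fun u hu => by simpa using hlo u hu]
    simp [h2]
  | succ n ih =>
    by_cases h : ∃ u ∈ x, κ u = lo + n
    · obtain ⟨u, hu, e⟩ := h
      have : x.filter (fun u => κ u < lo + (n + 1 : ℕ)) =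
          insert u (x.filter fun u => κ u < lo + n) := by
        ext w
        simp only [mem_filter, mem_insert]
        constructor
        · rintro ⟨h1, h3⟩
          by_cases c : κ w = lo + n
          · exact Or.inl (hκ h1 hu (c.trans e.symm))
          · exact Or.inr ⟨h1, by omega⟩
        · rintro (rfl | ⟨h1, h3⟩)
          exacts [⟨hu, by omega⟩, ⟨h1, by omega⟩]
      rw [this, sum_insert (by simp [e]), ih, e, Nat.cast_succ, ← add_assoc lo]
      rw [add_comm (T (lo + n)), add_add_add_comm, h2, add_zero, add_comm]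
    · push Not at h
      rw [Nat.cast_succ, ← add_assoc lo, hT _ h, ← ih]
      congr 1
      exact filter_congr fun u hu => by have := h u hu; omega

/-- prism identity, for cochains with values in any group of exponent two -/
theorem prism_id {M : Type} [AddCommGroup M] (h2 : ∀ m : M, m + m = 0) (f : Finset V → M)
    (κ : V → ℤ) (a b : V → V) (x : Finset V) (hκ : Set.InjOn κ x) :
    pr (dl f) κ a b x + ∑ w ∈ x, pr f κ a b (x.erase w)
      = mv f (x.val.map a) + mv f (x.val.map b) := by
  let T : ℤ → M := fun k =>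
    mv f ((x.filter fun w => κ w < k).val.map a + (x.filter fun w => k ≤ κ w).val.map b)
  let S : V → V → M := fun u w => mv f (((x.filter fun w => κ w ≤ κ u).erase w).val.map a +
    ((x.filter fun w => κ u ≤ κ w).erase w).val.map b)
  have e1 : ∑ w ∈ x, pr f κ a b (x.erase w) = ∑ u ∈ x, ∑ w ∈ x.erase u, S u w := by
    simp only [pr, filter_erase]
    exact sum_comm' fun w u => by simp only [mem_erase]; tauto
  have e2 : ∀ u ∈ x, mv (dl f) ((x.filter fun w => κ w ≤ κ u).val.map a +
      (x.filter fun w => κ u ≤ κ w).val.map b) =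
      (T (κ u) + T (κ u + 1)) + ∑ w ∈ x.erase u, S u w := by
    intro u hu
    have a1 : (x.filter fun w => κ w ≤ κ u).erase u = x.filter fun w => κ w < κ u := by
      ext w
      simp only [mem_erase, mem_filter]
      exact ⟨fun h => ⟨h.2.1, lt_of_le_of_ne h.2.2 fun e => h.1 (hκ h.2.1 hu e)⟩,
        fun h => ⟨fun e => by simp [e] at h, h.1, h.2.le⟩⟩
    have a2 : (x.filter fun w => κ u ≤ κ w).erase u = x.filter fun w => κ u + 1 ≤ κ w := by
      ext w
      simp only [mem_erase, mem_filter]
      exact ⟨fun h => ⟨h.2.1, lt_of_le_of_ne h.2.2 fun e => h.1 (hκ h.2.1 hu e.symm)⟩,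
        fun h => ⟨fun e => by simp [e] at h, h.1, by omega⟩⟩
    have a3 : (x.filter fun w => κ w < κ u + 1) = x.filter fun w => κ w ≤ κ u :=
      filter_congr fun w _ => by omega
    have a4 : ∑ w ∈ x.erase u, S u w = ∑ w ∈ x.filter (fun w => κ w < κ u), S u w +
        ∑ w ∈ x.filter (fun w => κ u + 1 ≤ κ w), S u w := by
      rw [← sum_union (disjoint_filter.2 fun w _ h => by omega)]
      congr 1
      rw [← a1, ← a2, ← erase_union_distrib, ← filter_or, filter_true_of_mem fun w _ => by omega]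
    rw [prism_mv_add h2, ← add_sum_erase _ _ (mem_filter.2 ⟨hu, le_rfl⟩ :
      u ∈ x.filter fun w => κ w ≤ κ u), ← add_sum_erase _ _ (mem_filter.2 ⟨hu, le_rfl⟩ :
      u ∈ x.filter fun w => κ u ≤ κ w), a4, add_add_add_comm]
    simp only [T, a1, a2, a3]
    congr 2
    · refine sum_congr rfl fun w hw => ?_
      simp only [S]
      rw [erase_eq_of_notMem (s := x.filter fun w => κ u ≤ κ w) fun h => by
        have := (mem_filter.1 h).2
        have := (mem_filter.1 hw).2
        omega]
    · refine sum_congr rfl fun w hw => ?_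
      simp only [S]
      rw [erase_eq_of_notMem (s := x.filter fun w => κ w ≤ κ u) fun h => by
        have := (mem_filter.1 h).2
        have := (mem_filter.1 hw).2
        omega]
  obtain ⟨lo, hlo⟩ := (x.finite_toSet.image κ).bddBelow
  obtain ⟨hi, hhi⟩ := (x.finite_toSet.image κ).bddAbove
  have b1 : ∀ u ∈ x, lo ≤ κ u := fun u hu => hlo ⟨u, hu, rfl⟩
  have b2 : ∀ u ∈ x, κ u < lo + ((hi + 1 - lo).toNat : ℕ) := fun u hu => by
    have := hhi ⟨u, hu, rfl⟩
    omega
  have e3 := prism_tele h2 T κ x hκ (fun k hk => by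
    simp only [T]
    rw [filter_congr (q := fun w => κ w < k) fun w hw => by have := hk w hw; omega,
      filter_congr (p := fun w => k + 1 ≤ κ w) (q := fun w => k ≤ κ w) fun w hw => by
        have := hk w hw; omega]) lo b1 (hi + 1 - lo).toNat
  rw [filter_true_of_mem b2] at e3
  rw [e1, pr, sum_congr rfl e2, sum_add_distrib, add_assoc, h2, add_zero, e3, add_comm]
  simp only [T]
  rw [filter_true_of_mem b2, filter_true_of_mem b1, filter_false_of_mem fun u hu => (b2 u hu).not_ge,
    filter_false_of_mem fun u hu => (b1 u hu).not_gt]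
  simp

theorem prism_card (κ : V → ℤ) (a b : V → V) {x : Finset V} (hκ : Set.InjOn κ x) {u : V}
    (hu : u ∈ x) : Multiset.card ((x.filter fun w => κ w ≤ κ u).val.map a +
      (x.filter fun w => κ u ≤ κ w).val.map b) = x.card + 1 := by
  rw [Multiset.card_add, Multiset.card_map, Multiset.card_map, card_val, card_val,
    ← card_union_add_card_inter, ← filter_or, filter_true_of_mem fun w _ => by omega, ← filter_and]
  congr 1
  rw [card_eq_one]
  refine ⟨u, eq_singleton_iff_unique_mem.2 ⟨mem_filter.2 ⟨hu, le_rfl, le_rfl⟩, fun w hw => ?_⟩⟩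
  obtain ⟨h1, h3, h4⟩ := mem_filter.1 hw
  exact hκ h1 hu (le_antisymm h3 h4)

theorem prism_toFinset (a b : V → V) (A B : Finset V) :
    (A.val.map a + B.val.map b).toFinset = A.image a ∪ B.image b := by
  rw [Multiset.toFinset_add]
  rfl

theorem prism_bd_mv (s : Multiset V) : bd (mv sx s) = mv (dl sx) s := by
  unfold mv
  split_ifs
  · exact bd_sx _
  · exact map_zero _

theorem prism_card_mv (s : Multiset V) : (mv sx s).support.card ≤ 1 := by
  unfold mv
  split_ifs
  · rw [support_sx, card_singleton]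
  · simp

theorem prism_inCh_mv {L : Finset V → Prop} {i : ℕ} {s : Multiset V} (h : L s.toFinset)
    (hc : Multiset.card s = i) : InCh L i (mv sx s) := by
  unfold mv
  split_ifs with hs
  · exact InCh.of_sx h ((Multiset.toFinset_card_of_nodup hs).trans hc)
  · exact InCh.zero

/-- a cycle that can be pushed by an order homotopy into a cone is a boundary -/
theorem cone_homotopy (L : Finset V → Prop) (i : ℕ) (κ : V → ℤ) (b : V → V) (v0 : V) (z : Ch V)
    (hz : ∀ x ∈ z.support, x.card = i) (hb : bd z = 0)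
    (hκ : ∀ x ∈ z.support, Set.InjOn κ x)
    (hpr : ∀ x ∈ z.support, ∀ u ∈ x,
      L ((x.filter fun w => κ w ≤ κ u) ∪ (x.filter fun w => κ u ≤ κ w).image b))
    (hc : ∀ x ∈ z.support, L (insert v0 (x.image b))) :
    ∃ y : Ch V, InCh L (i + 1) y ∧ bd y = z ∧ y.support.card ≤ (i + 1) * z.support.card := by
  let Pr : Ch V →ₗ[ZMod 2] Ch V := Finsupp.linearCombination (ZMod 2) (pr sx κ id b)
  let Bm : Ch V →ₗ[ZMod 2] Ch V :=
    Finsupp.linearCombination (ZMod 2) fun x => mv sx (x.val.map b)
  have hP : ∀ x, Pr (sx x) = pr sx κ id b x := ch_lc_sx _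
  have hB : ∀ x, Bm (sx x) = mv sx (x.val.map b) := ch_lc_sx _
  have h1 : bd (Pr z) + Pr (bd z) = z + Bm z := by
    rw [ch_map_eq Pr z, ch_map_eq bd z, ch_map_eq Bm z, map_sum, map_sum, ← sum_add_distrib]
    conv_rhs => rw [ch_eq_sum z]
    rw [← ch_eq_sum z]
    conv_rhs => enter [1]; rw [ch_eq_sum z]
    rw [← sum_add_distrib]
    refine sum_congr rfl fun x hx => ?_
    have := prism_id ch_add_self sx κ id b x (hκ x hx)
    rw [Multiset.map_id, mv, if_pos x.nodup, val_toFinset] at this
    rw [hP, hB, bd_sx, map_sum, ← this, pr, pr, map_sum]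
    simp only [prism_bd_mv, hP]
  rw [hb, map_zero, add_zero] at h1
  have h3 : bd (Bm z) = 0 := by
    have := congrArg bd h1
    rwa [bd_bd, map_add, hb, zero_add, eq_comm] at this
  refine ⟨Pr z + jn v0 (Bm z), InCh.add (InCh.map _ fun x hx => ?_) ?_, ?_, ?_⟩
  · rw [hP, pr]
    refine InCh.sum fun u hu => prism_inCh_mv ?_ (by rw [prism_card κ _ _ (hκ x hx) hu, hz x hx])
    rw [prism_toFinset, image_id]
    exact hpr x hx u hu
  · have : InCh (fun τ => L (insert v0 τ)) i (Bm z) := InCh.map _ fun x hx => by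
      rw [hB]
      exact prism_inCh_mv (hc x hx) (by rw [Multiset.card_map, card_val, hz x hx])
    exact this.jn v0 fun σ hσ _ => (this σ hσ).1
  · rw [map_add, h1, bd_jn, h3, map_zero, add_zero, add_assoc, ch_add_self, add_zero]
  · refine (card_support_add _ _).trans ?_
    rw [add_mul]
    refine add_le_add (card_support_map _ z i fun x hx => ?_)
      ((card_support_jn _ _).trans (card_support_map _ z 1 fun x _ => ?_))
    · rw [hP, pr]
      refine (card_support_sum _ _).trans ?_
      simpa [hz x hx] using sum_le_card_nsmul x _ 1 fun u _ => prism_card_mv _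
    · rw [hB]
      exact prism_card_mv _

theorem prism_mv_zero {M : Type} [AddCommMonoid M] {f : Finset V → M} {s : Multiset V}
    (h : s.toFinset.card = Multiset.card s → f s.toFinset = 0) : mv f s = 0 := by
  unfold mv
  split_ifs with hs
  · exact h (Multiset.toFinset_card_of_nodup hs)
  · rfl

open scoped Pointwise in
/-- exactness of the columns from an equivariant flow that ends in faces fixed by `r` -/
theorem col_exact {Γ J 𝔽 : Type} [Group Γ] [MulAction Γ V] [MulAction Γ J] [Field 𝔽] [CharP 𝔽 2]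
    (χ : Γ → 𝔽) (L : Finset V → Prop) (hL : Down L) (hLΓ : ∀ (γ : Γ) σ, L σ → L (γ • σ))
    (P : J → Prop) (hP : ∀ (γ : Γ) τ, P τ → P (γ • τ))
    (κ : J → V → ℤ) (a : J → ℕ → V → V)
    (hκ : ∀ (γ : Γ) τ u, P τ → κ (γ • τ) (γ • u) = κ τ u)
    (ha : ∀ (γ : Γ) τ n u, P τ → a (γ • τ) n (γ • u) = γ • a τ n u)
    (ha0 : ∀ τ u, P τ → a τ 0 u = u)
    (hinj : ∀ τ σ, P τ → L σ → Set.InjOn (κ τ) σ)
    (hface : ∀ τ n σ u, P τ → L σ → u ∈ σ →
      L ((σ.filter fun w => κ τ w ≤ κ τ u).image (a τ n) ∪
        (σ.filter fun w => κ τ u ≤ κ τ w).image (a τ (n + 1))))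
    (hfix : ∀ τ, P τ → ∃ r : Γ, r • τ = τ ∧ χ r ≠ 1 ∧
      ∀ u, ∃ n0, ∀ n, n0 ≤ n → r • a τ n u = a τ n u) :
    ColEx χ L P := by
  have _ := hLΓ
  have _ := hP
  intro i F hF hd
  have h2 : ∀ m : 𝔽, m + m = 0 := CharTwo.add_self_eq_zero
  have hz : ∀ τ (σ : Finset V), P τ → ∃ N, ∀ ρ, L ρ → ρ.card = i →
      (∀ v ∈ ρ, ∃ n, N ≤ n ∧ ∃ u ∈ σ, a τ n u = v) → F ρ τ = 0 := by
    intro τ σ hτ
    obtain ⟨r, h1, h3, h4⟩ := hfix τ hτ
    choose n0 hn0 using h4
    refine ⟨σ.sup n0, fun ρ hρ hc hv => ?_⟩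
    have e : r • ρ = ρ := by
      rw [smul_finset_def, image_congr (g := id), image_id]
      intro v hv'
      obtain ⟨n, hn, u, hu, rfl⟩ := hv v hv'
      exact hn0 u n ((le_sup hu).trans hn)
    have := hF r ρ τ hρ hc hτ
    rw [e, h1] at this
    exact (mul_eq_zero.1 (show (1 - χ r) * F ρ τ = 0 by linear_combination this)).resolve_left
      (sub_ne_zero.2 h3.symm)
  refine ⟨fun σ τ => ∑ᶠ n, pr (fun σ' => F σ' τ) (κ τ) (a τ n) (a τ (n + 1)) σ,
    fun γ σ τ hσ hc hτ => ?_, fun σ τ hσ hc hτ => ?_⟩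
  · simp only
    rw [mul_finsum]
    refine finsum_congr fun n => ?_
    have hi : Function.Injective fun v : V => γ • v := MulAction.injective γ
    rw [pr, pr, smul_finset_def, sum_image hi.injOn, mul_sum]
    refine sum_congr rfl fun u hu => ?_
    have e : ∀ (A : Finset V) m, (A.image fun v => γ • v).val.map (a (γ • τ) m) =
        (A.val.map (a τ m)).map fun v => γ • v := fun A m => by
      rw [image_val_of_injOn hi.injOn, Multiset.map_map, Multiset.map_map]
      exact Multiset.map_congr rfl fun v _ => ha γ τ m v hτ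
    rw [filter_image, filter_image, e, e, ← Multiset.map_add]
    simp only [hκ γ τ _ hτ]
    unfold mv
    simp only [Multiset.nodup_map_iff_of_injective hi]
    split_ifs with hs
    · rw [Multiset.toFinset_map]
      refine hF γ _ τ ?_ ?_ hτ
      · rw [prism_toFinset]
        exact hface τ n σ u hτ hσ hu
      · rw [Multiset.toFinset_card_of_nodup hs, prism_card _ _ _ (hinj τ σ hτ hσ) hu, hc]
    · exact (mul_zero _).symm
  · obtain ⟨N, hN⟩ := hz τ σ hτ
    have e1 : ∀ w ∈ σ, ∑ᶠ n, pr (fun σ' => F σ' τ) (κ τ) (a τ n) (a τ (n + 1)) (σ.erase w) =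
        ∑ n ∈ range N, pr (fun σ' => F σ' τ) (κ τ) (a τ n) (a τ (n + 1)) (σ.erase w) := by
      intro w hw
      refine finsum_eq_sum_of_support_subset _ fun n hn => ?_
      by_contra hn'
      have hn2 : N ≤ n := by simpa using hn'
      refine hn (sum_eq_zero fun u hu => prism_mv_zero fun hs => ?_)
      have hσ' := hL _ _ hσ (erase_subset w σ)
      refine hN _ ?_ ?_ fun v hv => ?_
      · rw [prism_toFinset]
        exact hface τ n _ u hτ hσ' hu
      · rw [hs, prism_card _ _ _ (hinj τ _ hτ hσ') hu, card_erase_add_one hw, hc]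
      · rw [prism_toFinset, mem_union, mem_image, mem_image] at hv
        rcases hv with ⟨y, hy, rfl⟩ | ⟨y, hy, rfl⟩
        · exact ⟨n, hn2, y, mem_of_mem_erase (mem_filter.1 hy).1, rfl⟩
        · exact ⟨n + 1, by omega, y, mem_of_mem_erase (mem_filter.1 hy).1, rfl⟩
    have e2 : ∀ n, ∑ w ∈ σ, pr (fun σ' => F σ' τ) (κ τ) (a τ n) (a τ (n + 1)) (σ.erase w) =
        mv (fun σ' => F σ' τ) (σ.val.map (a τ n)) +
          mv (fun σ' => F σ' τ) (σ.val.map (a τ (n + 1))) := by
      intro n
      rw [← prism_id h2 _ (κ τ) _ _ σ (hinj τ σ hτ hσ), eq_comm, add_eq_right]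
      refine sum_eq_zero fun u hu => prism_mv_zero fun hs => hd _ τ ?_ ?_ hτ
      · rw [prism_toFinset]
        exact hface τ n _ u hτ hσ hu
      · rw [hs, prism_card _ _ _ (hinj τ _ hτ hσ) hu, hc]
    have e3 : ∀ (g : ℕ → 𝔽) n, ∑ k ∈ range n, (g k + g (k + 1)) = g 0 + g n := by
      intro g n
      induction n with
      | zero => simp [h2]
      | succ n ih => rw [sum_range_succ, ih]; linear_combination h2 (g n)
    rw [dl, sum_congr rfl e1, sum_comm, sum_congr rfl fun n _ => e2 n,
      e3 fun n => mv (fun σ' => F σ' τ) (σ.val.map (a τ n))]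
    have e4 : mv (fun σ' => F σ' τ) (σ.val.map (a τ N)) = 0 := by
      refine prism_mv_zero fun hs => hN _ ?_ (by rw [hs, Multiset.card_map, card_val, hc])
        fun v hv => ?_
      · change L (σ.image (a τ N))
        rcases σ.eq_empty_or_nonempty with rfl | hne
        · exact hσ
        · obtain ⟨u, hu, hmax⟩ := σ.exists_max_image (κ τ) hne
          refine hL _ _ (hface τ N σ u hτ hσ hu) ?_
          rw [filter_true_of_mem hmax]
          exact subset_union_left
      · obtain ⟨y, hy, rfl⟩ := mem_image.1 (show v ∈ σ.image (a τ N) from hv)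
        exact ⟨N, le_rfl, y, hy, rfl⟩
    rw [e4, add_zero, Multiset.map_congr rfl fun u _ => ha0 τ u hτ, Multiset.map_id', mv,
      if_pos σ.nodup, val_toFinset]

end Vale.Agent.P067
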