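import Vale.Agent.P067.LatD

namespace Vale.Agent.P067

open scoped LaurentPolynomial Polynomial Pointwise

variable {K : Type} [Field K] {N : ℕ}

theorem deg_of_stab {g : GG K N} {L : Sb K N} {a b : ℤ} (ha : Std a ≤ L) (hb : L ≤ Std b)
    (hg : gm g L ≤ L) (i j : Fin N) (n : ℕ) (hn : b - a < n) : (g.1 i j).coeff n = 0 := by
  have h1 : (mon j (a - 1) : VV K N) ∈ L := ha (mon_mem_Sup.2 (show a - 1 < a by omega))
  rw [← ac_mon_coeff g j (a - 1) i n]
  exact mem_Std.1 (hb (hg (ac_mem_gm.2 h1))) i _ (by omega)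

theorem finite_stab [Finite K] (u : Vx K N) : Finite (MulAction.stabilizer (GG K N) u) := by
  obtain ⟨a, b, ha, hb⟩ := u.com
  refine Finite.of_injective (β := Fin N → Fin N → Fin ((b - a).toNat + 1) → K)
    (fun g i j n => (g.1.1 i j).coeff n) fun g g' h => ?_
  have hz : ∀ x : MulAction.stabilizer (GG K N) u, ∀ i j n, (b - a).toNat + 1 ≤ n →
      (x.1.1 i j).coeff n = 0 := fun x i j n hn =>
    deg_of_stab ha hb (congrArg Subtype.val x.2).le i j n (by omega)
  refine Subtype.ext (Subtype.ext (Matrix.ext fun i j => Polynomial.ext fun n => ?_))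
  by_cases hn : n < (b - a).toNat + 1
  · exact congrFun (congrFun (congrFun h i) j) ⟨n, hn⟩
  · rw [hz g i j n (not_lt.1 hn), hz g' i j n (not_lt.1 hn)]

theorem finite_HH [Finite K] {R : Finset (Fin N)} (hR : R.Nonempty) : Finite (HH K R) := by
  obtain ⟨c, hc⟩ := hR
  have := finite_stab (lam c : Vx K N)
  exact Finite.of_injective _ (Subgroup.inclusion_injective
    (show HH K R ≤ MulAction.stabilizer (GG K N) (lam c : Vx K N) from
      fun g hg => mem_HH.1 hg c hc))

theorem stab_eq_one (h2 : (2 : K) ≠ 0) {g : GG K N} (hg : g ∈ Gam K N 1) (h : g * g = 1) :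
    g = 1 := by
  have h1 : g.1 * g.1 = 1 := congrArg Subtype.val h
  have h3 : (g.1 - 1) * (g.1 + 1) = 0 := by
    rw [sub_mul, mul_add, h1, mul_one, one_mul, add_comm, sub_self]
  have h4 : (g.1 + 1).det ≠ 0 := by
    intro h0
    have h5 := congrArg Polynomial.constantCoeff h0
    rw [RingHom.map_det, map_zero] at h5
    have h6 : (Polynomial.constantCoeff : K[X] →+* K).mapMatrix (g.1 + 1) =
        Matrix.diagonal fun _ => (2 : K) := by
      ext i j
      have h7 := mem_Gam.1 hg i j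
      rw [pow_one, Polynomial.X_dvd_iff, Matrix.sub_apply, Polynomial.coeff_sub, sub_eq_zero] at h7
      by_cases e : i = j
      · subst e
        simp [h7, one_add_one_eq_two]
      · simp [h7, e, Matrix.one_apply]
    rw [h6, Matrix.det_diagonal] at h5
    obtain ⟨_, -, h8⟩ := Finset.prod_eq_zero_iff.1 h5
    exact h2 h8
  have h5 := congrArg (· * (g.1 + 1).adjugate) h3
  simp only [mul_assoc, Matrix.mul_adjugate, zero_mul, Matrix.mul_smul, mul_one] at h5
  exact Subtype.ext (sub_eq_zero.1 ((smul_eq_zero.1 h5).resolve_left h4))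

theorem odd_stab [Finite K] (h2 : (2 : K) ≠ 0) (Γ : Subgroup (GG K N)) (hΓ : Γ ≤ Gam K N 1)
    (σ : Finset (Vx K N)) (hσ : Face σ) (hne : σ.Nonempty) :
    Odd (Nat.card (MulAction.stabilizer Γ σ)) := by
  obtain ⟨u, hu⟩ := hne
  have hfix : ∀ x : MulAction.stabilizer Γ σ, (x.1.1 : GG K N) • u = u := by
    intro x
    have h1 : x.1 • u ∈ x.1 • σ := Finset.smul_mem_smul_finset hu
    rw [show x.1 • σ = σ from x.2] at h1
    exact hσ.eq_of_col h1 hu (col_smul _ u)
  have := finite_stab u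
  have : Finite (MulAction.stabilizer Γ σ) :=
    Finite.of_injective (β := MulAction.stabilizer (GG K N) u) (fun x => ⟨x.1.1, hfix x⟩)
      fun x y h => Subtype.ext (Subtype.ext
        (congrArg (fun z : MulAction.stabilizer (GG K N) u => z.1) h))
  rw [← Nat.not_even_iff_odd, even_iff_two_dvd]
  intro h
  obtain ⟨x, hx⟩ := exists_prime_orderOf_dvd_card' 2 h
  have h3 := pow_orderOf_eq_one x
  rw [hx, pow_two] at h3
  have h4 : x = 1 := Subtype.ext (Subtype.ext (stab_eq_one h2 (hΓ x.1.2)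
    (congrArg (fun y : MulAction.stabilizer Γ σ => (y.1.1 : GG K N)) h3)))
  rw [h4, orderOf_one] at hx
  omega

theorem stab_deg_lam {g : GG K N} {c : Fin N} (hg : g • (lam c : Vx K N) = lam c) (i j : Fin N)
    (n : ℕ) (hn : 1 < n) : (g.1 i j).coeff n = 0 :=
  deg_of_stab (Std_le_lamS c) (lamS_le_Std c) (congrArg Subtype.val hg).le i j n (by omega)

theorem eq_of_Gam {s : ℕ} (hs : 2 ≤ s) {g g' : GG K N} {c c' : Fin N}
    (hg : g • (lam c : Vx K N) = lam c) (hg' : g' • (lam c' : Vx K N) = lam c')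
    (h : g⁻¹ * g' ∈ Gam K N s) : g = g' := by
  have h1 : g'.1 - g.1 = g.1 * ((g⁻¹ * g').1 - 1) := by
    rw [mul_sub, mul_one, ← Matrix.SpecialLinearGroup.coe_mul, mul_inv_cancel_left]
  refine Subtype.ext (Matrix.ext fun i j => Polynomial.ext fun n => ?_)
  by_cases hn : 1 < n
  · rw [stab_deg_lam hg i j n hn, stab_deg_lam hg' i j n hn]
  · have h2 : (Polynomial.X : K[X]) ^ s ∣ (g'.1 - g.1) i j := by
      rw [h1, Matrix.mul_apply]
      exact Finset.dvd_sum fun l _ => (mem_Gam.1 h l j).mul_left _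
    have h3 := Polynomial.X_pow_dvd_iff.1 h2 n (by omega)
    rw [Matrix.sub_apply, Polynomial.coeff_sub, sub_eq_zero] at h3
    exact h3.symm

theorem stab_smul_lam {g : GG K N} {c : Fin N} (h : ∀ i j n, (g.1 i j).coeff n ≠ 0 →
    (n = 0 ∧ (j.val < c.val → i.val < c.val)) ∨ (n = 1 ∧ i.val < c.val ∧ c.val ≤ j.val)) :
    g • (lam c : Vx K N) = lam c := by
  refine Vx.ext (eq_of_le_of_idx ((lat_lamS c).1.gm g) (lat_lamS c).1 ?_ (idx_gm g _).ge)
  refine Submodule.map_le_iff_le_comap.2 (Sup_le_iff.2 fun j m hm i m' hm' => ?_)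
  change (ac g (mon j m) i).coeff m' = 0
  simp only [Set.mem_setOf_eq] at hm hm'
  by_cases hlt : m' < m
  · rw [ac_mon, lp_coeff_T_mul, lp_coeff_toLaurent_neg _ (by omega)]
  · obtain ⟨n, rfl⟩ := Int.le.dest (not_lt.1 hlt)
    rw [ac_mon_coeff]
    by_contra h0
    have := h i j n h0
    omega

theorem stab_low {g : GG K N} {c : Fin N} (hg : g • (lam c : Vx K N) = lam c) {i j : Fin N}
    (hj : j.val < c.val) (hi : c.val ≤ i.val) : (g.1 i j).coeff 0 = 0 := by
  have h1 : (mon j 0 : VV K N) ∈ (lamS c : Sb K N) := mon_mem_Sup.2 (Or.inr ⟨rfl, hj⟩)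
  have h2 : ac g (mon j 0) ∈ (lamS c : Sb K N) := (congrArg Subtype.val hg).le (ac_mem_gm.2 h1)
  rw [← ac_mon_coeff g j 0 i 0]
  refine h2 i _ ?_
  simp only [Set.mem_setOf_eq]
  omega

theorem const_part [NeZero N] (g : GG K N) : ∃ g0 : GG K N, g * g0⁻¹ ∈ Gam K N 1 ∧
    g0 • (lam 0 : Vx K N) = lam 0 ∧
    ∀ c, g • (lam c : Vx K N) = lam c → g0 • (lam c : Vx K N) = lam c := by
  set g0 : GG K N := Matrix.SpecialLinearGroup.map
    ((Polynomial.C : K →+* K[X]).comp Polynomial.constantCoeff) g with hg0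
  have he : ∀ i j, g0.1 i j = Polynomial.C ((g.1 i j).coeff 0) := fun i j => rfl
  have h0 : ∀ i j n, (g0.1 i j).coeff n ≠ 0 → n = 0 := fun i j n h => by
    by_contra hn
    rw [he, Polynomial.coeff_C, if_neg hn] at h
    exact h rfl
  refine ⟨g0, ?_, stab_smul_lam fun i j n h => Or.inl ⟨h0 i j n h, fun h' => absurd h' (by simp)⟩,
    fun c hc => stab_smul_lam fun i j n h => Or.inl ⟨h0 i j n h, fun hj => ?_⟩⟩
  · rw [Gam, MonoidHom.mem_ker, map_mul, map_inv, mul_inv_eq_one]
    ext i j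
    change Ideal.Quotient.mk _ (g.1 i j) = Ideal.Quotient.mk _ (g0.1 i j)
    rw [Ideal.Quotient.eq, Ideal.mem_span_singleton, pow_one, Polynomial.X_dvd_iff, he]
    simp
  · by_contra hi
    rw [he, stab_low hc hj (not_lt.1 hi)] at h
    simp at h

/-- elementary matrices -/
noncomputable def stab_tv {i j : Fin N} (h : i ≠ j) (r : K[X]) : GG K N :=
  ⟨Matrix.transvection i j r, Matrix.det_transvection_of_ne i j h r⟩

theorem stab_tv_mul {i j : Fin N} (h : i ≠ j) (r r' : K[X]) :
    stab_tv h r * stab_tv h r' = stab_tv h (r + r') :=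
  Subtype.ext (Matrix.transvection_mul_transvection_same i j h r r')

theorem stab_tv_zero {i j : Fin N} (h : i ≠ j) : stab_tv h (0 : K[X]) = 1 :=
  Subtype.ext (Matrix.transvection_zero i j)

theorem stab_tv_inv {i j : Fin N} (h : i ≠ j) (r : K[X]) : (stab_tv h r)⁻¹ = stab_tv h (-r) :=
  inv_eq_of_mul_eq_one_right (by rw [stab_tv_mul, add_neg_cancel, stab_tv_zero])

theorem stab_tv_same {i j : Fin N} (h : i ≠ j) (r : K[X]) : (stab_tv h r).1 i j = r := by
  simp [stab_tv, Matrix.transvection, h]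

theorem stab_tv_coeff {i j : Fin N} (h : i ≠ j) (r : K[X]) (a b : Fin N) (n : ℕ)
    (hn : ((stab_tv h r).1 a b).coeff n ≠ 0) :
    (a = b ∧ n = 0) ∨ (a = i ∧ b = j ∧ r.coeff n ≠ 0) := by
  by_cases e : a = i ∧ b = j
  · obtain ⟨rfl, rfl⟩ := e
    rw [stab_tv_same] at hn
    exact Or.inr ⟨rfl, rfl, hn⟩
  · have h1 : (stab_tv h r).1 a b = (1 : Matrix (Fin N) (Fin N) K[X]) a b := by
      change (1 + Matrix.single i j r) a b = _
      rw [Matrix.add_apply, Matrix.single_apply_of_ne _ _ _ _ _ (fun h' => e ⟨h'.1.symm, h'.2.symm⟩),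
        add_zero]
    rw [h1, Matrix.one_apply] at hn
    left
    by_cases e2 : a = b
    · rw [if_pos e2, Polynomial.coeff_one] at hn
      exact ⟨e2, by_contra fun h' => hn (if_neg h')⟩
    · rw [if_neg e2] at hn
      simp at hn

theorem stab_tv_fix {i j : Fin N} (h : i ≠ j) {r r' : K[X]} {u : Vx K N}
    (e : stab_tv h r • u = stab_tv h r' • u) : stab_tv h (-r' + r) • u = u := by
  rw [← stab_tv_mul, mul_smul, e, ← stab_tv_inv, inv_smul_smul]

theorem exists_root (hN : 2 ≤ N) (c : Fin N) : ∃ x : K → GG K N,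
    (∀ a c', c' ≠ c → x a • (lam c' : Vx K N) = lam c') ∧
    Function.Injective fun a => x a • (lam c : Vx K N) := by
  by_cases hc : c.val = 0
  · have hne : c ≠ ⟨N - 1, by omega⟩ := fun e => by
      have := congrArg Fin.val e
      simp only at this
      omega
    refine ⟨fun a => stab_tv hne (Polynomial.monomial 1 a), fun a c' hc' => ?_, fun a b e => ?_⟩
    · refine stab_smul_lam fun i j n h => ?_
      have h1 : c'.val ≠ c.val := fun e => hc' (Fin.ext e)
      have h2 := c'.2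
      rcases stab_tv_coeff _ _ _ _ _ h with ⟨rfl, rfl⟩ | ⟨rfl, rfl, h3⟩
      · exact Or.inl ⟨rfl, id⟩
      · rw [Polynomial.coeff_monomial] at h3
        refine Or.inr ⟨by_contra fun h4 => h3 (if_neg (Ne.symm h4)), by omega, ?_⟩
        simp only
        omega
    · have h1 := congrArg Subtype.val (stab_tv_fix hne e)
      rw [Vx.smul_val, lam_val, hc, lamS_zero] at h1
      have h2 := deg_of_stab le_rfl le_rfl h1.le c ⟨N - 1, by omega⟩ 1 (by simp)
      rw [stab_tv_same] at h2
      simp only [Polynomial.coeff_add, Polynomial.coeff_neg, Polynomial.coeff_monomial,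
        if_true] at h2
      exact (neg_add_eq_zero.1 h2).symm
  · have hne : c ≠ ⟨c.val - 1, by omega⟩ := fun e => by
      have := congrArg Fin.val e
      simp only at this
      omega
    refine ⟨fun a => stab_tv hne (Polynomial.C a), fun a c' hc' => ?_, fun a b e => ?_⟩
    · refine stab_smul_lam fun i j n h => ?_
      have h1 : c'.val ≠ c.val := fun e => hc' (Fin.ext e)
      rcases stab_tv_coeff _ _ _ _ _ h with ⟨rfl, rfl⟩ | ⟨rfl, rfl, h3⟩
      · exact Or.inl ⟨rfl, id⟩
      · rw [Polynomial.coeff_C] at h3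
        refine Or.inl ⟨by_contra fun h4 => h3 (if_neg h4), fun h4 => ?_⟩
        simp only at h4
        omega
    · have h2 := stab_low (stab_tv_fix hne e) (i := c) (j := ⟨c.val - 1, by omega⟩)
        (by simp only; omega) le_rfl
      rw [stab_tv_same] at h2
      simp only [Polynomial.coeff_add, Polynomial.coeff_neg, Polynomial.coeff_C_zero] at h2
      exact (neg_add_eq_zero.1 h2).symm

theorem finite_quot [Finite K] (s : ℕ) : Finite (GG K N ⧸ Gam K N s) := by
  have : Module.Finite K (K[X] ⧸ Ideal.span {(Polynomial.X : K[X]) ^ s}) :=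
    (Polynomial.monic_X_pow s).finite_quotient
  have : Finite (K[X] ⧸ Ideal.span {(Polynomial.X : K[X]) ^ s}) := Module.finite_of_finite K
  exact Finite.of_injective _ (QuotientGroup.kerLift_injective (Matrix.SpecialLinearGroup.map
    (n := Fin N) (Ideal.Quotient.mk (Ideal.span {(Polynomial.X : K[X]) ^ s}))))

theorem card_quot [Finite K] (hN : 2 ≤ N) (s : ℕ) : s ≤ Nat.card (GG K N ⧸ Gam K N s) := by
  have := finite_quot (K := K) (N := N) s
  have hne : (⟨0, by omega⟩ : Fin N) ≠ ⟨1, by omega⟩ := by simp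
  have h := Nat.card_le_card_of_injective (β := GG K N ⧸ Gam K N s)
    (fun i : Fin s => QuotientGroup.mk (stab_tv hne (Polynomial.X ^ i.val))) fun i j e => by
      have h1 := mem_Gam.1 (QuotientGroup.eq.1 e) ⟨0, by omega⟩ ⟨1, by omega⟩
      rw [stab_tv_inv, stab_tv_mul, Matrix.sub_apply, stab_tv_same, Matrix.one_apply_ne hne,
        sub_zero] at h1
      have h2 := Polynomial.X_pow_dvd_iff.1 h1 j j.2
      simp only [Polynomial.coeff_add, Polynomial.coeff_neg, Polynomial.coeff_X_pow, if_true] at h2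
      by_contra hij
      rw [if_neg fun h' => hij (Fin.ext h'.symm)] at h2
      simp at h2
  simpa using h

theorem kap_mul {s : ℕ} (hs : 1 ≤ s) {g g' : GG K N} (hg : g ∈ Gam K N s) (hg' : g' ∈ Gam K N s) :
    kap s (g * g') = kap s g + kap s g' := by
  ext i j
  have h1 : (g * g').1 - 1 = (g.1 - 1) + (g'.1 - 1) + (g.1 - 1) * (g'.1 - 1) := by
    rw [Matrix.SpecialLinearGroup.coe_mul]; noncomm_ring
  have h2 : (Polynomial.X : K[X]) ^ (s + 1) ∣ ((g.1 - 1) * (g'.1 - 1)) i j := by
    rw [Matrix.mul_apply]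
    refine Finset.dvd_sum fun l _ => (pow_dvd_pow _ (show s + 1 ≤ s + s by omega)).trans ?_
    rw [pow_add]
    exact mul_dvd_mul (mem_Gam.1 hg i l) (mem_Gam.1 hg' l j)
  simp only [kap, Matrix.of_apply, Matrix.add_apply, h1, Polynomial.coeff_add]
  rw [Polynomial.X_pow_dvd_iff.1 h2 s (by omega), add_zero]

theorem kap_eq_zero {s : ℕ} {g : GG K N} (hg : g ∈ Gam K N s) :
    kap s g = 0 ↔ g ∈ Gam K N (s + 1) := by
  rw [mem_Gam]
  constructor
  · intro h i j
    refine Polynomial.X_pow_dvd_iff.2 fun d hd => ?_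
    rcases (Nat.lt_succ_iff.1 hd).eq_or_lt with rfl | hd'
    · exact congrFun (congrFun h i) j
    · exact Polynomial.X_pow_dvd_iff.1 (mem_Gam.1 hg i j) d hd'
  · intro h
    ext i j
    exact Polynomial.X_pow_dvd_iff.1 (h i j) s (by omega)

theorem trace_kap {s : ℕ} (hs : 1 ≤ s) {g : GG K N} (hg : g ∈ Gam K N s) :
    (kap s g).trace = 0 := by
  choose B hB using mem_Gam.1 hg
  have h1 : g.1 = 1 + (Polynomial.X : K[X]) ^ s • Matrix.of B := by
    rw [← sub_eq_iff_eq_add']
    exact Matrix.ext fun i j => hB i j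
  have h2 := g.2
  rw [h1, Matrix.det_one_add_smul, add_assoc, add_eq_left, pow_two, ← mul_assoc, ← add_mul,
    mul_eq_zero] at h2
  have h3 := congrArg (fun p : K[X] => p.coeff 0)
    (h2.resolve_right (pow_ne_zero _ Polynomial.X_ne_zero))
  simp only [Polynomial.coeff_add, Polynomial.mul_coeff_zero, Polynomial.coeff_X_pow,
    if_neg (show ¬ 0 = s by omega), mul_zero, add_zero, Polynomial.coeff_zero, Matrix.trace,
    Polynomial.finset_sum_coeff] at h3
  rw [← h3, Matrix.trace]
  refine Finset.sum_congr rfl fun i _ => ?_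
  simp only [Matrix.diag, kap, Matrix.of_apply, hB]
  simpa using Polynomial.coeff_X_pow_mul (B i i) s 0

end Vale.Agent.P067
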