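import Vale.Agent.P067.Flow
import Vale.Agent.P067.Stab
import Vale.Agent.P067.Equi
import Vale.Agent.P067.Prism

namespace Vale.Agent.P067

open scoped LaurentPolynomial Polynomial Pointwise Matrix

theorem clb_unimod {R : Type} [CommRing R] [IsDomain R] [IsPrincipalIdealRing R] {N : ℕ}
    (S : Finset (Fin N → R)) (h : S.card < N) :
    ∃ l w : Fin N → R, l ⬝ᵥ w = 1 ∧ ∀ f ∈ S, l ⬝ᵥ f = 0 := by
  let T : (Fin N → R) →ₗ[R] (S → R) :=
    { toFun := fun l f => l ⬝ᵥ f.1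
      map_add' := fun a b => by funext f; simp [add_dotProduct]
      map_smul' := fun c a => by funext f; simp [smul_dotProduct] }
  have hT : ¬ Function.Injective T := fun hi => by
    have := card_le_of_injective R T hi
    rw [Fintype.card_fin, Fintype.card_coe] at this
    omega
  rw [injective_iff_map_eq_zero] at hT
  push Not at hT
  obtain ⟨l0, h0, hne⟩ := hT
  obtain ⟨g, hg⟩ := (IsPrincipalIdealRing.principal (Ideal.span (Set.range l0))).principal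
  have h1 : ∀ i, ∃ c, l0 i = g * c := fun i => by
    have : l0 i ∈ Ideal.span (Set.range l0) := Ideal.subset_span ⟨i, rfl⟩
    rw [hg] at this
    exact Ideal.mem_span_singleton.1 this
  choose l hl using h1
  have hl' : l0 = g • l := funext hl
  have hg0 : g ≠ 0 := fun h => hne (by rw [hl', h, zero_smul])
  have h2 : g ∈ Ideal.span (Set.range l0) := hg ▸ Ideal.mem_span_singleton_self g
  obtain ⟨w, hw⟩ := Ideal.mem_span_range_iff_exists_fun.1 h2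
  refine ⟨l, w, mul_left_cancel₀ hg0 ?_, fun f hf => mul_left_cancel₀ hg0 ?_⟩
  · rw [← smul_eq_mul, ← smul_dotProduct, ← hl', mul_one, dotProduct_comm]
    exact hw
  · rw [← smul_eq_mul, ← smul_dotProduct, ← hl', mul_zero]
    exact congrFun h0 ⟨f, hf⟩

variable {K : Type} [Field K] {N : ℕ}

theorem clb_nonscalar [NeZero N] {Y : Matrix (Fin N) (Fin N) K} (hY : ∀ c : K, Y ≠ c • 1) :
    ∃ φ y : Fin N → K, φ ⬝ᵥ y = 0 ∧ φ ⬝ᵥ (Y *ᵥ y) ≠ 0 := by
  by_contra hcon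
  push Not at hcon
  have h1 : ∀ i j, i ≠ j → Y i j = 0 := fun i j hij => by
    simpa using hcon (Pi.single i 1) (Pi.single j 1) (by simp [hij])
  have h2 : ∀ i j, i ≠ j → Y i i = Y j j := fun i j hij => by
    have := hcon (Pi.single i 1 - Pi.single j 1) (Pi.single i 1 + Pi.single j 1)
      (by simp [hij, hij.symm])
    simp [Matrix.mulVec_add, h1 i j hij, h1 j i hij.symm] at this
    exact add_neg_eq_zero.1 this
  refine hY (Y 0 0) ?_
  ext i j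
  by_cases hij : i = j
  · subst hij
    by_cases hi : i = 0
    · simp [hi]
    · simp [h2 i 0 hi]
  · simp [hij, h1 i j hij]

/-- constant coefficients of a polynomial vector -/
noncomputable def clbEv (v : Fin N → K[X]) : Fin N → K := Polynomial.constantCoeff ∘ v

theorem clbEv_dot (v w : Fin N → K[X]) :
    clbEv v ⬝ᵥ clbEv w = Polynomial.constantCoeff (v ⬝ᵥ w) :=
  (RingHom.map_dotProduct _ v w).symm

theorem clbEv_C (b : Fin N → K) : clbEv (Polynomial.C ∘ b) = b := by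
  funext i; simp [clbEv]

theorem clbEv_add (v w : Fin N → K[X]) : clbEv (v + w) = clbEv v + clbEv w := by
  funext i; simp [clbEv]

theorem clbEv_smul (c : K[X]) (w : Fin N → K[X]) :
    clbEv (c • w) = Polynomial.constantCoeff c • clbEv w := by
  funext i; simp [clbEv]

theorem clb_map_Gam {s : ℕ} (hs : 1 ≤ s) {g : GG K N} (hg : g ∈ Gam K N s) :
    g.1.map Polynomial.constantCoeff = 1 := by
  ext i j
  have h1 := mem_Gam.1 (Gam_anti hs hg) i j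
  rw [pow_one, Polynomial.X_dvd_iff, Matrix.sub_apply, Polynomial.coeff_sub, sub_eq_zero] at h1
  rw [Matrix.map_apply, Polynomial.constantCoeff_apply, h1]
  by_cases h : i = j <;> simp [Matrix.one_apply, h]

theorem clbEv_Gam {s : ℕ} (hs : 1 ≤ s) (γ : Gam K N s) (v : Fin N → K[X]) :
    clbEv (γ • v) = clbEv v := by
  funext i
  change Polynomial.constantCoeff ((γ.1.1 *ᵥ v) i) = _
  rw [RingHom.map_mulVec, clb_map_Gam hs γ.2, Matrix.one_mulVec]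
  rfl

/-- the auxiliary complex of polynomial vectors -/
def clbK (φ₀ : Fin N → K) (Y : Matrix (Fin N) (Fin N) K) (τ : Finset (Fin N → K[X])) : Prop :=
  (∀ v ∈ τ, φ₀ ⬝ᵥ clbEv v = 0 ∧ φ₀ ⬝ᵥ (Y *ᵥ clbEv v) ≠ 0) ∧
    Set.InjOn clbEv (τ : Set (Fin N → K[X])) ∧
    ∃ φ : Fin N → K[X], clbEv φ = φ₀ ∧ ∀ v ∈ τ, φ ⬝ᵥ v = 0

variable {φ₀ : Fin N → K} {Y : Matrix (Fin N) (Fin N) K}

theorem clbK_down : Down (clbK φ₀ Y) := by
  rintro σ τ ⟨h1, h2, φ, h3, h4⟩ hs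
  exact ⟨fun v hv => h1 v (hs hv), h2.mono hs, φ, h3, fun v hv => h4 v (hs hv)⟩

theorem clbK_empty : clbK φ₀ Y ∅ :=
  ⟨by simp, by simp, Polynomial.C ∘ φ₀, clbEv_C _, by simp⟩

variable [DecidableEq (Fin N → K[X])]

theorem clbK_smul {s : ℕ} (hs : 1 ≤ s) (γ : Gam K N s) (τ : Finset (Fin N → K[X]))
    (h : clbK φ₀ Y τ) : clbK φ₀ Y (γ • τ) := by
  obtain ⟨h1, h2, φ, h3, h4⟩ := h
  refine ⟨fun v hv => ?_, fun v hv w hw he => ?_, φ ᵥ* (γ⁻¹).1.1, ?_, fun v hv => ?_⟩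
  · obtain ⟨v, hv', rfl⟩ := Finset.mem_smul_finset.1 hv
    rw [clbEv_Gam hs]
    exact h1 v hv'
  · obtain ⟨v, hv', rfl⟩ := Finset.mem_smul_finset.1 hv
    obtain ⟨w, hw', rfl⟩ := Finset.mem_smul_finset.1 hw
    rw [clbEv_Gam hs, clbEv_Gam hs] at he
    rw [h2 hv' hw' he]
  · funext i
    change Polynomial.constantCoeff ((φ ᵥ* (γ⁻¹).1.1) i) = _
    rw [RingHom.map_vecMul, clb_map_Gam hs (γ⁻¹).2, Matrix.vecMul_one, ← h3]
    rfl
  · obtain ⟨v, hv', rfl⟩ := Finset.mem_smul_finset.1 hv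
    rw [← Matrix.dotProduct_mulVec]
    change φ ⬝ᵥ (γ⁻¹ • γ • v) = 0
    rw [inv_smul_smul]
    exact h4 v hv'

theorem clbK_cone {y : Fin N → K} (hy : φ₀ ⬝ᵥ y = 0) (hy' : φ₀ ⬝ᵥ (Y *ᵥ y) ≠ 0) {m : ℕ}
    (hm : m + 2 ≤ N) : Cone (clbK φ₀ Y) m := by
  intro F hF
  obtain ⟨u, hu⟩ : ∃ u : Fin N → K, φ₀ ⬝ᵥ u = 1 :=
    ⟨(φ₀ ⬝ᵥ (Y *ᵥ y))⁻¹ • (Y *ᵥ y), by rw [dotProduct_smul, smul_eq_mul, inv_mul_cancel₀ hy']⟩
  obtain ⟨l, w, hlw, hl⟩ := clb_unimod (insert (Polynomial.C ∘ u) F)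
    ((Finset.card_insert_le _ _).trans_lt (by omega))
  have h1 : clbEv l ⬝ᵥ u = 0 := by
    rw [← clbEv_C u, clbEv_dot, hl _ (Finset.mem_insert_self _ _), map_zero]
  have h2 : clbEv l ⬝ᵥ clbEv w = 1 := by rw [clbEv_dot, hlw, map_one]
  obtain ⟨x, hx, hx'⟩ : ∃ x : Fin N → K, φ₀ ⬝ᵥ x = 0 ∧ clbEv l ⬝ᵥ x = 1 :=
    ⟨clbEv w - (φ₀ ⬝ᵥ clbEv w) • u, by simp [dotProduct_sub, hu], by simp [dotProduct_sub, h1, h2]⟩
  obtain ⟨b, hb1, hb2, hb3⟩ :
      ∃ b : Fin N → K, φ₀ ⬝ᵥ b = 0 ∧ clbEv l ⬝ᵥ b = 1 ∧ φ₀ ⬝ᵥ (Y *ᵥ b) ≠ 0 := by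
    by_cases h : φ₀ ⬝ᵥ (Y *ᵥ x) = 0
    · refine ⟨(1 - clbEv l ⬝ᵥ y) • x + y, by simp [hx, hy], by simp [hx'], ?_⟩
      rw [Matrix.mulVec_add, Matrix.mulVec_smul, dotProduct_add, dotProduct_smul, h, smul_zero,
        zero_add]
      exact hy'
    · exact ⟨x, hx, hx', h⟩
  set v : Fin N → K[X] := Polynomial.C ∘ b + (1 - l ⬝ᵥ (Polynomial.C ∘ b)) • w with hv
  have hlv : l ⬝ᵥ v = 1 := by
    rw [hv, dotProduct_add, dotProduct_smul, hlw, smul_eq_mul, mul_one, add_sub_cancel]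
  have hev : clbEv v = b := by
    rw [hv, clbEv_add, clbEv_smul, map_sub, map_one, ← clbEv_dot, clbEv_C, hb2, sub_self,
      zero_smul, add_zero]
  have hlF : ∀ f ∈ F, l ⬝ᵥ f = 0 := fun f hf => hl f (Finset.mem_insert_of_mem hf)
  refine ⟨v, fun h => one_ne_zero (hlv.symm.trans (hlF v h)), ?_⟩
  rintro τ hτ ⟨k1, k2, φ, k3, k4⟩
  refine ⟨fun f hf => ?_, ?_, φ + (-(φ ⬝ᵥ v)) • l, ?_, fun f hf => ?_⟩
  · rcases Finset.mem_insert.1 hf with rfl | hf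
    · rw [hev]; exact ⟨hb1, hb3⟩
    · exact k1 f hf
  · rw [Finset.coe_insert]
    refine (Set.injOn_insert fun h => one_ne_zero (hlv.symm.trans (hlF v (hτ h)))).2 ⟨k2, ?_⟩
    rintro ⟨f, hf, he⟩
    have := clbEv_dot l f
    rw [he, hev, hb2, hlF f (hτ hf), map_zero] at this
    exact one_ne_zero this
  · rw [clbEv_add, clbEv_smul, map_neg, ← clbEv_dot, k3, hev, hb1, neg_zero, zero_smul, add_zero]
  · rw [add_dotProduct, smul_dotProduct]
    rcases Finset.mem_insert.1 hf with rfl | hf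
    · rw [hlv, smul_eq_mul, mul_one, add_neg_cancel]
    · rw [k4 f hf, hlF f (hτ hf), smul_zero, add_zero]

theorem clb_sel [Finite K] {s : ℕ} (hs : 1 ≤ s) :
    ∃ sel : Finset (Fin N → K[X]) → Fin N → K[X], (∀ τ, τ.Nonempty → sel τ ∈ τ) ∧
      ∀ (γ : Gam K N s) (τ : Finset (Fin N → K[X])), τ.Nonempty →
        Set.InjOn clbEv (τ : Set (Fin N → K[X])) → sel (γ • τ) = γ • sel τ := by
  obtain ⟨key, hkey⟩ := Countable.exists_injective_nat (Fin N → K)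
  have h1 : ∀ τ : Finset (Fin N → K[X]), ∃ v, τ.Nonempty →
      v ∈ τ ∧ ∀ w ∈ τ, key (clbEv v) ≤ key (clbEv w) := fun τ => by
    by_cases h : τ.Nonempty
    · obtain ⟨v, hv, hmin⟩ := τ.exists_min_image (fun v => key (clbEv v)) h
      exact ⟨v, fun _ => ⟨hv, hmin⟩⟩
    · exact ⟨0, fun h' => absurd h' h⟩
  choose sel hsel using h1
  refine ⟨sel, fun τ h => (hsel τ h).1, fun γ τ h hinj => ?_⟩
  obtain ⟨k1, k2⟩ := hsel (γ • τ) h.smul_finset
  obtain ⟨k3, k4⟩ := hsel τ h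
  obtain ⟨v, hv, he⟩ := Finset.mem_smul_finset.1 k1
  have k5 := k2 _ (Finset.smul_mem_smul_finset (a := γ) k3)
  rw [← he, clbEv_Gam hs, clbEv_Gam hs] at k5
  rw [← he, hinj hv k3 (hkey (le_antisymm k5 (k4 v hv)))]

theorem clb_root (s : ℕ) {τ : Finset (Fin N → K[X])} (h : clbK φ₀ Y τ) {v : Fin N → K[X]}
    (hv : v ∈ τ) : ∃ r : Gam K N s, r • τ = τ ∧ (Y * kap s r.1).trace ≠ 0 ∧
      ∃ φ : VV K N, φ ⬝ᵥ pv v = 0 ∧ ∀ y, ac r.1 y = y + (φ ⬝ᵥ y) • pv v := by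
  obtain ⟨h1, -, φ, h3, h4⟩ := h
  set φ' : Fin N → K[X] := (Polynomial.X ^ s : K[X]) • φ with hφ'
  have h5 : ∀ f ∈ τ, φ' ⬝ᵥ f = 0 := fun f hf => by
    rw [hφ', smul_dotProduct, h4 f hf, smul_zero]
  let g : GG K N := ⟨1 + Matrix.vecMulVec v φ', by
    rw [Matrix.vecMulVec_eq Unit, Matrix.det_one_add_replicateCol_mul_replicateRow, h5 v hv,
      add_zero]⟩
  have hg : ∀ i j, (g.1 - 1) i j = Polynomial.X ^ s * (v i * φ j) := fun i j => by
    change (1 + Matrix.vecMulVec v φ' - 1) i j = _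
    rw [add_sub_cancel_left, Matrix.vecMulVec_apply, hφ', Pi.smul_apply, smul_eq_mul]
    ring
  have hmem : g ∈ Gam K N s := mem_Gam.2 fun i j => by rw [hg]; exact dvd_mul_right _ _
  refine ⟨⟨g, hmem⟩, ?_, ?_, pv φ', ?_, fun y => ?_⟩
  · rw [Finset.smul_finset_def]
    refine (Finset.image_congr fun f hf => ?_).trans Finset.image_id
    change (1 + Matrix.vecMulVec v φ') *ᵥ f = f
    rw [Matrix.add_mulVec, Matrix.one_mulVec, Matrix.vecMulVec_mulVec, h5 f hf, MulOpposite.op_zero,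
      zero_smul, add_zero]
  · have : kap s g = Matrix.vecMulVec (clbEv v) φ₀ := by
      ext i j
      rw [kap, Matrix.of_apply, hg, Matrix.vecMulVec_apply, ← h3]
      have := Polynomial.coeff_X_pow_mul (v i * φ j) s 0
      rw [zero_add] at this
      rw [this, Polynomial.mul_coeff_zero]
      rfl
    rw [this, Matrix.mul_vecMulVec, Matrix.trace_vecMulVec, dotProduct_comm]
    exact (h1 v hv).2
  · have := RingHom.map_dotProduct (Polynomial.toLaurent (R := K)) φ' v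
    rw [h5 v hv, map_zero] at this
    exact this.symm
  · funext i
    rw [ac_apply]
    change ∑ j, Polynomial.toLaurent ((1 + Matrix.vecMulVec v φ') i j) * y j = _
    simp only [Matrix.add_apply, Matrix.vecMulVec_apply, map_add, map_mul, add_mul,
      Finset.sum_add_distrib, Matrix.one_apply, apply_ite Polynomial.toLaurent, map_one, map_zero,
      ite_mul, one_mul, zero_mul, Finset.sum_ite_eq, Finset.mem_univ, if_true, Pi.add_apply,
      Pi.smul_apply, smul_eq_mul, dotProduct, pv, Finset.sum_mul]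
    congr 1
    exact Finset.sum_congr rfl fun j _ => by ring

omit [DecidableEq (Fin N → K[X])] in
theorem clb_pv_ne {τ : Finset (Fin N → K[X])} (h : clbK φ₀ Y τ) {v : Fin N → K[X]}
    (hv : v ∈ τ) : pv v ≠ 0 := by
  intro h0
  have h1 : v = 0 := pv_injective (h0.trans (by funext i; simp [pv]))
  have h2 : clbEv v = 0 := by rw [h1]; funext i; simp [clbEv]
  exact (h.1 v hv).2 (by rw [h2, Matrix.mulVec_zero, dotProduct_zero])

/-- vanishing of the `χ_Y`-twisted cohomology of the building for non-scalar `Y` -/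
theorem claimB (i : ℕ) : ∃ N0 : ℕ, ∀ N : ℕ, N0 ≤ N → ∀ (K 𝔽 : Type) [Field K] [Finite K]
    [Field 𝔽] [CharP 𝔽 2], (2 : K) ≠ 0 → ∀ s : ℕ, 1 ≤ s → ∀ ψ : AddChar K 𝔽,
    (∀ a, a ≠ 0 → ψ a ≠ 1) → ∀ Y : Matrix (Fin N) (Fin N) K, (∀ c : K, Y ≠ c • 1) →
    ∀ χ : Gam K N s →* 𝔽, (∀ γ : Gam K N s, χ γ = ψ (Y * kap s γ.1).trace) →
    Van χ (Face : Finset (Vx K N) → Prop) i := by
  obtain ⟨m, M, hmM⟩ := contr_of_cone (i + 1)
  refine ⟨m + 2, fun N hN K 𝔽 _ _ _ _ h2 s hs ψ hψ Y hY χ hχ => ?_⟩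
  haveI : NeZero N := ⟨by omega⟩
  letI : DecidableEq (Fin N → K[X]) := Classical.decEq _
  obtain ⟨φ₀, y, hy, hy'⟩ := clb_nonscalar hY
  obtain ⟨sel, hsel, hsel'⟩ := clb_sel (K := K) (N := N) hs
  obtain ⟨κ, a, f1, f2, f3, f4, f5, f6⟩ := flow_exists (K := K) (N := N)
  refine dbl χ Face (clbK φ₀ Y) face_down clbK_down clbK_empty (fun γ σ h => h.smul γ.1)
    (clbK_smul hs) (fun σ h hne => odd_stab h2 _ (Gam_anti hs) σ h hne) ?_ (i + 1) M
    (hmM _ _ clbK_down (clbK_cone hy hy' hN)) (fun j => ?_) i le_rfl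
  · rintro τ hτ ⟨v, hv⟩
    obtain ⟨r, h1, h3, -⟩ := clb_root s hτ hv
    exact ⟨r, h1, by rw [hχ]; exact hψ _ h3⟩
  · have hne : ∀ τ : Finset (Fin N → K[X]), clbK φ₀ Y τ ∧ τ.card = j + 1 → τ.Nonempty :=
      fun τ h => Finset.card_pos.1 (by omega)
    have h0 : ∀ τ : Finset (Fin N → K[X]), clbK φ₀ Y τ ∧ τ.card = j + 1 → pv (sel τ) ≠ 0 :=
      fun τ h => clb_pv_ne h.1 (hsel τ (hne τ h))
    have he : ∀ (γ : Gam K N s) (τ : Finset (Fin N → K[X])), clbK φ₀ Y τ ∧ τ.card = j + 1 →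
        pv (sel (γ • τ)) = ac γ.1 (pv (sel τ)) := fun γ τ h => by
      rw [hsel' γ τ (hne τ h) h.1.2.1, ac_pv]
      rfl
    refine col_exact χ Face face_down (fun γ σ h => h.smul γ.1) _
      (fun γ τ h => ⟨clbK_smul hs γ τ h.1, by rw [Finset.card_smul_finset, h.2]⟩)
      (fun τ => κ (pv (sel τ))) (fun τ => a (pv (sel τ)))
      (fun γ τ u h => ?_) (fun γ τ n u h => ?_) (fun τ u h => f3 _ u (h0 τ h))
      (fun τ σ h hσ => f4 _ σ (h0 τ h) hσ) (fun τ n σ u h hσ hu => f5 _ n σ u (h0 τ h) hσ hu)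
      fun τ h => ?_
    · rw [he γ τ h]
      exact f1 γ.1 _ u (h0 τ h)
    · rw [he γ τ h]
      exact f2 γ.1 _ n u (h0 τ h)
    · obtain ⟨r, h1, h3, φ, h4, h5⟩ := clb_root s h.1 (hsel τ (hne τ h))
      exact ⟨r, h1, by rw [hχ]; exact hψ _ h3, f6 _ r.1 φ (h0 τ h) h4 h5⟩

end Vale.Agent.P067
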