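import Mathlib

namespace Vale.Agent.P067

/-- A finite (nonempty) pure `d`-dimensional simplicial complex with vertices labelled by
natural numbers: a finite family of nonempty finite sets, closed under nonempty subsets,
in which every face lies in a face with `d + 1` vertices. -/
structure Cx (d : ℕ) where
  faces : Finset (Finset ℕ)
  faces_nonempty : faces.Nonempty
  nonempty_of_mem : ∀ σ ∈ faces, σ.Nonempty
  down_closed : ∀ σ ∈ faces, ∀ τ : Finset ℕ, τ ⊆ σ → τ.Nonempty → τ ∈ faces
  pure : ∀ σ ∈ faces, ∃ τ ∈ faces, σ ⊆ τ ∧ τ.card = d + 1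

namespace Cx

variable {d : ℕ} (X : Cx d)

/-- `X(i)`: the faces with `i + 1` vertices. -/
def face (i : ℕ) : Finset (Finset ℕ) := X.faces.filter fun σ => σ.card = i + 1

/-- `C^i(X)`: functions `X(i) → F_2`. -/
abbrev Cochain (i : ℕ) : Type := X.face i → ZMod 2

/-- The weight `w_i(σ)`. -/
noncomputable def weight (i : ℕ) (σ : Finset ℕ) : ℝ :=
  (((X.face d).filter fun τ => σ ⊆ τ).card : ℝ) /
    (((d + 1).choose (i + 1) : ℝ) * ((X.face d).card : ℝ))

/-- The norm `‖f‖_i`: total weight of the support. -/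
noncomputable def norm (i : ℕ) (f : X.Cochain i) : ℝ :=
  ∑ σ ∈ Finset.univ.filter (fun σ : X.face i => f σ ≠ 0), X.weight i σ.1

/-- The coboundary `δ_i`. -/
def cob (i : ℕ) (f : X.Cochain i) : X.Cochain (i + 1) :=
  fun τ => ∑ σ ∈ Finset.univ.filter (fun σ : X.face i => σ.1 ⊆ τ.1), f σ

/-- `B^0` = constants, `B^{i+1}` = image of `δ_i`. -/
def cobdry : (i : ℕ) → Set (X.Cochain i)
  | 0 => {f | ∃ c : ZMod 2, ∀ σ, f σ = c}
  | i + 1 => Set.range (X.cob i)

/-- `dist_i(f, A)`, the least norm of `f - a` over `a ∈ A`. -/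
noncomputable def dist (i : ℕ) (f : X.Cochain i) (A : Set (X.Cochain i)) : ℝ :=
  sInf ((fun a => X.norm i (f - a)) '' A)

/-- `X` is an `ε`-coboundary expander. -/
def IsCobExp (ε : ℝ) : Prop :=
  ∀ i < d, ∀ f : X.Cochain i, ε * X.dist i f (X.cobdry i) ≤ X.norm (i + 1) (X.cob i f)

/-- The degree: the largest number of `d`-faces containing a single vertex. -/
def degree : ℕ := (X.face 0).sup fun v => ((X.face d).filter fun τ => v ⊆ τ).card

/-- Any two vertices are joined by a path of edges. -/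
def Connected : Prop :=
  ∀ u v : ℕ, {u} ∈ X.faces → {v} ∈ X.faces →
    Relation.ReflTransGen (fun a b : ℕ => ({a, b} : Finset ℕ) ∈ X.faces) u v

end Cx

end Vale.Agent.P067
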