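import Vale.Agent.P067.CsD

namespace Vale.Agent.P067

open Finset

section
variable {Ω V : Type} [Fintype Ω] {N : ℕ}

theorem ek_rel_symm {π : Ω → Fin N → V} {R : Finset (Fin N)} {ω ω' : Ω} (h : rel π R ω ω') :
    rel π R ω' ω := fun c hc => (h c hc).symm

theorem ek_rel_trans {π : Ω → Fin N → V} {R : Finset (Fin N)} {a b c : Ω} (h : rel π R a b)
    (h' : rel π R b c) : rel π R a c := fun x hx => (h x hx).trans (h' x hx)

theorem ek_rel_mono {π : Ω → Fin N → V} {R T : Finset (Fin N)} {a b : Ω} (hRT : R ⊆ T)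
    (h : rel π T a b) : rel π R a b := fun x hx => h x (hRT hx)

theorem ek_loc_eq {π : Ω → Fin N → V} {R : Finset (Fin N)} {a b : Ω} (h : rel π R a b) :
    loc π R a = loc π R b := by
  ext x
  rw [mem_loc, mem_loc]
  exact ⟨fun h' => ek_rel_trans h' h, fun h' => ek_rel_trans h' (ek_rel_symm h)⟩

theorem ek_self_mem (π : Ω → Fin N → V) (R : Finset (Fin N)) (a : Ω) : a ∈ loc π R a :=
  mem_loc.2 fun _ _ => rfl

/-- an inequality between sums that holds on every class holds on every union of classes -/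
theorem ek_sum_le (π : Ω → Fin N → V) (R : Finset (Fin N)) (U : Finset Ω)
    (hU : ∀ a ∈ U, ∀ b, rel π R b a → b ∈ U) (φ ψ : Ω → ℝ)
    (h : ∀ a ∈ U, ∑ x ∈ loc π R a, φ x ≤ ∑ x ∈ loc π R a, ψ x) :
    ∑ x ∈ U, φ x ≤ ∑ x ∈ U, ψ x := by
  classical
  have hm : ∀ x ∈ U, loc π R x ∈ U.image (loc π R) := fun x hx => mem_image_of_mem _ hx
  rw [← sum_fiberwise_of_maps_to hm φ, ← sum_fiberwise_of_maps_to hm ψ]
  refine sum_le_sum fun y hy => ?_
  obtain ⟨a, ha, rfl⟩ := mem_image.1 hy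
  have : U.filter (fun x => loc π R x = loc π R a) = loc π R a := by
    ext x
    rw [mem_filter]
    constructor
    · rintro ⟨-, h2⟩
      exact h2 ▸ ek_self_mem π R x
    · intro hx
      exact ⟨hU a ha x (mem_loc.1 hx), ek_loc_eq (mem_loc.1 hx)⟩
  rw [this]
  exact h a ha

/-- local weight at one chamber -/
def ek_wt (R : Finset (Fin N)) (j : ℕ) (F : Ω → Finset (Fin N) → ZMod 2) (ω : Ω) : ℕ :=
  (univ.filter fun T : Finset (Fin N) => R ⊆ T ∧ T.card = j ∧ F ω T ≠ 0).card

omit [Fintype Ω] in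
theorem ek_Wt_eq (U : Finset Ω) (R : Finset (Fin N)) (j : ℕ) (F : Ω → Finset (Fin N) → ZMod 2) :
    (Wt U R j F : ℝ) = ∑ ω ∈ U, (ek_wt R j F ω : ℝ) := by
  unfold Wt ek_wt
  rw [card_filter, sum_product]
  push_cast
  refine sum_congr rfl fun ω _ => ?_
  rw [card_filter]
  push_cast
  rfl

omit [Fintype Ω] in
theorem ek_wt_mono {R R' : Finset (Fin N)} (h : R ⊆ R') (j : ℕ) (F : Ω → Finset (Fin N) → ZMod 2)
    (ω : Ω) : ek_wt R' j F ω ≤ ek_wt R j F ω :=
  card_le_card fun T hT => by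
    simp only [mem_filter, mem_univ, true_and] at hT ⊢
    exact ⟨h.trans hT.1, hT.2⟩

omit [Fintype Ω] in
theorem ek_mix_ind {U : Finset Ω} {α β : Ω → V} {lam : ℝ} (hlam : 0 ≤ lam) (h : MixOn U α β lam)
    (hU : 0 < U.card) (p q : Ω → ℝ) (hp : ∀ x, p x * p x = p x) (hq : ∀ x, q x * q x = q x)
    (hp' : ∀ x ∈ U, ∀ y ∈ U, α x = α y → p x = p y)
    (hq' : ∀ x ∈ U, ∀ y ∈ U, β x = β y → q x = q y) :
    2 * ∑ x ∈ U, p x * q x ≤ 2 * ((∑ x ∈ U, p x) * (∑ x ∈ U, q x) / U.card) +
      lam * (∑ x ∈ U, p x + ∑ x ∈ U, q x) := by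
  have hn : (0 : ℝ) < U.card := by exact_mod_cast hU
  set a := ∑ x ∈ U, p x with ha
  set b := ∑ x ∈ U, q x with hb
  set n : ℝ := (U.card : ℝ) with hn'
  have key : ∀ (f g : Ω → ℝ) (s t : ℝ), ∑ x ∈ U, (f x - s) * (g x - t) =
      ∑ x ∈ U, f x * g x - t * ∑ x ∈ U, f x - s * ∑ x ∈ U, g x + n * (s * t) := by
    intro f g s t
    rw [mul_sum, mul_sum, ← sum_sub_distrib, ← sum_sub_distrib, hn', ← nsmul_eq_mul, ← sum_const,
      ← sum_add_distrib]
    exact sum_congr rfl fun x _ => by ring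
  have h1 := h (fun x => p x - a / n) (fun x => q x - b / n)
    (fun x hx y hy e => by rw [hp' x hx y hy e]) (fun x hx y hy e => by rw [hq' x hx y hy e])
    (by rw [sum_sub_distrib, sum_const, nsmul_eq_mul, ← ha, ← hn']; field_simp; ring)
    (by rw [sum_sub_distrib, sum_const, nsmul_eq_mul, ← hb, ← hn']; field_simp; ring)
  simp only [pow_two] at h1
  rw [key, key, key] at h1
  simp only [hp, hq, ← ha, ← hb] at h1
  have e1 : ∑ x ∈ U, p x * q x - b / n * a - a / n * b + n * (a / n * (b / n)) =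
      ∑ x ∈ U, p x * q x - a * b / n := by field_simp; ring
  have e2 : a - a / n * a - a / n * a + n * (a / n * (a / n)) = a - a * a / n := by
    field_simp; ring
  have e3 : b - b / n * b - b / n * b + n * (b / n * (b / n)) = b - b * b / n := by
    field_simp; ring
  rw [e1, e2, e3] at h1
  have h2 : 0 ≤ a * a / n := div_nonneg (mul_self_nonneg a) hn.le
  have h3 : 0 ≤ b * b / n := div_nonneg (mul_self_nonneg b) hn.le
  nlinarith [mul_nonneg hlam h2, mul_nonneg hlam h3]

/-- ladders of heavy types from `R` up to `T` -/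
inductive EkLad (hv : Finset (Fin N) → Prop) (T : Finset (Fin N)) : Finset (Fin N) → Prop
  | base : hv T → EkLad hv T T
  | step (R : Finset (Fin N)) (t : Fin N) : hv R → t ∉ R → EkLad hv T (insert t R) → EkLad hv T R

theorem EkLad.sub {hv : Finset (Fin N) → Prop} {T R : Finset (Fin N)} (h : EkLad hv T R) :
    R ⊆ T := by
  induction h with
  | base _ => exact Subset.rfl
  | step R t _ _ _ ih => exact (subset_insert t R).trans ih

theorem EkLad.bot {hv : Finset (Fin N) → Prop} {T R : Finset (Fin N)} (h : EkLad hv T R) :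
    hv R := by
  cases h with
  | base h => exact h
  | step _ _ h _ _ => exact h

theorem EkLad.top {hv : Finset (Fin N) → Prop} {T R : Finset (Fin N)} (h : EkLad hv T R) :
    hv T := by
  induction h with
  | base h => exact h
  | step _ _ _ _ _ ih => exact ih

theorem EkLad.congr {hv hv' : Finset (Fin N) → Prop} {T R : Finset (Fin N)} (h : EkLad hv T R)
    (hh : ∀ S, S ⊆ T → hv S → hv' S) : EkLad hv' T R := by
  induction h with
  | base h => exact .base (hh _ Subset.rfl h)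
  | step R t h1 h2 h3 ih => exact .step R t (hh _ ((subset_insert t R).trans h3.sub) h1) h2 ih

theorem EkLad.move {hv : Finset (Fin N) → Prop} {j : ℕ}
    (hnd : ∀ R a b, a ≠ b → a ∉ R → b ∉ R → R.card < j → hv (insert a R) → hv (insert b R) → hv R)
    {T S : Finset (Fin N)} (hT : T.card = j + 1) {u u1 : Fin N} (hu : u ∈ T) (hu1 : u1 ∈ T)
    (hne : u ≠ u1) (h : EkLad hv (T.erase u1) S) (hu' : hv (T.erase u)) :
    EkLad hv (T.erase u) (S.erase u) := by
  induction h with
  | base h =>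
    have e1 : insert u ((T.erase u1).erase u) = T.erase u1 :=
      insert_erase (mem_erase.2 ⟨hne, hu⟩)
    have e2 : insert u1 ((T.erase u1).erase u) = T.erase u := by
      rw [erase_right_comm]; exact insert_erase (mem_erase.2 ⟨hne.symm, hu1⟩)
    have hc : ((T.erase u1).erase u).card < j := by
      have := card_erase_lt_of_mem (mem_erase.2 ⟨hne, hu⟩ : u ∈ T.erase u1)
      rw [card_erase_of_mem hu1] at this
      omega
    have n1 : u1 ∉ (T.erase u1).erase u := fun h' => notMem_erase u1 T (mem_of_mem_erase h')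
    refine .step _ u1 (hnd _ u u1 hne (notMem_erase _ _) n1 hc (e1.symm ▸ h) (e2.symm ▸ hu')) n1 ?_
    rw [e2]
    exact .base hu'
  | step R t h1 h2 h3 ih =>
    by_cases hut : u = t
    · subst hut
      rwa [erase_insert h2, ← erase_eq_of_notMem h2] at ih
    · rw [erase_insert_of_ne (Ne.symm hut)] at ih
      have n1 : t ∉ R.erase u := fun h' => h2 (mem_of_mem_erase h')
      refine .step _ t ?_ n1 ih
      by_cases huR : u ∈ R
      · have hc : (R.erase u).card < j := by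
          have h4 := card_le_card h3.sub
          rw [card_insert_of_notMem h2, card_erase_of_mem hu1] at h4
          have := card_erase_lt_of_mem huR
          omega
        exact hnd _ u t hut (notMem_erase _ _) n1 hc ((insert_erase huR).symm ▸ h1) ih.bot
      · rwa [erase_eq_of_notMem huR]

/-- thresholds -/
noncomputable def ek_e (θ : ℝ) : ℕ → ℝ
  | 0 => 1 / 2
  | n + 1 => θ * ek_e θ n ^ 2

theorem ek_e_pos {θ : ℝ} (h : 0 < θ) (n : ℕ) : 0 < ek_e θ n := by
  induction n with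
  | zero => norm_num [ek_e]
  | succ n ih => exact mul_pos h (pow_pos ih 2)

theorem ek_e_anti {θ : ℝ} (h : 0 < θ) (h1 : θ ≤ 1) : Antitone (ek_e θ) := by
  have hle : ∀ n, ek_e θ n ≤ 1 := by
    intro n
    induction n with
    | zero => norm_num [ek_e]
    | succ n ih =>
      have := ek_e_pos h n
      exact mul_le_one₀ h1 (by positivity) (pow_le_one₀ this.le ih)
  refine antitone_nat_of_succ_le fun n => ?_
  have := ek_e_pos h n
  have h2 := hle n
  change θ * ek_e θ n ^ 2 ≤ ek_e θ n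
  nlinarith [mul_nonneg this.le (sub_nonneg.2 h2), mul_nonneg (sub_nonneg.2 h1) (sq_nonneg (ek_e θ n))]

/-- heavy types -/
def ek_hv (π : Ω → Fin N → V) (θ : ℝ) (j : ℕ) (F : Ω → Finset (Fin N) → ZMod 2) (ω : Ω)
    (R : Finset (Fin N)) : Prop :=
  ek_e θ (j - R.card) * (loc π R ω).card < Wt (loc π R ω) R j F

theorem ek_hv_congr {π : Ω → Fin N → V} {θ : ℝ} {j : ℕ} {F : Ω → Finset (Fin N) → ZMod 2}
    {ω ω' : Ω} {R : Finset (Fin N)} (h : rel π R ω ω') : ek_hv π θ j F ω R ↔ ek_hv π θ j F ω' R := by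
  unfold ek_hv
  rw [ek_loc_eq h]

theorem ek_hv_top {π : Ω → Fin N → V} {θ : ℝ} {j : ℕ} {F : Ω → Finset (Fin N) → ZMod 2}
    (hF : Inv π F) {ω : Ω} {R : Finset (Fin N)} (hR : R.card = j) :
    ek_hv π θ j F ω R ↔ F ω R ≠ 0 := by
  unfold ek_hv
  have hn : (0 : ℝ) < (loc π R ω).card := by exact_mod_cast card_pos.2 ⟨ω, ek_self_mem π R ω⟩
  have hw : ∀ x ∈ loc π R ω, (ek_wt R j F x : ℝ) = if F ω R ≠ 0 then 1 else 0 := by
    intro x hx
    have hx' := hF R x ω (mem_loc.1 hx)
    unfold ek_wt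
    split_ifs with h
    · have : (univ.filter fun T : Finset (Fin N) => R ⊆ T ∧ T.card = j ∧ F x T ≠ 0) = {R} := by
        ext T
        simp only [mem_filter, mem_univ, true_and, mem_singleton]
        constructor
        · rintro ⟨h1, h2, -⟩
          exact (eq_of_subset_of_card_le h1 (by omega)).symm
        · rintro rfl
          exact ⟨Subset.rfl, hR, hx' ▸ h⟩
      rw [this]; simp
    · have : (univ.filter fun T : Finset (Fin N) => R ⊆ T ∧ T.card = j ∧ F x T ≠ 0) = ∅ := by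
        refine filter_eq_empty_iff.2 fun T _ => ?_
        rintro ⟨h1, h2, h3⟩
        obtain rfl := eq_of_subset_of_card_le h1 (by omega)
        exact h (hx' ▸ h3)
      rw [this]; simp
  rw [ek_Wt_eq, sum_congr rfl hw, sum_const, nsmul_eq_mul, hR, Nat.sub_self]
  change 1 / 2 * _ < _ ↔ _
  split_ifs with h
  · exact ⟨fun _ => h, fun _ => by linarith⟩
  · exact ⟨fun h' => absurd h' (by linarith), fun h' => absurd h' h⟩

open Classical in
/-- Markov inequality inside a class -/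
theorem ek_markov (π : Ω → Fin N → V) {θ : ℝ} (j : ℕ) (F : Ω → Finset (Fin N) → ZMod 2)
    (R : Finset (Fin N)) (ω0 : Ω) (a : Fin N) (ha : a ∉ R) :
    ek_e θ (j - (R.card + 1)) * ∑ x ∈ loc π R ω0,
      (if ek_hv π θ j F x (insert a R) then (1 : ℝ) else 0) ≤ Wt (loc π R ω0) R j F := by
  rw [ek_Wt_eq, mul_sum]
  refine ek_sum_le π (insert a R) _ (fun x hx y hy => mem_loc.2
    (ek_rel_trans (ek_rel_mono (subset_insert a R) hy) (mem_loc.1 hx))) _ _ fun x _ => ?_
  by_cases h : ek_hv π θ j F x (insert a R)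
  · rw [sum_congr rfl fun y hy => by rw [if_pos ((ek_hv_congr (mem_loc.1 hy)).2 h)]]
    unfold ek_hv at h
    rw [card_insert_of_notMem ha, ek_Wt_eq] at h
    rw [sum_const, nsmul_eq_mul, mul_one, mul_comm]
    refine h.le.trans (sum_le_sum fun y _ => ?_)
    exact_mod_cast ek_wt_mono (subset_insert a R) j F y
  · rw [sum_congr rfl fun y hy => by
      rw [if_neg (fun h' => h ((ek_hv_congr (mem_loc.1 hy)).1 h')), mul_zero]]
    rw [sum_const_zero]
    exact sum_nonneg fun y _ => Nat.cast_nonneg _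

open Classical in
theorem ek_dead_one (π : Ω → Fin N → V) {θ lam : ℝ} (hθ : 0 < θ) (hlam : 0 ≤ lam) (j : ℕ)
    (F : Ω → Finset (Fin N) → ZMod 2) (R : Finset (Fin N)) (a b : Fin N) (ha : a ∉ R) (hb : b ∉ R)
    (hR : R.card < j) (hl : lam ≤ θ * ek_e θ (j - (R.card + 1)))
    (hmix : ∀ ω, Mix π lam R ω a b) :
    ∑ x, (if ek_hv π θ j F x (insert a R) ∧ ek_hv π θ j F x (insert b R) ∧ ¬ ek_hv π θ j F x R
      then (1 : ℝ) else 0) ≤ 2 * θ * Wt univ ∅ j F := by
  have h0 : ∑ x, 2 * θ * (ek_wt R j F x : ℝ) ≤ 2 * θ * Wt univ ∅ j F := by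
    rw [ek_Wt_eq, mul_sum]
    refine sum_le_sum fun x _ => mul_le_mul_of_nonneg_left ?_ (by positivity)
    exact_mod_cast ek_wt_mono (empty_subset R) j F x
  refine le_trans ?_ h0
  refine ek_sum_le π R _ (fun _ _ _ _ => mem_univ _) _ _ fun ω0 _ => ?_
  rw [← mul_sum, ← ek_Wt_eq]
  by_cases h : ek_hv π θ j F ω0 R
  · rw [sum_congr rfl fun y hy => if_neg fun h' => h'.2.2 ((ek_hv_congr (mem_loc.1 hy)).2 h),
      sum_const_zero]
    positivity
  have hn : 0 < (loc π R ω0).card := card_pos.2 ⟨ω0, ek_self_mem π R ω0⟩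
  have hins : ∀ (c : Fin N), ∀ x ∈ loc π R ω0, ∀ y ∈ loc π R ω0, π x c = π y c →
      (if ek_hv π θ j F x (insert c R) then (1 : ℝ) else 0) =
        if ek_hv π θ j F y (insert c R) then (1 : ℝ) else 0 := by
    intro c x hx y hy e
    have : rel π (insert c R) x y := by
      intro d hd
      rcases mem_insert.1 hd with rfl | hd
      · exact e
      · exact (mem_loc.1 hx d hd).trans (mem_loc.1 hy d hd).symm
    rw [ek_hv_congr this]
  have h1 := ek_mix_ind hlam (hmix ω0) hn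
    (fun x => if ek_hv π θ j F x (insert a R) then (1 : ℝ) else 0)
    (fun x => if ek_hv π θ j F x (insert b R) then (1 : ℝ) else 0)
    (fun x => by split_ifs <;> simp) (fun x => by split_ifs <;> simp) (hins a) (hins b)
  have h2 := ek_markov π (θ := θ) j F R ω0 a ha
  have h3 := ek_markov π (θ := θ) j F R ω0 b hb
  have h4 : ∑ x ∈ loc π R ω0, (if ek_hv π θ j F x (insert a R) ∧ ek_hv π θ j F x (insert b R) ∧
      ¬ ek_hv π θ j F x R then (1 : ℝ) else 0) ≤ ∑ x ∈ loc π R ω0,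
      (if ek_hv π θ j F x (insert a R) then (1 : ℝ) else 0) *
        (if ek_hv π θ j F x (insert b R) then (1 : ℝ) else 0) := by
    refine sum_le_sum fun x _ => ?_
    by_cases p1 : ek_hv π θ j F x (insert a R) <;> by_cases p2 : ek_hv π θ j F x (insert b R) <;>
      by_cases p3 : ek_hv π θ j F x R <;> simp [p1, p2, p3]
  unfold ek_hv at h
  have e : j - R.card = j - (R.card + 1) + 1 := by omega
  rw [e, not_lt] at h
  change _ ≤ θ * ek_e θ (j - (R.card + 1)) ^ 2 * _ at h
  have hx := ek_e_pos hθ (j - (R.card + 1))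
  have hA : 0 ≤ ∑ x ∈ loc π R ω0, (if ek_hv π θ j F x (insert a R) then (1 : ℝ) else 0) :=
    sum_nonneg fun x _ => by split_ifs <;> simp
  have hB : 0 ≤ ∑ x ∈ loc π R ω0, (if ek_hv π θ j F x (insert b R) then (1 : ℝ) else 0) :=
    sum_nonneg fun x _ => by split_ifs <;> simp
  have hn' : (0 : ℝ) < (loc π R ω0).card := by exact_mod_cast hn
  have hw : (0 : ℝ) ≤ Wt (loc π R ω0) R j F := Nat.cast_nonneg _
  generalize (∑ x ∈ loc π R ω0, (if ek_hv π θ j F x (insert a R) then (1 : ℝ) else 0)) = A at *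
  generalize (∑ x ∈ loc π R ω0, (if ek_hv π θ j F x (insert b R) then (1 : ℝ) else 0)) = B at *
  generalize ek_e θ (j - (R.card + 1)) = x at *
  generalize ((loc π R ω0).card : ℝ) = n at *
  generalize (Wt (loc π R ω0) R j F : ℝ) = w at *
  have h5 : A * B / n ≤ θ * w := by
    rw [div_le_iff₀ hn']
    have h6 : (x * A) * (x * B) ≤ w * w := mul_le_mul h2 h3 (by positivity) hw
    have h7 : w * w ≤ w * (θ * x ^ 2 * n) := mul_le_mul_of_nonneg_left h hw
    have h8 : x ^ 2 * (A * B) ≤ x ^ 2 * (θ * w * n) := by nlinarith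
    exact le_of_mul_le_mul_left h8 (by positivity)
  have h9 : lam * (A + B) ≤ θ * x * (A + B) := mul_le_mul_of_nonneg_right hl (by positivity)
  have h10 : θ * (x * A + x * B) ≤ θ * (w + w) := mul_le_mul_of_nonneg_left (by linarith) hθ.le
  nlinarith

/-- dead chambers -/
def ek_dead (hv : Finset (Fin N) → Prop) (j : ℕ) : Prop :=
  ∃ R a b, a ≠ b ∧ a ∉ R ∧ b ∉ R ∧ R.card < j ∧ hv (insert a R) ∧ hv (insert b R) ∧ ¬ hv R

open Classical in
theorem ek_dead_all (π : Ω → Fin N → V) {θ : ℝ} (hθ : 0 < θ) (hθ1 : θ ≤ 1) (j : ℕ) (hj : j < N)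
    (F : Ω → Finset (Fin N) → ZMod 2)
    (hmix : ∀ R ω a b, a ≠ b → a ∉ R → b ∉ R → Mix π (θ * ek_e θ N) R ω a b) :
    ∑ x, (if ek_dead (ek_hv π θ j F x) j then (1 : ℝ) else 0) ≤
      (2 ^ N * N * N) * (2 * θ * Wt univ ∅ j F) := by
  have h1 : ∀ x, (if ek_dead (ek_hv π θ j F x) j then (1 : ℝ) else 0) ≤
      ∑ z : Finset (Fin N) × Fin N × Fin N,
        (if (z.2.1 ≠ z.2.2 ∧ z.2.1 ∉ z.1 ∧ z.2.2 ∉ z.1 ∧ z.1.card < j) ∧
          ek_hv π θ j F x (insert z.2.1 z.1) ∧ ek_hv π θ j F x (insert z.2.2 z.1) ∧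
          ¬ ek_hv π θ j F x z.1 then (1 : ℝ) else 0) := by
    intro x
    split_ifs with h
    · obtain ⟨R, a, b, h1, h2, h3, h4, h5⟩ := h
      refine le_trans ?_ (single_le_sum (f := fun z : Finset (Fin N) × Fin N × Fin N =>
        (if (z.2.1 ≠ z.2.2 ∧ z.2.1 ∉ z.1 ∧ z.2.2 ∉ z.1 ∧ z.1.card < j) ∧
          ek_hv π θ j F x (insert z.2.1 z.1) ∧ ek_hv π θ j F x (insert z.2.2 z.1) ∧
          ¬ ek_hv π θ j F x z.1 then (1 : ℝ) else 0))
        (fun z _ => by split_ifs <;> simp) (mem_univ (R, a, b)))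
      rw [if_pos ⟨⟨h1, h2, h3, h4⟩, h5⟩]
    · exact sum_nonneg fun z _ => by split_ifs <;> simp
  refine (sum_le_sum fun x _ => h1 x).trans ?_
  rw [sum_comm]
  have hc : ((univ : Finset (Finset (Fin N) × Fin N × Fin N)).card : ℝ) = 2 ^ N * N * N := by
    simp [card_univ, mul_assoc]
  rw [← hc, ← nsmul_eq_mul]
  refine sum_le_card_nsmul _ _ _ fun z _ => ?_
  obtain ⟨R, a, b⟩ := z
  by_cases h : a ≠ b ∧ a ∉ R ∧ b ∉ R ∧ R.card < j
  · simp only [h, and_self, true_and, ne_eq, not_false_eq_true]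
    refine ek_dead_one π hθ (mul_pos hθ (ek_e_pos hθ N)).le j F R a b h.2.1 h.2.2.1 h.2.2.2
      (mul_le_mul_of_nonneg_left (ek_e_anti hθ hθ1 (by omega)) hθ.le) fun ω =>
        hmix R ω a b h.1 h.2.1 h.2.2.1
  · simp only [h, false_and, if_false, sum_const_zero]
    positivity

open Classical in
/-- number of ladders from `R` -/
noncomputable def ek_lad (hv : Finset (Fin N) → Prop) (j : ℕ) (R : Finset (Fin N)) : ℕ :=
  (univ.filter fun T : Finset (Fin N) => T.card = j ∧ EkLad hv T R).card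

open Classical in
theorem ek_local (hv : Finset (Fin N) → Prop) (j : ℕ) (f : Finset (Fin N) → ZMod 2)
    (hf : ∀ T, T.card = j → (hv T ↔ f T ≠ 0))
    (hco : ∀ T, T.card = j + 1 → ∑ c ∈ T \ ∅, f (T.erase c) = 0) (R : Finset (Fin N)) :
    ((univ.filter fun T : Finset (Fin N) => R ⊆ T ∧ T.card = j + 1 ∧
      ∑ c ∈ T \ R, (if (T.erase c).card = j ∧ EkLad hv (T.erase c) R then (1 : ZMod 2) else 0) ≠ 0).card
        : ℝ) ≤ 2 ^ N * (if ek_dead hv j then (1 : ℝ) else 0) + ∑ c ∈ R, (ek_lad hv j (R.erase c) : ℝ) := by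
  by_cases hd : ek_dead hv j
  · rw [if_pos hd, mul_one]
    refine le_add_of_le_of_nonneg ?_ (sum_nonneg fun _ _ => Nat.cast_nonneg _)
    have := card_le_univ (univ.filter fun T : Finset (Fin N) => R ⊆ T ∧ T.card = j + 1 ∧
      ∑ c ∈ T \ R, (if (T.erase c).card = j ∧ EkLad hv (T.erase c) R then (1 : ZMod 2) else 0) ≠ 0)
    rw [Fintype.card_finset, Fintype.card_fin] at this
    exact_mod_cast this
  rw [if_neg hd, mul_zero, zero_add]
  have hnd : ∀ R a b, a ≠ b → a ∉ R → b ∉ R → R.card < j → hv (insert a R) → hv (insert b R) →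
      hv R := fun R a b h1 h2 h3 h4 h5 h6 => by_contra fun h7 => hd ⟨R, a, b, h1, h2, h3, h4, h5, h6, h7⟩
  have hsub : (univ.filter fun T : Finset (Fin N) => R ⊆ T ∧ T.card = j + 1 ∧
      ∑ c ∈ T \ R, (if (T.erase c).card = j ∧ EkLad hv (T.erase c) R then (1 : ZMod 2) else 0) ≠ 0)
      ⊆ R.biUnion fun c => (univ.filter fun T : Finset (Fin N) =>
        T.card = j ∧ EkLad hv T (R.erase c)).image (insert c) := by
    intro T hT
    simp only [mem_filter, mem_univ, true_and] at hT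
    obtain ⟨hRT, hT, hs⟩ := hT
    obtain ⟨u1, hu1, hu1'⟩ := exists_ne_zero_of_sum_ne_zero hs
    have hL : EkLad hv (T.erase u1) R := by
      by_contra h
      exact hu1' (if_neg fun h' => h h'.2)
    obtain ⟨hu1T, hu1R⟩ := mem_sdiff.1 hu1
    have hce : ∀ c ∈ T, (T.erase c).card = j := fun c hc => by rw [card_erase_of_mem hc, hT]; rfl
    by_contra hno
    have hz : ∀ c ∈ R, f (T.erase c) = 0 := by
      intro c hc
      by_contra h
      refine hno (mem_biUnion.2 ⟨c, hc, mem_image.2 ⟨T.erase c, ?_, insert_erase (hRT hc)⟩⟩)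
      refine mem_filter.2 ⟨mem_univ _, hce c (hRT hc), ?_⟩
      exact hL.move hnd hT (hRT hc) hu1T (fun e => hu1R (e ▸ hc)) ((hf _ (hce c (hRT hc))).2 h)
    refine hs (Eq.trans ?_ (hco T hT))
    rw [sdiff_empty, ← sum_sdiff hRT, sum_eq_zero hz, add_zero]
    refine sum_congr rfl fun c hc => ?_
    obtain ⟨hcT, hcR⟩ := mem_sdiff.1 hc
    split_ifs with h
    · have := (hf _ h.1).1 h.2.top
      revert this
      generalize f (T.erase c) = z
      revert z
      decide
    · by_contra h'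
      refine h ⟨hce c hcT, ?_⟩
      by_cases e : c = u1
      · exact e ▸ hL
      · have := hL.move hnd hT hcT hu1T e ((hf _ (hce c hcT)).2 (Ne.symm h'))
        rwa [erase_eq_of_notMem hcR] at this
  have := (card_le_card hsub).trans (card_biUnion_le.trans (sum_le_sum fun c _ => card_image_le))
  unfold ek_lad
  exact_mod_cast this

open Classical in
theorem ek_step (π : Ω → Fin N → V) (M : ℕ) (θ : ℝ) (j : ℕ) (hj : j < N)
    (F : Ω → Finset (Fin N) → ZMod 2) (hF : Inv π F)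
    (hco : ∀ ω T, T.card = j + 1 → dR ∅ F ω T = 0) (hmin : LocMin π j F)
    (R : Finset (Fin N)) (hR : R.Nonempty) (hle : ∀ ω, LinkExp π M R ω) :
    ∑ x, (ek_lad (ek_hv π θ j F x) j R : ℝ) ≤
      ∑ x, M * (2 ^ N * (if ek_dead (ek_hv π θ j F x) j then (1 : ℝ) else 0) +
        ∑ c ∈ R, (ek_lad (ek_hv π θ j F x) j (R.erase c) : ℝ)) := by
  refine ek_sum_le π R _ (fun _ _ _ _ => mem_univ _) _ _ fun ω0 _ => ?_
  set G : Ω → Finset (Fin N) → ZMod 2 := fun x T =>
    if T.card = j ∧ EkLad (ek_hv π θ j F x) T R then 1 else 0 with hG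
  have hGi : Inv π G := by
    intro T x y h
    have : EkLad (ek_hv π θ j F x) T R ↔ EkLad (ek_hv π θ j F y) T R :=
      ⟨fun h' => h'.congr fun S hS => (ek_hv_congr (ek_rel_mono hS h)).1,
        fun h' => h'.congr fun S hS => (ek_hv_congr (ek_rel_mono hS h)).2⟩
    simp only [hG, this]
  obtain ⟨k, hk, hk'⟩ := hle ω0 j hj G hGi
  have h1 := hmin R hR ω0 k hk
  have h2 : ∀ x, ek_lad (ek_hv π θ j F x) j R = ek_wt R j G x := by
    intro x
    unfold ek_lad ek_wt
    congr 1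
    ext T
    simp only [mem_filter, mem_univ, true_and, hG]
    constructor
    · intro h
      exact ⟨h.2.sub, h.1, by rw [if_pos h]; exact one_ne_zero⟩
    · rintro ⟨-, -, h⟩
      by_contra h'
      exact h (if_neg h')
  have h3 : ∀ x, ek_wt R j (F + dR R k) x + ek_wt R j G x ≤
      ek_wt R j (G + dR R k) x + ek_wt R j F x := by
    intro x
    unfold ek_wt
    simp only [card_filter, ← sum_add_distrib]
    refine sum_le_sum fun T _ => ?_
    by_cases hT : R ⊆ T ∧ T.card = j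
    · have h4 : G x T ≠ 0 → F x T ≠ 0 := by
        intro h
        have h' : T.card = j ∧ EkLad (ek_hv π θ j F x) T R := by
          by_contra h'
          exact h (if_neg h')
        exact (ek_hv_top hF hT.2).1 h'.2.top
      simp only [hT.1, hT.2, true_and, Pi.add_apply]
      revert h4
      generalize G x T = a
      generalize F x T = b
      generalize dR R k x T = c
      revert a b c
      decide
    · have : ∀ P : Prop, ¬ (R ⊆ T ∧ T.card = j ∧ P) := fun P h => hT ⟨h.1, h.2.1⟩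
      simp only [this, if_false, le_refl]
  have h5 : (Wt (loc π R ω0) R j G : ℝ) ≤ M * Wt (loc π R ω0) R (j + 1) (dR R G) := by
    have a1 : (Wt (loc π R ω0) R j (F + dR R k) : ℝ) + Wt (loc π R ω0) R j G ≤
        Wt (loc π R ω0) R j (G + dR R k) + Wt (loc π R ω0) R j F := by
      simp only [ek_Wt_eq, ← sum_add_distrib]
      exact sum_le_sum fun x _ => by exact_mod_cast h3 x
    have a2 : (Wt (loc π R ω0) R j F : ℝ) ≤ Wt (loc π R ω0) R j (F + dR R k) := by
      exact_mod_cast h1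
    have a3 : (Wt (loc π R ω0) R j (G + dR R k) : ℝ) ≤
        M * Wt (loc π R ω0) R (j + 1) (dR R G) := by exact_mod_cast hk'
    linarith
  simp only [h2]
  rw [← ek_Wt_eq, ← mul_sum]
  refine h5.trans (mul_le_mul_of_nonneg_left ?_ (Nat.cast_nonneg _))
  rw [ek_Wt_eq]
  exact sum_le_sum fun x _ => ek_local (ek_hv π θ j F x) j (F x)
    (fun T hT => ek_hv_top hF hT) (hco x) R

end

/-- Evra–Kaufman: a small locally minimal cocycle vanishes -/
theorem ek (N M : ℕ) : ∃ lam η : ℝ, 0 < lam ∧ 0 < η ∧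
    ∀ (Ω V : Type) [Fintype Ω] (π : Ω → Fin N → V),
      (∀ R ω, R.Nonempty → LinkExp π M R ω) →
      (∀ R ω a b, a ≠ b → a ∉ R → b ∉ R → Mix π lam R ω a b) →
      ∀ j, 1 ≤ j → j < N → ∀ F, Inv π F → (∀ ω T, T.card = j + 1 → dR ∅ F ω T = 0) →
        LocMin π j F → (Wt Finset.univ ∅ j F : ℝ) ≤ η * Fintype.card Ω →
        Wt Finset.univ ∅ j F = 0 := by
  classical
  set K : ℝ := 2 ^ N * M * (2 ^ N + N) with hK
  have hK0 : 0 ≤ K := by positivity
  set C : ℝ := (K + 1) ^ N * (2 ^ N * N * N) + 1 with hC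
  have hC1 : 1 ≤ C := le_add_of_nonneg_left (by positivity)
  set θ : ℝ := 1 / (4 * C) with hθd
  have hθ : 0 < θ := by positivity
  have hθC : θ * (4 * C) = 1 := by rw [hθd]; field_simp
  have hθ1 : θ ≤ 1 := by nlinarith
  refine ⟨θ * ek_e θ N, ek_e θ N, mul_pos hθ (ek_e_pos hθ N), ek_e_pos hθ N, ?_⟩
  intro Ω V _ π hle hmix j hj1 hj F hF hco hmin hsm
  set D : ℝ := ∑ x, (if ek_dead (ek_hv π θ j F x) j then (1 : ℝ) else 0) with hD
  have hD0 : 0 ≤ D := sum_nonneg fun x _ => by split_ifs <;> simp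
  set B : ℕ → ℝ := fun l => ∑ R ∈ univ.filter (fun R : Finset (Fin N) => R.card = l),
    ∑ x, (ek_lad (ek_hv π θ j F x) j R : ℝ) with hB
  have hB0 : ∀ l, 0 ≤ B l := fun l =>
    sum_nonneg fun _ _ => sum_nonneg fun _ _ => Nat.cast_nonneg _
  have hz : B 0 = 0 := by
    refine sum_eq_zero fun R hR => sum_eq_zero fun x _ => ?_
    obtain rfl : R = ∅ := card_eq_zero.1 (mem_filter.1 hR).2
    have : ¬ ek_hv π θ j F x ∅ := by
      unfold ek_hv
      have e : loc π ∅ x = univ := eq_univ_of_forall fun y => mem_loc.2 fun c hc => absurd hc (notMem_empty c)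
      rw [e, card_empty, Nat.sub_zero, not_lt, card_univ]
      exact hsm.trans (mul_le_mul_of_nonneg_right (ek_e_anti hθ hθ1 hj.le) (Nat.cast_nonneg _))
    unfold ek_lad
    rw [Nat.cast_eq_zero, card_eq_zero]
    exact filter_eq_empty_iff.2 fun T _ h => this h.2.bot
  have hstep : ∀ l, B (l + 1) ≤ K * (D + B l) := by
    intro l
    have h1 : ∀ R ∈ univ.filter (fun R : Finset (Fin N) => R.card = l + 1),
        ∑ x, (ek_lad (ek_hv π θ j F x) j R : ℝ) ≤ M * (2 ^ N * D + N * B l) := by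
      intro R hR
      have hRc := (mem_filter.1 hR).2
      have hne : R.Nonempty := card_pos.1 (by omega)
      refine (ek_step π M θ j hj F hF hco hmin R hne fun ω => hle R ω hne).trans ?_
      rw [← mul_sum, sum_add_distrib, ← mul_sum, sum_comm]
      refine mul_le_mul_of_nonneg_left (add_le_add le_rfl ?_) (Nat.cast_nonneg _)
      have h2 : ∀ c ∈ R, ∑ x, (ek_lad (ek_hv π θ j F x) j (R.erase c) : ℝ) ≤ B l := by
        intro c hc
        exact single_le_sum (f := fun R => ∑ x, (ek_lad (ek_hv π θ j F x) j R : ℝ))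
          (fun _ _ => sum_nonneg fun _ _ => Nat.cast_nonneg _)
          (mem_filter.2 ⟨mem_univ _, by rw [card_erase_of_mem hc, hRc]; rfl⟩)
      refine (sum_le_card_nsmul _ _ _ h2).trans ?_
      rw [nsmul_eq_mul]
      refine mul_le_mul_of_nonneg_right ?_ (hB0 l)
      have := card_le_univ R
      rw [Fintype.card_fin] at this
      exact_mod_cast this
    refine (sum_le_card_nsmul _ _ _ h1).trans ?_
    rw [nsmul_eq_mul]
    have h3 : ((univ.filter (fun R : Finset (Fin N) => R.card = l + 1)).card : ℝ) ≤ 2 ^ N := by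
      have := card_le_univ (univ.filter (fun R : Finset (Fin N) => R.card = l + 1))
      rw [Fintype.card_finset, Fintype.card_fin] at this
      exact_mod_cast this
    have h4 : (2 : ℝ) ^ N * D + N * B l ≤ (2 ^ N + N) * (D + B l) := by
      have := hB0 l
      have h5 : (0 : ℝ) ≤ 2 ^ N * B l := by positivity
      have h6 : (0 : ℝ) ≤ N * D := by positivity
      nlinarith
    have := hB0 l
    calc _ ≤ (2 : ℝ) ^ N * (M * ((2 ^ N + N) * (D + B l))) :=
          mul_le_mul h3 (mul_le_mul_of_nonneg_left h4 (Nat.cast_nonneg _)) (by positivity)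
            (by positivity)
      _ = _ := by rw [hK]; ring
  have hind : ∀ l, D + B l ≤ (K + 1) ^ l * D := by
    intro l
    induction l with
    | zero => simp [hz]
    | succ l ih =>
      have := hstep l
      have h1 := hB0 l
      calc D + B (l + 1) ≤ (K + 1) * (D + B l) := by nlinarith
        _ ≤ (K + 1) * ((K + 1) ^ l * D) := mul_le_mul_of_nonneg_left ih (by positivity)
        _ = _ := by ring
  have hW : (Wt univ ∅ j F : ℝ) ≤ B j := by
    rw [ek_Wt_eq, hB]
    simp only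
    rw [sum_comm]
    refine sum_le_sum fun x _ => ?_
    unfold ek_wt
    rw [card_filter]
    push_cast
    rw [sum_filter]
    refine sum_le_sum fun T _ => ?_
    by_cases h : ∅ ⊆ T ∧ T.card = j ∧ F x T ≠ 0
    · rw [if_pos h, if_pos h.2.1]
      have : 1 ≤ ek_lad (ek_hv π θ j F x) j T :=
        card_pos.2 ⟨T, mem_filter.2 ⟨mem_univ _, h.2.1, .base ((ek_hv_top hF h.2.1).2 h.2.2)⟩⟩
      exact_mod_cast this
    · rw [if_neg h]
      split_ifs <;> simp
  have hd := ek_dead_all π hθ hθ1 j hj F hmix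
  rw [← hD] at hd
  have hW0 : (0 : ℝ) ≤ Wt univ ∅ j F := Nat.cast_nonneg _
  have h1 : (K + 1) ^ j * D ≤ (K + 1) ^ N * D :=
    mul_le_mul_of_nonneg_right (pow_le_pow_right₀ (by linarith) hj.le) hD0
  have h2 : (K + 1) ^ N * D ≤ (K + 1) ^ N * ((2 ^ N * N * N) * (2 * θ * Wt univ ∅ j F)) :=
    mul_le_mul_of_nonneg_left hd (by positivity)
  have h3 : (K + 1) ^ N * ((2 ^ N * N * N) * (2 * θ * Wt univ ∅ j F)) =
      (C - 1) * (2 * θ * Wt univ ∅ j F) := by rw [hC]; ring
  have h4 := hind j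
  have h5 : (C - 1) * (2 * θ * Wt univ ∅ j F) ≤ 1 / 2 * Wt univ ∅ j F := by
    have : (C - 1) * (2 * θ) ≤ 1 / 2 := by nlinarith
    rw [← mul_assoc]
    exact mul_le_mul_of_nonneg_right this hW0
  have : (Wt univ ∅ j F : ℝ) = 0 := by linarith
  exact_mod_cast this

end Vale.Agent.P067
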