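import Vale.Agent.P067.LatD

namespace Vale.Agent.P067

variable {K : Type} [Field K] {N : ℕ}

theorem fill_generic {H W : Sb K N} (hH : Com H) (hW : Com W) (hlt : W < H) :
    ∃ B : Sb K N, W ≤ B ∧ B < H ∧ ∀ l ∈ H, l ∉ B → RL (W ⊔ K ∙ l) ⊆ RL W ∪ RL H := by
  have key : ∀ B : Sb K N, (∀ k : ℤ, ¬ H ≤ W ⊔ Pos (-k) → (W ⊔ Pos (-k)) ⊓ H ≤ B) →
      ∀ l ∈ H, l ∉ B → RL (W ⊔ K ∙ l) ⊆ RL W ∪ RL H := by
    rintro B hB l hl hlB ab ⟨h1', h2', k, h3, h4⟩
    have hle : W ⊔ K ∙ l ≤ H := sup_le hlt.le ((Submodule.span_singleton_le_iff_mem _ _).2 hl)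
    by_cases hk : H ≤ W ⊔ Pos (-k)
    · right
      refine ⟨h1', h2', k, h3.trans (h0_mono (hH.sh k) (sh_mono k hle)), h4.trans (le_of_eq ?_)⟩
      have e : sh k (W ⊔ K ∙ l) ⊔ Pos 0 = sh k H ⊔ Pos 0 := by
        refine le_antisymm (sup_le_sup_right (sh_mono k hle) _) (sup_le ?_ le_sup_right)
        have := sh_mono k hk
        rw [sh_sup, sh_Pos, neg_add_cancel] at this
        exact this.trans (sup_le_sup_right (sh_mono k le_sup_left) _)
      rw [h1, h1, e]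
    · left
      refine ⟨h1', h2', k, h3.trans (le_of_eq ?_),
        h4.trans (h1_anti (hW.sh k) (sh_mono k le_sup_left))⟩
      have hn : shl k l ∉ sh k W ⊔ Pos 0 := by
        intro h
        apply hlB
        refine hB k hk ⟨?_, hl⟩
        rw [← neg_add_cancel k, ← sh_Pos, ← sh_sup, shl_mem_sh] at h
        exact h
      rw [h0, h0, sh_sup, sh_span, fred_inf_span_of_notMem hn]
  by_cases hS : ∃ k : ℤ, ¬ H ≤ W ⊔ Pos (-k)
  · obtain ⟨a, b, ha, -⟩ := id hW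
    obtain ⟨k0, hk0, hmax⟩ := Int.exists_greatest_of_bdd (P := fun k : ℤ => ¬ H ≤ W ⊔ Pos (-k))
      ⟨-a, fun k hk => by
        by_contra hc
        apply hk
        refine le_top.trans ?_
        rw [← Std_sup_Pos (show -k ≤ a by omega)]
        exact sup_le_sup_right ha _⟩ hS
    refine ⟨(W ⊔ Pos (-k0)) ⊓ H, le_inf le_sup_left hlt.le,
      lt_of_le_of_ne inf_le_right fun e => hk0 (inf_eq_right.1 e), key _ fun k hk => ?_⟩
    exact inf_le_inf_right _ (sup_le_sup_left (Pos_anti (by have := hmax k hk; omega)) _)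
  · exact ⟨W, le_rfl, hlt, key _ fun k hk => absurd ⟨k, hk⟩ hS⟩

theorem fill_avoid [Finite K] {ι : Type} {H : Sb K N} (s : Finset ι) (B : ι → Sb K N)
    (hs : ∀ i ∈ s, B i < H) (hc : s.card < Nat.card K) : ∃ l ∈ H, ∀ i ∈ s, l ∉ B i := by
  have h := Submodule.iUnion_ssubset_of_forall_ne_top_of_card_lt (Finset.univ : Finset s)
    (fun i : s => (B i).comap H.subtype) (fun i e => by
      rw [Submodule.comap_subtype_eq_top] at e
      exact (hs i i.2).not_ge e) (by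
      have := Fintype.ofFinite K
      rw [ENat.card_eq_coe_fintype_card, ← Nat.card_eq_fintype_card]
      simpa using hc)
  obtain ⟨x, -, hx⟩ := Set.exists_of_ssubset h
  refine ⟨x.1, x.2, fun i hi hx' => hx ?_⟩
  simp only [Set.mem_iUnion]
  exact ⟨⟨i, hi⟩, Finset.mem_univ _, hx'⟩

theorem fill_top {ρ : Finset (Vx K N)} (hne : ρ.Nonempty) (hc : ρ.card < N) :
    ∃ w0 ∈ ρ, ∀ u ∈ ρ, ¬ (N : ℤ) ∣ idx u.1 - (idx w0.1 - 1) := by
  by_contra hcon
  push Not at hcon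
  obtain ⟨w0, hw0⟩ := hne
  have h1 : ∀ n : ℕ, ∃ u ∈ ρ, (N : ℤ) ∣ idx u.1 - (idx w0.1 - n) := by
    intro n
    induction n with
    | zero => exact ⟨w0, hw0, by simp⟩
    | succ n ih =>
      obtain ⟨u, hu, h⟩ := ih
      obtain ⟨u', hu', h'⟩ := hcon u hu
      refine ⟨u', hu', ?_⟩
      have e : idx u'.1 - (idx w0.1 - (n + 1 : ℕ))
          = idx u.1 - (idx w0.1 - n) + (idx u'.1 - (idx u.1 - 1)) := by push_cast; ring
      rw [e]; exact dvd_add h h'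
  have h2 : (Finset.univ : Finset (Fin N)) ⊆ ρ.image col := by
    intro c _
    have hw := w0.2.2
    obtain ⟨u, hu, h⟩ := h1 (idx w0.1 - c + N).toNat
    have hc' := c.2
    rw [Int.toNat_of_nonneg (by omega)] at h
    refine Finset.mem_image.2 ⟨u, hu, Fin.ext ?_⟩
    have h3 : (N : ℤ) ∣ idx u.1 - c := by
      have e : idx u.1 - c = idx u.1 - (idx w0.1 - (idx w0.1 - c + N)) - N := by ring
      rw [e]; exact dvd_sub h (dvd_refl (N : ℤ))
    have h4 := col_val u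
    have h5 := u.2.2
    have := Int.eq_zero_of_abs_lt_dvd h3 (by rw [abs_lt]; constructor <;> omega)
    omega
  have := (Finset.card_le_card h2).trans Finset.card_image_le
  simp at this
  omega

open Classical in
/-- representative of `u` in the window `[t⁻¹ w0, w0)` -/
noncomputable def frp (w0 u : Vx K N) : Sb K N :=
  if idx u.1 < idx w0.1 then u.1 else sh (-1) u.1

theorem frp_sh (w0 u : Vx K N) : ∃ k, frp w0 u = sh k u.1 := by
  unfold frp; split_ifs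
  · exact ⟨0, by simp⟩
  · exact ⟨_, rfl⟩

theorem frp_lat (w0 u : Vx K N) : Lat (frp w0 u) := by
  obtain ⟨k, hk⟩ := frp_sh w0 u
  rw [hk]; exact u.lat.sh k

theorem frp_idx (w0 u : Vx K N) :
    idx w0.1 - N ≤ idx (frp w0 u) ∧ idx (frp w0 u) < idx w0.1 := by
  have h1 := w0.2.2; have h2 := u.2.2
  unfold frp; split_ifs
  · omega
  · rw [idx_sh u.com]; omega

theorem frp_cmp (w0 : Vx K N) {u w : Vx K N} (h : CmpL u.1 w.1) :
    CmpL (frp w0 u) (frp w0 w) := by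
  obtain ⟨k, hk⟩ := frp_sh w0 u
  obtain ⟨l, hl⟩ := frp_sh w0 w
  rw [hk, hl]; exact h.sh _ _

theorem frp_le (w0 : Vx K N) {u w : Vx K N} (h : CmpL u.1 w.1)
    (hi : idx (frp w0 u) ≤ idx (frp w0 w)) : frp w0 u ≤ frp w0 w :=
  (frp_cmp w0 h).le_of_idx (frp_lat _ _).1 (frp_lat _ _).1 hi

theorem frp_window {w0 u : Vx K N} (h : CmpL u.1 w0.1) :
    sh (-1) w0.1 ≤ frp w0 u ∧ frp w0 u ≤ w0.1 := by
  obtain ⟨k, hk⟩ := frp_sh w0 u
  have hi := frp_idx w0 u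
  constructor
  · refine CmpL.le_of_idx ?_ (w0.com.sh _) (frp_lat _ _).1 (by rw [idx_sh w0.com]; omega)
    rw [hk]; exact h.symm.sh _ _
  · refine CmpL.le_of_idx ?_ (frp_lat _ _).1 w0.com hi.2.le
    rw [hk]; exact h.sh_left _

theorem frp_inj (w0 : Vx K N) {u w : Vx K N} (h : CmpL u.1 w.1)
    (hi : idx (frp w0 u) = idx (frp w0 w)) : u = w := by
  have := (frp_cmp w0 h).eq_of_idx (frp_lat _ _).1 (frp_lat _ _).1 hi
  obtain ⟨k, hk⟩ := frp_sh w0 u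
  obtain ⟨l, hl⟩ := frp_sh w0 w
  rw [hk, hl] at this
  exact (vx_eq_of_sh this).1

theorem frp_cls [NeZero N] (w0 u : Vx K N) : cls (frp w0 u) = u := by
  obtain ⟨k, hk⟩ := frp_sh w0 u
  rw [hk, cls_sh_vx]

theorem frp_RL (w0 u : Vx K N) : RL (frp w0 u) = RL u.1 := by
  obtain ⟨k, hk⟩ := frp_sh w0 u
  rw [hk, RL_sh]

theorem frp_eq_of_cls [NeZero N] {w0 u : Vx K N} {Y : Sb K N} (hY : Lat Y) (h : cls Y = u)
    (h1 : idx w0.1 - N ≤ idx Y) (h2 : idx Y < idx w0.1) : Y = frp w0 u := by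
  obtain ⟨k, hk⟩ := (cls_eq_iff hY).1 h
  obtain ⟨l, hl⟩ := frp_sh w0 u
  have h3 := frp_idx w0 u
  rw [hl, idx_sh u.com] at h3
  rw [hk, idx_sh u.com] at h1 h2
  have hN : (0 : ℤ) ≤ N := by omega
  have : k = l := by
    by_contra hne
    rcases lt_or_gt_of_ne hne with h' | h'
    · have : (k + 1) * N ≤ l * N := mul_le_mul_of_nonneg_right (by omega) hN
      nlinarith
    · have : (l + 1) * N ≤ k * N := mul_le_mul_of_nonneg_right (by omega) hN
      nlinarith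
  rw [hk, hl, this]

/-- admissible lattices for the descending link of `ρ` -/
def FAdm [NeZero N] (ρ : Finset (Vx K N)) (w0 : Vx K N) (Y : Sb K N) : Prop :=
  sh (-1) w0.1 ≤ Y ∧ Y ≤ w0.1 ∧ RL Y ⊆ Rs ρ ∧ cls Y ∉ ρ ∧
    ∀ r ∈ ρ, Y ≤ frp w0 r ∨ frp w0 r ≤ Y

theorem fill_cmp_window {H Y Y' : Sb K N} (hH : Lat H) (h1 : sh (-1) H ≤ Y) (h2 : Y ≤ H)
    (h3 : sh (-1) H ≤ Y') (h4 : Y' ≤ H) (h : Y ≤ Y' ∨ Y' ≤ Y) : CmpL Y Y' := by
  rcases h with h | h
  · exact cmpL_of_window (hH.window h1 h2) h (h4.trans (le_sh_iff.2 h1))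
  · exact (cmpL_of_window (hH.window h3 h4) h (h2.trans (le_sh_iff.2 h3))).symm

theorem fill_LL [NeZero N] {ρ : Finset (Vx K N)} (hρ : Face ρ) {w0 : Vx K N} (hw0 : w0 ∈ ρ)
    (C : Sb K N → Prop) (hC : ∀ Y Y', C Y → C Y' → Y ≤ Y' ∨ Y' ≤ Y)
    (hA : ∀ Y, C Y → FAdm ρ w0 Y) {τ : Finset (Vx K N)} (hτ : ∀ y ∈ τ, ∃ Y, C Y ∧ y = cls Y) :
    LL ρ τ := by
  have hlat : ∀ Y, C Y → Lat Y := fun Y hY => w0.lat.window (hA Y hY).1 (hA Y hY).2.1
  have hmix : ∀ y ∈ τ, ∀ r ∈ ρ, CmpL y.1 r.1 := by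
    intro y hy r hr
    obtain ⟨Y, hY, rfl⟩ := hτ y hy
    have hw := frp_window (hρ r hr w0 hw0)
    rw [← frp_cls w0 r, cmpL_cls (hlat Y hY) (frp_lat _ _)]
    exact fill_cmp_window w0.lat (hA Y hY).1 (hA Y hY).2.1 hw.1 hw.2 ((hA Y hY).2.2.2.2 r hr)
  refine ⟨Finset.disjoint_right.2 fun y hy => ?_, fun u hu w hw => ?_,
    Rs_subset_iff.2 fun y hy => ?_⟩
  · obtain ⟨Y, hY, rfl⟩ := hτ y hy
    exact (hA Y hY).2.2.2.1
  · rcases Finset.mem_union.1 hu with hu | hu <;> rcases Finset.mem_union.1 hw with hw | hw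
    · exact hρ u hu w hw
    · exact (hmix w hw u hu).symm
    · exact hmix u hu w hw
    · obtain ⟨Y, hY, rfl⟩ := hτ u hu
      obtain ⟨Y', hY', rfl⟩ := hτ w hw
      rw [cmpL_cls (hlat Y hY) (hlat Y' hY')]
      exact fill_cmp_window w0.lat (hA Y hY).1 (hA Y hY).2.1 (hA Y' hY').1 (hA Y' hY').2.1
        (hC Y Y' hY hY')
  · obtain ⟨Y, hY, rfl⟩ := hτ y hy
    rw [RL_cls (hlat Y hY)]
    exact (hA Y hY).2.2.1

theorem fill_link {ρ : Finset (Vx K N)} {v : Vx K N} (hv : LL ρ {v}) :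
    (fun τ => v ∉ τ ∧ LL ρ (insert v τ)) = LL (insert v ρ) := by
  have hv1 : v ∉ ρ := Finset.disjoint_singleton_right.1 hv.1
  have hv2 : RL v.1 ⊆ Rs ρ := Rs_subset_iff.1 hv.2.2 v (Finset.mem_singleton_self v)
  have e : Rs (insert v ρ) = Rs ρ := by
    refine le_antisymm (Rs_subset_iff.2 fun u hu => ?_) (Rs_mono (Finset.subset_insert _ _))
    rcases Finset.mem_insert.1 hu with rfl | hu
    · exact hv2
    · exact fun ab hab => ⟨u, hu, hab⟩
  funext τ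
  apply propext
  simp only [LL, e, Finset.disjoint_insert_left, Finset.disjoint_insert_right, Finset.insert_union,
    Finset.union_insert, Rs_subset_iff, Finset.forall_mem_insert]
  tauto

end Vale.Agent.P067
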