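import Vale.Agent.P067.FillA
import Vale.Agent.P067.Prism

namespace Vale.Agent.P067

theorem fill_core {K : Type} [Field K] {N : ℕ} [NeZero N] [Finite K] {ρ : Finset (Vx K N)}
    (hρ : Face ρ) {w0 : Vx K N} (hw0 : w0 ∈ ρ)
    (htop : ∀ u ∈ ρ, ¬ (N : ℤ) ∣ idx u.1 - (idx w0.1 - 1)) (i : ℕ) (z : Ch (Vx K N))
    (hz : InCh (fun τ => LL ρ τ ∧ ∀ u ∈ τ, ¬ idx (frp w0 u) = idx w0.1 - 1) i z) (hb : bd z = 0)
    (hc : i * z.support.card + 1 < Nat.card K) :
    ∃ y, InCh (LL ρ) (i + 1) y ∧ bd y = z ∧ y.support.card ≤ (i + 1) * z.support.card := by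
  classical
  obtain ⟨u0, hu0, hmax⟩ := ρ.exists_max_image (fun u => idx (frp w0 u)) ⟨w0, hw0⟩
  have hlo : idx (frp w0 u0) ≤ idx w0.1 - 2 := by
    have h1 := (frp_idx w0 u0).2
    obtain ⟨k, hk⟩ := frp_sh w0 u0
    have h2 : idx (frp w0 u0) ≠ idx w0.1 - 1 := by
      intro e
      rw [hk, idx_sh u0.com] at e
      exact htop u0 hu0 ⟨-k, by rw [← e]; ring⟩
    omega
  have hlt : ∀ u : Vx K N, CmpL u.1 w0.1 → frp w0 u < w0.1 := fun u hu =>
    lt_of_le_of_ne (frp_window hu).2 fun e => by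
      have := (frp_idx w0 u).2
      rw [e] at this; exact lt_irrefl _ this
  have hB : ∀ u : Vx K N, ∃ B : Sb K N, frp w0 u < w0.1 → frp w0 u ≤ B ∧ B < w0.1 ∧
      ∀ l ∈ w0.1, l ∉ B → RL (frp w0 u ⊔ K ∙ l) ⊆ RL (frp w0 u) ∪ RL w0.1 := by
    intro u
    by_cases h : frp w0 u < w0.1
    · obtain ⟨B, hB⟩ := fill_generic w0.com (frp_lat w0 u).1 h
      exact ⟨B, fun _ => hB⟩
    · exact ⟨⊥, fun h' => absurd h' h⟩
  choose B hB using hB
  have hcmp : ∀ x ∈ z.support, ∀ u ∈ x, ∀ r ∈ ρ, CmpL u.1 r.1 := fun x hx u hu r hr =>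
    (hz x hx).1.1.2.1 u (Finset.mem_union_right _ hu) r (Finset.mem_union_left _ hr)
  have hcmp' : ∀ x ∈ z.support, ∀ u ∈ x, ∀ r ∈ x, CmpL u.1 r.1 := fun x hx u hu r hr =>
    (hz x hx).1.1.2.1 u (Finset.mem_union_right _ hu) r (Finset.mem_union_right _ hr)
  have hU : ∀ u ∈ insert u0 (z.support.biUnion id), CmpL u.1 w0.1 := by
    intro u hu
    rcases Finset.mem_insert.1 hu with rfl | hu
    · exact hρ u hu0 w0 hw0
    · obtain ⟨x, hx, hu⟩ := Finset.mem_biUnion.1 hu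
      exact hcmp x hx u hu w0 hw0
  obtain ⟨l, hl, hlB⟩ := fill_avoid (H := w0.1) (insert u0 (z.support.biUnion id)) B
    (fun u hu => (hB u (hlt u (hU u hu))).2.1) (by
      refine lt_of_le_of_lt ((Finset.card_insert_le _ _).trans (Nat.succ_le_succ ?_)) hc
      refine Finset.card_biUnion_le.trans ?_
      rw [mul_comm]
      exact Finset.sum_le_card_nsmul _ _ _ fun x hx => (hz x hx).2.le)
  have adm1 : ∀ x ∈ z.support, ∀ u ∈ x, FAdm ρ w0 (frp w0 u) := by
    intro x hx u hu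
    have hw := frp_window (hcmp x hx u hu w0 hw0)
    refine ⟨hw.1, hw.2, ?_, ?_, fun r hr => (frp_cmp w0 (hcmp x hx u hu r hr)).total⟩
    · rw [frp_RL]; exact Rs_subset_iff.1 (hz x hx).1.1.2.2 u hu
    · rw [frp_cls]; exact Finset.disjoint_right.1 (hz x hx).1.1.1 hu
  have adm2 : ∀ u ∈ insert u0 (z.support.biUnion id), RL u.1 ⊆ Rs ρ →
      frp w0 u0 ≤ frp w0 u → idx (frp w0 u) ≤ idx w0.1 - 2 → FAdm ρ w0 (frp w0 u ⊔ K ∙ l) := by
    intro u hu hR hle hi
    have hw := frp_window (hU u hu)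
    obtain ⟨b1, -, b3⟩ := hB u (hlt u (hU u hu))
    have h2 : frp w0 u ⊔ K ∙ l ≤ w0.1 :=
      sup_le hw.2 ((Submodule.span_singleton_le_iff_mem _ _).2 hl)
    have h3 := idx_span_eq (frp_lat w0 u).1 (x := l) fun h => hlB u hu (b1 h)
    have h4 := idx_le (frp_lat w0 u0).1 (frp_lat w0 u).1 hle
    refine ⟨hw.1.trans le_sup_left, h2, (b3 l hl (hlB u hu)).trans (Set.union_subset ?_ ?_),
      fun hr => ?_, fun r hr => Or.inr ?_⟩
    · rwa [frp_RL]
    · exact fun ab hab => ⟨w0, hw0, hab⟩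
    · have h5 := (frp_idx w0 u).1
      have := frp_eq_of_cls (w0 := w0) (w0.lat.window (hw.1.trans le_sup_left) h2) rfl
        (by omega) (by omega)
      have h6 := hmax _ hr
      rw [← this] at h6
      omega
    · exact ((frp_le w0 (hρ r hr u0 hu0) (hmax r hr)).trans hle).trans le_sup_left
  let bp : Vx K N → Sb K N := fun u =>
    if idx (frp w0 u0) ≤ idx (frp w0 u) then frp w0 u ⊔ K ∙ l else frp w0 u
  have adm3 : ∀ x ∈ z.support, ∀ u ∈ x, FAdm ρ w0 (bp u) := by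
    intro x hx u hu
    by_cases h : idx (frp w0 u0) ≤ idx (frp w0 u)
    · simp only [bp, if_pos h]
      have h1 := (hz x hx).1.2 u hu
      have h2 := (frp_idx w0 u).2
      exact adm2 u (Finset.mem_insert_of_mem (Finset.mem_biUnion.2 ⟨x, hx, hu⟩))
        (Rs_subset_iff.1 (hz x hx).1.1.2.2 u hu) (frp_le w0 (hcmp x hx u hu u0 hu0).symm h)
        (by omega)
    · simp only [bp, if_neg h]; exact adm1 x hx u hu
  have hbp1 : ∀ u, frp w0 u ≤ bp u := fun u => by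
    simp only [bp]; split_ifs
    · exact le_sup_left
    · exact le_rfl
  have hbp2 : ∀ u w : Vx K N, CmpL u.1 w.1 → idx (frp w0 u) ≤ idx (frp w0 w) → bp u ≤ bp w := by
    intro u w h hi
    by_cases h1 : idx (frp w0 u0) ≤ idx (frp w0 u)
    · simp only [bp, if_pos h1, if_pos (h1.trans hi)]
      exact sup_le_sup_right (frp_le w0 h hi) _
    · refine le_trans ?_ (hbp1 w)
      simp only [bp, if_neg h1]
      exact frp_le w0 h hi
  have hbp3 : ∀ u w : Vx K N, CmpL u.1 w.1 → bp u ≤ bp w ∨ bp w ≤ bp u := fun u w h =>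
    (le_total _ _).imp (hbp2 u w h) (hbp2 w u h.symm)
  refine cone_homotopy (LL ρ) i (fun u => idx (frp w0 u)) (fun u => cls (bp u))
    (cls (frp w0 u0 ⊔ K ∙ l)) z (fun x hx => (hz x hx).2) hb
    (fun x hx u hu w hw e => frp_inj w0 (hcmp' x hx u hu w hw) e) (fun x hx u hu => ?_)
    (fun x hx => ?_)
  · refine fill_LL hρ hw0 (fun Y => (∃ w ∈ x, idx (frp w0 w) ≤ idx (frp w0 u) ∧ Y = frp w0 w) ∨
      ∃ w ∈ x, idx (frp w0 u) ≤ idx (frp w0 w) ∧ Y = bp w) ?_ ?_ ?_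
    · rintro Y Y' (⟨w, hw, hi, rfl⟩ | ⟨w, hw, hi, rfl⟩) (⟨w', hw', hi', rfl⟩ | ⟨w', hw', hi', rfl⟩)
      · exact (frp_cmp w0 (hcmp' x hx w hw w' hw')).total
      · exact Or.inl ((frp_le w0 (hcmp' x hx w hw w' hw') (hi.trans hi')).trans (hbp1 _))
      · exact Or.inr ((frp_le w0 (hcmp' x hx w' hw' w hw) (hi'.trans hi)).trans (hbp1 _))
      · exact hbp3 _ _ (hcmp' x hx w hw w' hw')
    · rintro Y (⟨w, hw, -, rfl⟩ | ⟨w, hw, -, rfl⟩)
      · exact adm1 x hx w hw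
      · exact adm3 x hx w hw
    · intro y hy
      rcases Finset.mem_union.1 hy with hy | hy
      · obtain ⟨h1, h2⟩ := Finset.mem_filter.1 hy
        exact ⟨_, Or.inl ⟨y, h1, h2, rfl⟩, (frp_cls w0 y).symm⟩
      · obtain ⟨w, hw, rfl⟩ := Finset.mem_image.1 hy
        obtain ⟨h1, h2⟩ := Finset.mem_filter.1 hw
        exact ⟨_, Or.inr ⟨w, h1, h2, rfl⟩, rfl⟩
  · have hv : ∀ w ∈ x, frp w0 u0 ⊔ K ∙ l ≤ bp w ∨ bp w ≤ frp w0 u0 ⊔ K ∙ l := by
      intro w hw
      by_cases h1 : idx (frp w0 u0) ≤ idx (frp w0 w)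
      · simp only [bp, if_pos h1]
        exact Or.inl (sup_le_sup_right (frp_le w0 (hcmp x hx w hw u0 hu0).symm h1) _)
      · simp only [bp, if_neg h1]
        exact Or.inr ((frp_le w0 (hcmp x hx w hw u0 hu0) (not_le.1 h1).le).trans le_sup_left)
    refine fill_LL hρ hw0 (fun Y => Y = frp w0 u0 ⊔ K ∙ l ∨ ∃ w ∈ x, Y = bp w) ?_ ?_ ?_
    · rintro Y Y' (rfl | ⟨w, hw, rfl⟩) (rfl | ⟨w', hw', rfl⟩)
      · exact Or.inl le_rfl
      · exact hv w' hw'
      · exact (hv w hw).symm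
      · exact hbp3 _ _ (hcmp' x hx w hw w' hw')
    · rintro Y (rfl | ⟨w, hw, rfl⟩)
      · exact adm2 u0 (Finset.mem_insert_self _ _) (fun ab hab => ⟨u0, hu0, hab⟩) le_rfl hlo
      · exact adm3 x hx w hw
    · intro y hy
      rcases Finset.mem_insert.1 hy with rfl | hy
      · exact ⟨_, Or.inl rfl, rfl⟩
      · obtain ⟨w, hw, rfl⟩ := Finset.mem_image.1 hy
        exact ⟨_, Or.inr ⟨w, hw, rfl⟩, rfl⟩

theorem fillL (N m : ℕ) : ∀ Z : ℕ, ∃ Z' P : ℕ, ∀ (K : Type) [Field K] [Finite K],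
    P < Nat.card K → ∀ ρ : Finset (Vx K N), Face ρ → ρ.Nonempty → ρ.card + m = N →
      ∀ i, i < m → Fill (LL ρ) i Z Z' := by
  induction m with
  | zero => exact fun Z => ⟨0, 0, fun _ _ _ _ _ _ _ _ i hi => absurd hi (Nat.not_lt_zero i)⟩
  | succ m ih =>
    intro Z
    obtain ⟨Z1, P1, h1⟩ := ih Z
    set A := N * Z * Z1 with hA
    refine ⟨A + N * (Z + N * A), P1 + N * (Z + N * A) + 1, ?_⟩
    intro K _ _ hP ρ hρ hne hc i hi z hz hb hZ
    have hc1 := hne.card_pos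
    have : NeZero N := ⟨by omega⟩
    obtain ⟨w0, hw0, htop⟩ := fill_top hne (by omega)
    obtain ⟨y1, a1, a2, a3⟩ : ∃ y1 : Ch (Vx K N), InCh (LL ρ) (i + 1) y1 ∧
        y1.support.card ≤ A ∧
        InCh (fun τ => LL ρ τ ∧ ∀ u ∈ τ, ¬ idx (frp w0 u) = idx w0.1 - 1) i (z + bd y1) := by
      rcases i with _ | i
      · refine ⟨0, InCh.zero, by simp, fun σ hσ => ?_⟩
        rw [map_zero, add_zero] at hσ
        refine ⟨⟨(hz σ hσ).1, ?_⟩, (hz σ hσ).2⟩
        rw [Finset.card_eq_zero.1 (hz σ hσ).2]; simp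
      · obtain ⟨y, b1, b2, b3⟩ := remove_col (LL ρ) (LL_down ρ)
          (fun u => idx (frp w0 u) = idx w0.1 - 1)
          (fun σ hσ u hu w hw e e' => frp_inj w0
            (hσ.2.1 u (Finset.mem_union_right _ hu) w (Finset.mem_union_right _ hw))
            (e.trans e'.symm)) i Z Z1 (fun v _ hv => by
              rw [fill_link hv]
              have hv1 : v ∉ ρ := Finset.disjoint_singleton_right.1 hv.1
              refine h1 K (by omega) _ ?_ (Finset.insert_nonempty _ _) ?_ i (by omega)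
              · have := hv.2.1
                rwa [Finset.union_comm, ← Finset.insert_eq] at this
              · rw [Finset.card_insert_of_notMem hv1]; omega) z hz hb hZ
        refine ⟨y, b1, b2.trans ?_, b3⟩
        exact Nat.mul_le_mul_right _ (Nat.mul_le_mul_right _ (by omega))
    have hs : (z + bd y1).support.card ≤ Z + N * A :=
      (card_support_add _ _).trans (add_le_add hZ ((card_support_bd a1).trans
        (Nat.mul_le_mul (by omega) a2)))
    have hs1 : i * (z + bd y1).support.card ≤ N * (Z + N * A) := Nat.mul_le_mul (by omega) hs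
    obtain ⟨y2, c1, c2, c3⟩ := fill_core hρ hw0 htop i (z + bd y1) a3
      (by rw [map_add, hb, bd_bd, add_zero]) (by omega)
    refine ⟨y1 + y2, a1.add c1, ?_, (card_support_add _ _).trans (add_le_add a2
      (c3.trans (Nat.mul_le_mul (by omega) hs)))⟩
    rw [map_add, c2, add_left_comm, ch_add_self, add_zero]

theorem fillL' (N Z : ℕ) : ∃ Z' P : ℕ, ∀ (K : Type) [Field K] [Finite K],
    P < Nat.card K → ∀ ρ : Finset (Vx K N), Face ρ → ρ.Nonempty →
      ∀ i, i + ρ.card < N → Fill (LL ρ) i Z Z' := by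
  choose Z' P h using fun m => fillL N m Z
  refine ⟨(Finset.range N).sup Z', (Finset.range N).sup P, fun K _ _ hP ρ hρ hne i hi => ?_⟩
  have hc1 := hne.card_pos
  have hm : N - ρ.card ∈ Finset.range N := Finset.mem_range.2 (by omega)
  exact (h (N - ρ.card) K (lt_of_le_of_lt (Finset.le_sup (f := P) hm) hP) ρ hρ hne (by omega) i
    (by omega)).mono le_rfl (Finset.le_sup (f := Z') hm)

theorem contrL (N n : ℕ) : ∃ M P : ℕ, ∀ (K : Type) [Field K] [Finite K], P < Nat.card K →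
    ∀ ρ : Finset (Vx K N), Face ρ → ρ.Nonempty → n + ρ.card < N → Contr (LL ρ) n M := by
  induction n with
  | zero =>
    obtain ⟨Z', P, h⟩ := fillL' N 1
    exact ⟨Z', P, fun K _ _ hP ρ hρ hne hn => contr_zero (h K hP ρ hρ hne 0 hn)⟩
  | succ n ih =>
    obtain ⟨M, P, h⟩ := ih
    obtain ⟨Z', P', h'⟩ := fillL' N (1 + (n + 1) * M)
    exact ⟨max M Z', P + P', fun K _ _ hP ρ hρ hne hn => contr_succ (LL_down ρ)
      (h K (by omega) ρ hρ hne (by omega)) (h' K (by omega) ρ hρ hne _ hn)⟩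

end Vale.Agent.P067
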