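import Vale.Agent.P067.CsD

namespace Vale.Agent.P067

open Finset

theorem MixOn.mono {Ω V : Type} [Fintype Ω] {U : Finset Ω} {α β : Ω → V} {l l' : ℝ}
    (h : MixOn U α β l) (hl : l ≤ l') : MixOn U α β l' := by
  intro φ ψ h1 h2 h3 h4
  refine (h φ ψ h1 h2 h3 h4).trans (mul_le_mul_of_nonneg_right hl ?_)
  positivity

theorem MixOn.symm {Ω V : Type} [Fintype Ω] {U : Finset Ω} {α β : Ω → V} {l : ℝ}
    (h : MixOn U α β l) : MixOn U β α l := by
  intro φ ψ h1 h2 h3 h4
  have := h ψ φ h2 h1 h4 h3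
  rw [add_comm] at this
  simpa only [mul_comm (ψ _) (φ _)] using this

theorem mixOn_transfer {Ω V H W : Type} [Fintype Ω] [Fintype H] (U : Finset Ω) (α β : Ω → V)
    (α' β' : H → W) (e : H → Ω) (he : Function.Injective e) (hU : ∀ ω, ω ∈ U ↔ ∃ h, e h = ω)
    (hα : ∀ h h', α' h = α' h' → α (e h) = α (e h'))
    (hβ : ∀ h h', β' h = β' h' → β (e h) = β (e h')) (l : ℝ)
    (h : MixOn Finset.univ α' β' l) : MixOn U α β l := by
  have hs : ∀ f : Ω → ℝ, ∑ x ∈ U, f x = ∑ g : H, f (e g) := by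
    intro f
    have : U = univ.map ⟨e, he⟩ := by ext ω; simp [hU]
    rw [this, sum_map]; rfl
  have hm : ∀ g, e g ∈ U := fun g => (hU _).2 ⟨g, rfl⟩
  intro φ ψ h1 h2 h3 h4
  rw [hs] at h3 h4
  rw [hs, hs, hs]
  exact h (fun g => φ (e g)) (fun g => ψ (e g))
    (fun x _ y _ hxy => h1 _ (hm x) _ (hm y) (hα x y hxy))
    (fun x _ y _ hxy => h2 _ (hm x) _ (hm y) (hβ x y hxy)) h3 h4

section
variable {H W : Type} [Group H] [Fintype H] [MulAction H W]

open Classical in
noncomputable def mgS (H : Type) [Group H] [Fintype H] [MulAction H W] (x : W) : Finset H :=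
  univ.filter fun s => s • x = x

open Classical in
noncomputable def mgM (H : Type) [Group H] [Fintype H] [MulAction H W] (x y : W) : Finset H :=
  univ.filter fun s => s • x = x ∧ s • y = y

theorem mg_mem_S {x : W} {s : H} : s ∈ mgS H x ↔ s • x = x := by simp [mgS]

theorem mg_mem_M {x y : W} {s : H} : s ∈ mgM H x y ↔ s • x = x ∧ s • y = y := by simp [mgM]

theorem mg_S_pos (x : W) : (0 : ℝ) < (mgS H x).card := by
  exact_mod_cast Nonempty.card_pos ⟨1, mg_mem_S.2 (one_smul _ _)⟩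

open Classical in
theorem mg_cnt1 (x : W) (g : H) :
    (univ.filter fun g' : H => g' • x = g • x).card = (mgS H x).card := by
  symm
  refine card_equiv (Equiv.mulLeft g) fun s => ?_
  simp [mg_mem_S, mul_smul]

open Classical in
theorem mg_cnt2 (x y : W) (g : H) :
    (univ.filter fun g' : H => g' • x = g • x ∧ g' • y = g • y).card = (mgM H x y).card := by
  symm
  refine card_equiv (Equiv.mulLeft g) fun s => ?_
  simp [mg_mem_M, mul_smul]

open Classical in
theorem mg_sum1 (x : W) (ψ : H → ℝ) (hψ : ∀ g g' : H, g • x = g' • x → ψ g = ψ g') (g : H) :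
    ∑ g' : H, (if g' • x = g • x then ψ g' else 0) = (mgS H x).card * ψ g := by
  rw [← sum_filter, sum_congr rfl (fun g' hg' => hψ g' g (mem_filter.1 hg').2), sum_const,
    mg_cnt1, nsmul_eq_mul]

open Classical in
theorem mg_cnt3 (x y : W) (g : H) (L : W) :
    ((mgS H x).filter fun a => (g * a) • y = L).card ≤ (mgM H x y).card := by
  rcases ((mgS H x).filter fun a => (g * a) • y = L).eq_empty_or_nonempty with h | ⟨a0, h0⟩
  · rw [h]; simp
  · obtain ⟨h1, h2⟩ := mem_filter.1 h0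
    rw [mg_mem_S] at h1
    refine card_le_card_of_injOn (fun a => a0⁻¹ * a) ?_ ?_
    · intro a ha
      obtain ⟨k1, k2⟩ := mem_filter.1 (mem_coe.1 ha)
      rw [mg_mem_S] at k1
      refine mem_coe.2 (mg_mem_M.2 ⟨?_, ?_⟩)
      · rw [mul_smul, k1, inv_smul_eq_iff, h1]
      · rw [mul_smul, inv_smul_eq_iff]
        have := k2.trans h2.symm
        rw [mul_smul, mul_smul] at this
        exact smul_left_cancel g this
    · intro a _ b _ h
      exact mul_left_cancel h

theorem mg_qm (x y : W) (q : ℕ) (f : Fin q → H) (h1 : ∀ i, f i • x = x)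
    (h2 : Function.Injective fun i => f i • y) : q * (mgM H x y).card ≤ (mgS H x).card := by
  have : q * (mgM H x y).card = ((univ : Finset (Fin q)) ×ˢ mgM H x y).card := by simp
  rw [this]
  refine card_le_card_of_injOn (fun p => f p.1 * p.2) ?_ ?_
  · rintro ⟨i, s⟩ hp
    have := mg_mem_M.1 (mem_product.1 (mem_coe.1 hp)).2
    exact mem_coe.2 (mg_mem_S.2 (by rw [mul_smul, this.1, h1]))
  · rintro ⟨i, s⟩ hp ⟨j, t⟩ hp' h
    have a := mg_mem_M.1 (mem_product.1 (mem_coe.1 hp)).2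
    have b := mg_mem_M.1 (mem_product.1 (mem_coe.1 hp')).2
    have h' : f i * s = f j * t := h
    have : i = j := by
      apply h2
      have := congrArg (· • y) h'
      simpa [mul_smul, a.2, b.2] using this
    subst this
    rw [mul_left_cancel h']

theorem mg_shift (a : H) (f : H → ℝ) : ∑ g : H, f (g * a) = ∑ g : H, f g :=
  Equiv.sum_comp (Equiv.mulRight a) f

theorem mg_M_comm (x y : W) : mgM H x y = mgM H y x := by
  ext s; simp [mg_mem_M, and_comm]

theorem mg_cardH (x : W) :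
    Fintype.card H ≤ (mgS H x).card * (Set.range fun g : H => g • x).ncard := by
  classical
  have e : (Set.range fun g : H => g • x) = ((univ : Finset H).image fun g => g • x : Finset W) := by
    ext w; simp
  rw [e, Set.ncard_coe_finset, ← card_univ]
  refine card_le_mul_card_image _ _ fun w hw => ?_
  obtain ⟨g, -, rfl⟩ := mem_image.1 hw
  convert (mg_cnt1 x g).le

open Classical in
noncomputable def mgC (x y : W) (g g' : H) : ℝ :=
  ∑ a ∈ mgS H x, ∑ a' ∈ mgS H x, if (g * a) • y = (g' * a') • y then 1 else 0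

theorem mgC_symm (x y : W) (g g' : H) : mgC x y g g' = mgC x y g' g := by
  classical
  unfold mgC
  rw [sum_comm]
  exact sum_congr rfl fun a _ => sum_congr rfl fun a' _ => if_congr eq_comm rfl rfl

theorem mgC_le1 (x y : W) (g g' : H) :
    mgC x y g g' ≤ (mgS H x).card * (mgM H x y).card := by
  classical
  unfold mgC
  rw [← nsmul_eq_mul]
  refine sum_le_card_nsmul _ _ _ fun a _ => ?_
  rw [sum_boole]
  have := mg_cnt3 x y g' ((g * a) • y)
  have e : ((mgS H x).filter fun a' => (g * a) • y = (g' * a') • y) =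
      (mgS H x).filter fun a' => (g' * a') • y = (g * a) • y := filter_congr fun _ _ => eq_comm
  rw [e]
  exact_mod_cast this

theorem mgC_le2 (x y : W)
    (h1 : ∀ g1 g2 g3 g4 : H, g1 • x = g3 • x → g2 • x = g4 • x → g1 • y = g2 • y →
      g3 • y = g4 • y → g1 • x ≠ g2 • x → g1 • y = g3 • y) (g g' : H) (hne : g • x ≠ g' • x) :
    mgC x y g g' ≤ (mgM H x y).card ^ 2 := by
  classical
  by_cases hex : ∃ a ∈ mgS H x, ∃ a' ∈ mgS H x, (g * a) • y = (g' * a') • y
  · obtain ⟨a0, ha0, a1, ha1, h0⟩ := hex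
    rw [mg_mem_S] at ha0 ha1
    set L := (g * a0) • y with hL
    have c1 : (∑ a ∈ mgS H x, if (g * a) • y = L then (1 : ℝ) else 0) ≤ (mgM H x y).card := by
      rw [sum_boole]; exact_mod_cast mg_cnt3 x y g L
    have c2 : (∑ a ∈ mgS H x, if (g' * a) • y = L then (1 : ℝ) else 0) ≤ (mgM H x y).card := by
      rw [sum_boole]; exact_mod_cast mg_cnt3 x y g' L
    have n2 : 0 ≤ (∑ a ∈ mgS H x, if (g' * a) • y = L then (1 : ℝ) else 0) :=
      sum_nonneg fun _ _ => by split_ifs <;> norm_num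
    refine le_trans ?_ ((mul_le_mul c1 c2 n2 (Nat.cast_nonneg _)).trans_eq (sq _).symm)
    rw [sum_mul_sum]
    unfold mgC
    refine sum_le_sum fun a ha => sum_le_sum fun a' ha' => ?_
    rw [mg_mem_S] at ha ha'
    by_cases h : (g * a) • y = (g' * a') • y
    · have : (g * a) • y = L :=
        h1 (g * a) (g' * a') (g * a0) (g' * a1) (by rw [mul_smul, mul_smul, ha, ha0])
          (by rw [mul_smul, mul_smul, ha', ha1]) h h0 (by rwa [mul_smul, mul_smul, ha, ha'])
      rw [if_pos h, if_pos this, if_pos (h ▸ this)]; norm_num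
    · rw [if_neg h]; split_ifs <;> norm_num
  · push Not at hex
    unfold mgC
    rw [sum_eq_zero fun a ha => sum_eq_zero fun a' ha' => if_neg (hex a ha a' ha')]
    positivity

theorem mgC_row (x y : W) (g : H) :
    ∑ g' : H, mgC x y g g' = (mgS H x).card ^ 2 * (mgS H y).card := by
  classical
  unfold mgC
  rw [sum_comm]
  have : ∀ a ∈ mgS H x, ∑ g' : H, ∑ a' ∈ mgS H x,
      (if (g * a) • y = (g' * a') • y then (1 : ℝ) else 0) = (mgS H x).card * (mgS H y).card := by
    intro a _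
    rw [sum_comm]
    have : ∀ a' ∈ mgS H x, ∑ g' : H, (if (g * a) • y = (g' * a') • y then (1 : ℝ) else 0)
        = (mgS H y).card := by
      intro a' _
      have := mg_sum1 y (fun _ : H => (1 : ℝ)) (fun _ _ _ => rfl) (g * a)
      rw [mul_one] at this
      rw [← this, ← mg_shift a' (fun g' => if g' • y = (g * a) • y then (1 : ℝ) else 0)]
      exact sum_congr rfl fun g' _ => if_congr eq_comm rfl rfl
    rw [sum_congr rfl this, sum_const, nsmul_eq_mul]
  rw [sum_congr rfl this, sum_const, nsmul_eq_mul]; ring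

open Classical in
theorem mgC_form (x y : W) (φ : H → ℝ) (hφ : ∀ g g' : H, g • x = g' • x → φ g = φ g') :
    ∑ g : H, ∑ g' : H, mgC x y g g' * (φ g * φ g') =
      (mgS H x).card ^ 2 * ∑ g : H, ∑ g' : H, if g' • y = g • y then φ g * φ g' else 0 := by
  set S := ∑ g : H, ∑ g' : H, if g' • y = g • y then φ g * φ g' else 0 with hS
  have k : ∀ a ∈ mgS H x, ∀ a' ∈ mgS H x, ∑ g : H, ∑ g' : H,
      (if (g * a) • y = (g' * a') • y then (1 : ℝ) else 0) * (φ g * φ g') = S := by
    intro a ha a' ha'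
    rw [mg_mem_S] at ha ha'
    rw [hS, ← mg_shift a (fun g => ∑ g' : H, if g' • y = g • y then φ g * φ g' else 0)]
    refine sum_congr rfl fun g _ => ?_
    rw [← mg_shift a' (fun g' => if g' • y = (g * a) • y then φ (g * a) * φ g' else 0)]
    refine sum_congr rfl fun g' _ => ?_
    rw [hφ (g * a) g (by rw [mul_smul, ha]), hφ (g' * a') g' (by rw [mul_smul, ha'])]
    by_cases h : (g * a) • y = (g' * a') • y
    · rw [if_pos h, if_pos h.symm, one_mul]
    · rw [if_neg h, if_neg (Ne.symm h), zero_mul]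
  have : ∑ g : H, ∑ g' : H, mgC x y g g' * (φ g * φ g') = ∑ a ∈ mgS H x, ∑ a' ∈ mgS H x,
      ∑ g : H, ∑ g' : H, (if (g * a) • y = (g' * a') • y then (1 : ℝ) else 0) * (φ g * φ g') := by
    unfold mgC
    simp only [sum_mul]
    calc _ = ∑ g : H, ∑ a ∈ mgS H x, ∑ g' : H, ∑ a' ∈ mgS H x,
          (if (g * a) • y = (g' * a') • y then (1 : ℝ) else 0) * (φ g * φ g') :=
          sum_congr rfl fun g _ => sum_comm
      _ = ∑ a ∈ mgS H x, ∑ g : H, ∑ g' : H, ∑ a' ∈ mgS H x,
          (if (g * a) • y = (g' * a') • y then (1 : ℝ) else 0) * (φ g * φ g') := sum_comm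
      _ = ∑ a ∈ mgS H x, ∑ g : H, ∑ a' ∈ mgS H x, ∑ g' : H,
          (if (g * a) • y = (g' * a') • y then (1 : ℝ) else 0) * (φ g * φ g') :=
          sum_congr rfl fun a _ => sum_congr rfl fun g _ => sum_comm
      _ = _ := sum_congr rfl fun a _ => sum_comm
  rw [this, sum_congr rfl fun a ha => sum_congr rfl (k a ha)]
  simp only [sum_const, nsmul_eq_mul]; ring

theorem mg_kernel {H : Type} [Fintype H] (K : H → H → ℝ) (r : ℝ) (h0 : ∀ g g', 0 ≤ K g g')
    (hs : ∀ g g', K g g' = K g' g) (hr : ∀ g, ∑ g', K g g' = r) (φ : H → ℝ) :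
    -(∑ g, ∑ g', K g g' * (φ g * φ g')) ≤ r * ∑ g, φ g ^ 2 := by
  have a1 : ∑ g, ∑ g', K g g' * φ g ^ 2 = r * ∑ g, φ g ^ 2 := by
    rw [mul_sum]; exact sum_congr rfl fun g _ => by rw [← sum_mul, hr]
  have a2 : ∑ g, ∑ g', K g g' * φ g' ^ 2 = r * ∑ g, φ g ^ 2 := by
    rw [sum_comm, ← a1]
    exact sum_congr rfl fun g _ => sum_congr rfl fun g' _ => by rw [hs]
  have a3 : 0 ≤ ∑ g, ∑ g', (K g g' * φ g ^ 2 + K g g' * φ g' ^ 2
      + 2 * (K g g' * (φ g * φ g'))) :=
    sum_nonneg fun g _ => sum_nonneg fun g' _ => by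
      have := mul_nonneg (h0 g g') (sq_nonneg (φ g + φ g'))
      nlinarith
  simp only [sum_add_distrib, ← mul_sum, a1, a2] at a3
  linarith

end

theorem mg_num {q A B m n P S l : ℝ} (hq1 : 1 ≤ q) (hA0 : 0 < A) (hB0 : 0 < B) (hm0 : 0 ≤ m)
    (hP0 : 0 ≤ P) (qA : q * m ≤ A) (qB : q * m ≤ B) (cH : n ≤ A * (q ^ 2 + q + 1))
    (hlq : 4 ≤ l ^ 2 * q)
    (ker : -(-(A ^ 2 * S) + A * (A * m) * P) ≤ (n * m ^ 2 - A ^ 2 * B + A * (A * m)) * P) :
    S ≤ l ^ 2 * B * P := by
  have hq0 : 0 ≤ q := by linarith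
  have t1 : (q * m) * (q * m) ≤ A * B := mul_le_mul qA qB (by positivity) hA0.le
  have t2 : q * m * A ≤ B * A := mul_le_mul_of_nonneg_right qB hA0.le
  have t3 : n * m ^ 2 ≤ A * (q ^ 2 + q + 1) * m ^ 2 :=
    mul_le_mul_of_nonneg_right cH (sq_nonneg _)
  have t4 : q * m ^ 2 ≤ (q * m) * (q * m) := by
    have : 0 ≤ q * m ^ 2 * (q - 1) := mul_nonneg (by positivity) (by linarith)
    linarith
  have t5 : q * ((q ^ 2 + q + 1) * m ^ 2 - A * B + 2 * (A * m)) ≤ 4 * (A * B) := by
    have : q * ((q * m) * (q * m)) ≤ q * (A * B) := mul_le_mul_of_nonneg_left t1 hq0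
    linarith
  have t6 := mul_le_mul_of_nonneg_left t5 hA0.le
  have t7 := mul_le_mul_of_nonneg_left t3 hq0
  have b1 : q * (n * m ^ 2 - A ^ 2 * B + 2 * A * (A * m)) ≤ 4 * A ^ 2 * B := by linarith
  have u1 : A ^ 2 * S ≤ (n * m ^ 2 - A ^ 2 * B + 2 * A * (A * m)) * P := by linarith
  have u2 := mul_le_mul_of_nonneg_left u1 hq0
  have u3 := mul_le_mul_of_nonneg_right b1 hP0
  have u4 : 4 * (A ^ 2 * B * P) ≤ l ^ 2 * q * (A ^ 2 * B * P) :=
    mul_le_mul_of_nonneg_right hlq (by positivity)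
  have u5 : (q * A ^ 2) * S ≤ (q * A ^ 2) * (l ^ 2 * B * P) := by linarith
  exact le_of_mul_le_mul_left u5 (by positivity)

theorem mg_num2 {l B S P Q X : ℝ} (hl0 : 0 < l) (hB0 : 0 < B) (b2 : S ≤ l ^ 2 * B * P)
    (v3 : 0 ≤ B * S + (l * B) ^ 2 * Q - 2 * (l * B) * (B * X)) : 2 * X ≤ l * (P + Q) := by
  have v4 := mul_le_mul_of_nonneg_left b2 hB0.le
  have v5 : (l * B ^ 2) * (2 * X) ≤ (l * B ^ 2) * (l * (P + Q)) := by linarith
  exact le_of_mul_le_mul_left v5 (by positivity)

/-- complete bipartite case -/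
theorem mix_prod {H W : Type} [Group H] [Fintype H] [MulAction H W] (x y : W)
    (h : ∀ g g' : H, ∃ g'' : H, g'' • x = g • x ∧ g'' • y = g' • y) :
    MixOn Finset.univ (fun g : H => g • x) (fun g : H => g • y) 0 := by
  classical
  intro φ ψ h1 h2 h3 _
  have hφ : ∀ g g' : H, g • x = g' • x → φ g = φ g' :=
    fun g g' => h1 g (mem_univ _) g' (mem_univ _)
  have hψ : ∀ g g' : H, g • y = g' • y → ψ g = ψ g' :=
    fun g g' => h2 g (mem_univ _) g' (mem_univ _)
  have e1 : ∑ k : H, ∑ g : H, ∑ g' : H,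
      (if g • x = k • x then φ g else 0) * (if g' • y = k • y then ψ g' else 0) =
      (mgS H x).card * (mgS H y).card * ∑ k, φ k * ψ k := by
    rw [mul_sum]
    refine sum_congr rfl fun k _ => ?_
    rw [← sum_mul_sum, mg_sum1 x φ hφ, mg_sum1 y ψ hψ]; ring
  have e2 : ∑ k : H, ∑ g : H, ∑ g' : H,
      (if g • x = k • x then φ g else 0) * (if g' • y = k • y then ψ g' else 0) = 0 := by
    have : ∀ g g' : H, ∑ k : H,
        (if g • x = k • x then φ g else 0) * (if g' • y = k • y then ψ g' else 0) =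
        φ g * ((mgM H x y).card * ψ g') := by
      intro g g'
      obtain ⟨k0, a, b⟩ := h g g'
      have : ∀ k : H, (if g • x = k • x then φ g else 0) * (if g' • y = k • y then ψ g' else 0)
          = if k • x = k0 • x ∧ k • y = k0 • y then φ g * ψ g' else 0 := by
        intro k
        rw [a, b]
        by_cases c1 : g • x = k • x <;> by_cases c2 : g' • y = k • y <;>
          simp [c1, c2, eq_comm]
      rw [sum_congr rfl fun k _ => this k, ← sum_filter, sum_const, nsmul_eq_mul]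
      have := mg_cnt2 x y k0
      rw [show (univ.filter fun k : H => k • x = k0 • x ∧ k • y = k0 • y).card
        = (mgM H x y).card by convert this]
      ring
    rw [sum_comm]
    rw [sum_congr rfl fun g _ => sum_comm]
    simp only [this, ← mul_sum, ← sum_mul, h3, zero_mul]
  have hp := mul_pos (mg_S_pos (H := H) x) (mg_S_pos (H := H) y)
  have : ∑ k, φ k * ψ k = 0 := (mul_eq_zero.1 (e1.symm.trans e2)).resolve_left hp.ne'
  rw [this]; simp

/-- almost a projective plane of order `q` -/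
theorem mix_plane {H W : Type} [Group H] [Fintype H] [MulAction H W] (x y : W) (q : ℕ)
    (hq : 0 < q)
    (hA : ∃ f : Fin q → H, (∀ i, f i • x = x) ∧ Function.Injective fun i => f i • y)
    (hB : ∃ f : Fin q → H, (∀ i, f i • y = y) ∧ Function.Injective fun i => f i • x)
    (hP : (Set.range fun g : H => g • x).ncard ≤ q ^ 2 + q + 1)
    (h1 : ∀ g1 g2 g3 g4 : H, g1 • x = g3 • x → g2 • x = g4 • x → g1 • y = g2 • y →
      g3 • y = g4 • y → g1 • x ≠ g2 • x → g1 • y = g3 • y)
    (l : ℝ) (hl : 0 ≤ l) (hlq : 4 ≤ l ^ 2 * q) :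
    MixOn Finset.univ (fun g : H => g • x) (fun g : H => g • y) l := by
  classical
  intro φ ψ k1 k2 k3 _
  have hφ : ∀ g g' : H, g • x = g' • x → φ g = φ g' :=
    fun g g' => k1 g (mem_univ _) g' (mem_univ _)
  have hψ : ∀ g g' : H, g • y = g' • y → ψ g = ψ g' :=
    fun g g' => k2 g (mem_univ _) g' (mem_univ _)
  obtain ⟨f, f1, f2⟩ := hA
  obtain ⟨f', f1', f2'⟩ := hB
  have qA : (q : ℝ) * (mgM H x y).card ≤ (mgS H x).card := by exact_mod_cast mg_qm x y q f f1 f2
  have qB : (q : ℝ) * (mgM H x y).card ≤ (mgS H y).card := by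
    rw [mg_M_comm]; exact_mod_cast mg_qm y x q f' f1' f2'
  have cH : (Fintype.card H : ℝ) ≤ (mgS H x).card * (q ^ 2 + q + 1) := by
    exact_mod_cast (mg_cardH (H := H) x).trans (Nat.mul_le_mul_left _ hP)
  have hA0 := mg_S_pos (H := H) x
  have hB0 := mg_S_pos (H := H) y
  have hm0 : (0 : ℝ) ≤ (mgM H x y).card := Nat.cast_nonneg _
  have hq1 : (1 : ℝ) ≤ q := by exact_mod_cast hq
  have form := mgC_form x y φ hφ
  have le1 := mgC_le1 (H := H) x y
  have le2 := mgC_le2 x y h1
  have row := mgC_row (H := H) x y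
  set A : ℝ := ((mgS H x).card : ℝ) with hAd
  set B : ℝ := ((mgS H y).card : ℝ) with hBd
  set m : ℝ := ((mgM H x y).card : ℝ) with hmd
  set n : ℝ := (Fintype.card H : ℝ) with hn
  set P : ℝ := ∑ g, φ g ^ 2 with hPd
  have hP0 : 0 ≤ P := by positivity
  let T : H → ℝ := fun g => ∑ g' : H, if g' • y = g • y then φ g' else 0
  have hT : ∀ g g' : H, g • y = g' • y → T g = T g' := fun g g' h => by simp only [T, h]
  have hTs : ∀ χ : H → ℝ, (∀ g g' : H, g • y = g' • y → χ g = χ g') →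
      ∑ g, T g * χ g = B * ∑ g, φ g * χ g := by
    intro χ hχ
    simp only [T, sum_mul]
    rw [sum_comm, mul_sum]
    refine sum_congr rfl fun g _ => ?_
    have := mg_sum1 y χ hχ g
    rw [mul_left_comm, ← this, mul_sum]
    refine sum_congr rfl fun g' _ => ?_
    by_cases h : g • y = g' • y
    · rw [if_pos h, if_pos h.symm]
    · rw [if_neg h, if_neg (Ne.symm h), zero_mul, mul_zero]
  set S : ℝ := ∑ g, φ g * T g with hS
  have eS : (∑ g : H, ∑ g' : H, if g' • y = g • y then φ g * φ g' else 0) = S := by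
    refine sum_congr rfl fun g _ => ?_
    simp only [T, mul_sum, mul_ite, mul_zero]
  rw [eS] at form
  have ker := mg_kernel
    (fun g g' : H => m ^ 2 - mgC x y g g' + if g' • x = g • x then A * m else 0)
    (n * m ^ 2 - A ^ 2 * B + A * (A * m))
    (fun g g' => by
      by_cases h : g' • x = g • x
      · rw [if_pos h]; have := le1 g g'; nlinarith [sq_nonneg m]
      · rw [if_neg h]; have := le2 g g' (Ne.symm h); linarith)
    (fun g g' => by rw [mgC_symm x y g g']; simp only [eq_comm])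
    (fun g => by
      rw [sum_add_distrib, sum_sub_distrib, row g, sum_const, card_univ, nsmul_eq_mul,
        mg_sum1 x (fun _ : H => A * m) (fun _ _ _ => rfl) g]) φ
  have ex : ∑ g : H, ∑ g' : H, (m ^ 2 - mgC x y g g' + if g' • x = g • x then A * m else 0)
      * (φ g * φ g') = - (A ^ 2 * S) + A * (A * m) * P := by
    simp only [add_mul, sub_mul, sum_add_distrib, sum_sub_distrib, form]
    have z : ∑ g : H, ∑ g' : H, m ^ 2 * (φ g * φ g') = 0 := by
      simp only [← mul_sum, k3, mul_zero, sum_const_zero]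
    have w : ∑ g : H, ∑ g' : H, (if g' • x = g • x then A * m else 0) * (φ g * φ g')
        = A * (A * m) * P := by
      rw [hPd, mul_sum]
      refine sum_congr rfl fun g _ => ?_
      have := mg_sum1 x φ hφ g
      calc _ = A * m * φ g * ∑ g' : H, (if g' • x = g • x then φ g' else 0) := by
            rw [mul_sum]
            exact sum_congr rfl fun g' _ => by split_ifs <;> ring
        _ = _ := by rw [this]; ring
    rw [z, w]; ring
  rw [ex] at ker
  have b2 : S ≤ l ^ 2 * B * P := mg_num hq1 hA0 hB0 hm0 hP0 qA qB cH hlq ker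
  have hl0 : 0 < l := by
    rcases hl.eq_or_lt with h | h
    · rw [← h] at hlq; norm_num at hlq
    · exact h
  have v1 := hTs T hT
  have v2 := hTs ψ hψ
  have v3 : 0 ≤ ∑ g, (T g * T g + (l * B) ^ 2 * ψ g ^ 2 - 2 * (l * B) * (T g * ψ g)) :=
    sum_nonneg fun g _ => by nlinarith [sq_nonneg (T g - l * B * ψ g)]
  simp only [sum_add_distrib, sum_sub_distrib, ← mul_sum, v1, v2] at v3
  exact mg_num2 hl0 hB0 b2 v3

end Vale.Agent.P067
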