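import Vale.Agent.P067.CsD

namespace Vale.Agent.P067

open Finset

section
variable {Ω V : Type}

theorem trk_mono {U : Finset Ω} {α β : Ω → V} {s t : ℝ} (h : MixOn U α β s) (hst : s ≤ t) :
    MixOn U α β t := by
  intro φ ψ h1 h2 h3 h4
  refine (h φ ψ h1 h2 h3 h4).trans (mul_le_mul_of_nonneg_right hst ?_)
  positivity

open Classical in
noncomputable def trkFib (U : Finset Ω) (γ : Ω → V) (ω : Ω) : Finset Ω :=
  U.filter fun x => γ x = γ ω

theorem trk_mem_fib {U : Finset Ω} {γ : Ω → V} {ω x : Ω} :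
    x ∈ trkFib U γ ω ↔ x ∈ U ∧ γ x = γ ω := by
  simp [trkFib]

theorem trk_fib_eq {U : Finset Ω} {γ : Ω → V} {ω x : Ω} (h : γ x = γ ω) :
    trkFib U γ x = trkFib U γ ω := by
  ext y; simp [trk_mem_fib, h]

theorem trk_sum_le (U : Finset Ω) (γ : Ω → V) (f g : Ω → ℝ)
    (h : ∀ ω ∈ U, ∑ x ∈ trkFib U γ ω, f x ≤ ∑ x ∈ trkFib U γ ω, g x) :
    ∑ x ∈ U, f x ≤ ∑ x ∈ U, g x := by
  classical
  rw [← Finset.sum_fiberwise_of_maps_to (s := U) (t := U.image γ) (g := γ)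
      (fun x hx => mem_image_of_mem γ hx) f,
    ← Finset.sum_fiberwise_of_maps_to (s := U) (t := U.image γ) (g := γ)
      (fun x hx => mem_image_of_mem γ hx) g]
  refine sum_le_sum fun v hv => ?_
  obtain ⟨ω, hω, rfl⟩ := mem_image.1 hv
  have e : U.filter (fun x => γ x = γ ω) = trkFib U γ ω := by
    ext y; simp [trk_mem_fib]
  rw [e]; exact h ω hω

noncomputable def trkE (U : Finset Ω) (γ : Ω → V) (φ : Ω → ℝ) (ω : Ω) : ℝ :=
  (∑ x ∈ trkFib U γ ω, φ x) / (trkFib U γ ω).card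

theorem trkE_inv {U : Finset Ω} {γ : Ω → V} (φ : Ω → ℝ) {x y : Ω} (h : γ x = γ y) :
    trkE U γ φ x = trkE U γ φ y := by
  simp only [trkE, trk_fib_eq h]

theorem trk_fib_zero {U : Finset Ω} {γ : Ω → V} (φ : Ω → ℝ) {ω : Ω} (hω : ω ∈ U) :
    ∑ x ∈ trkFib U γ ω, (φ x - trkE U γ φ x) = 0 := by
  have hc : ((trkFib U γ ω).card : ℝ) ≠ 0 := by
    have : (trkFib U γ ω).Nonempty := ⟨ω, trk_mem_fib.2 ⟨hω, rfl⟩⟩
    exact_mod_cast this.card_pos.ne'
  rw [sum_sub_distrib, sum_congr rfl (fun x hx => trkE_inv φ (trk_mem_fib.1 hx).2), sum_const,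
    nsmul_eq_mul, trkE]
  field_simp
  ring

theorem trk_orth (U : Finset Ω) (γ : Ω → V) (φ h : Ω → ℝ)
    (hh : ∀ x y, γ x = γ y → h x = h y) :
    ∑ x ∈ U, (φ x - trkE U γ φ x) * h x = 0 := by
  have key : ∀ ω ∈ U, ∑ x ∈ trkFib U γ ω, (φ x - trkE U γ φ x) * h x
      = ∑ x ∈ trkFib U γ ω, (0 : ℝ) := by
    intro ω hω
    rw [sum_congr rfl (fun x hx => by rw [hh x ω (trk_mem_fib.1 hx).2]), ← sum_mul,
      trk_fib_zero φ hω]
    simp
  apply le_antisymm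
  · simpa using trk_sum_le U γ _ (fun _ => (0 : ℝ)) (fun ω hω => (key ω hω).le)
  · simpa using trk_sum_le U γ (fun _ => (0 : ℝ)) _ (fun ω hω => (key ω hω).ge)

theorem trk_E_sq {U : Finset Ω} {α γ : Ω → V} {θ : ℝ} (hθ : 0 < θ) (hm : MixOn U α γ θ)
    (φ : Ω → ℝ) (h1 : ∀ x ∈ U, ∀ y ∈ U, α x = α y → φ x = φ y) (h2 : ∑ x ∈ U, φ x = 0) :
    ∑ x ∈ U, trkE U γ φ x ^ 2 ≤ θ ^ 2 * ∑ x ∈ U, φ x ^ 2 := by
  have o1 := trk_orth U γ φ (fun _ => 1) (fun _ _ _ => rfl)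
  have o2 := trk_orth U γ φ (trkE U γ φ) (fun _ _ h => trkE_inv φ h)
  have m0 : ∑ x ∈ U, trkE U γ φ x = 0 := by
    simp only [mul_one, sum_sub_distrib] at o1; linarith
  have e2 : ∑ x ∈ U, φ x * trkE U γ φ x = ∑ x ∈ U, trkE U γ φ x ^ 2 := by
    simp only [sub_mul, sum_sub_distrib] at o2
    simp only [sq]; linarith
  have := hm (fun x => θ * φ x) (trkE U γ φ) (fun x hx y hy h => by rw [h1 x hx y hy h])
    (fun x _ y _ h => trkE_inv φ h) (by rw [← mul_sum, h2, mul_zero]) m0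
  simp only [mul_assoc, mul_pow, ← mul_sum, e2] at this
  have h3 : θ * (∑ x ∈ U, trkE U γ φ x ^ 2) ≤ θ * (θ ^ 2 * ∑ x ∈ U, φ x ^ 2) := by nlinarith
  exact le_of_mul_le_mul_left h3 hθ

theorem trk_pyth (U : Finset Ω) (γ : Ω → V) (φ ψ : Ω → ℝ) :
    ∑ x ∈ U, φ x * ψ x = ∑ x ∈ U, (φ x - trkE U γ φ x) * (ψ x - trkE U γ ψ x)
      + ∑ x ∈ U, trkE U γ φ x * trkE U γ ψ x := by
  have o1 := trk_orth U γ φ (trkE U γ ψ) (fun _ _ h => trkE_inv ψ h)
  have o2 := trk_orth U γ ψ (trkE U γ φ) (fun _ _ h => trkE_inv φ h)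
  have : ∑ x ∈ U, φ x * ψ x = ∑ x ∈ U, ((φ x - trkE U γ φ x) * (ψ x - trkE U γ ψ x)
      + trkE U γ φ x * trkE U γ ψ x + (φ x - trkE U γ φ x) * trkE U γ ψ x
      + (ψ x - trkE U γ ψ x) * trkE U γ φ x) := sum_congr rfl fun x _ => by ring
  rw [this]; simp only [sum_add_distrib, o1, o2, add_zero]

theorem trk_link {U : Finset Ω} {α β γ : Ω → V} {l : ℝ}
    (hlink : ∀ ω ∈ U, MixOn (trkFib U γ ω) α β l) (φ ψ : Ω → ℝ)
    (h1 : ∀ x ∈ U, ∀ y ∈ U, α x = α y → φ x = φ y)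
    (h2 : ∀ x ∈ U, ∀ y ∈ U, β x = β y → ψ x = ψ y) :
    2 * ∑ x ∈ U, (φ x - trkE U γ φ x) * (ψ x - trkE U γ ψ x) ≤
      l * (∑ x ∈ U, (φ x - trkE U γ φ x) ^ 2 + ∑ x ∈ U, (ψ x - trkE U γ ψ x) ^ 2) := by
  rw [mul_sum, ← sum_add_distrib, mul_sum]
  refine trk_sum_le U γ _ _ fun ω hω => ?_
  rw [← mul_sum, ← mul_sum, sum_add_distrib]
  refine hlink ω hω _ _ ?_ ?_ (trk_fib_zero φ hω) (trk_fib_zero ψ hω)
  · intro x hx y hy h
    obtain ⟨hx1, hx2⟩ := trk_mem_fib.1 hx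
    obtain ⟨hy1, hy2⟩ := trk_mem_fib.1 hy
    rw [h1 x hx1 y hy1 h, trkE_inv φ (hx2.trans hy2.symm)]
  · intro x hx y hy h
    obtain ⟨hx1, hx2⟩ := trk_mem_fib.1 hx
    obtain ⟨hy1, hy2⟩ := trk_mem_fib.1 hy
    rw [h2 x hx1 y hy1 h, trkE_inv ψ (hx2.trans hy2.symm)]

theorem trk_step {U : Finset Ω} {α β γ : Ω → V} {l θ : ℝ} (hl : l ≤ 1) (hθ : 0 < θ)
    (hlink : ∀ ω ∈ U, MixOn (trkFib U γ ω) α β l) (ha : MixOn U α γ θ) (hb : MixOn U β γ θ) :
    MixOn U α β (l + (1 - l) * θ ^ 2) := by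
  intro φ ψ h1 h2 h3 h4
  have e1 := trk_pyth U γ φ ψ
  have e2 := trk_pyth U γ φ φ
  have e3 := trk_pyth U γ ψ ψ
  have k := trk_link hlink φ ψ h1 h2
  have a1 := trk_E_sq hθ ha φ h1 h3
  have a2 := trk_E_sq hθ hb ψ h2 h4
  have am : 2 * ∑ x ∈ U, trkE U γ φ x * trkE U γ ψ x ≤
      ∑ x ∈ U, trkE U γ φ x ^ 2 + ∑ x ∈ U, trkE U γ ψ x ^ 2 := by
    rw [mul_sum, ← sum_add_distrib]
    exact sum_le_sum fun x _ => by nlinarith [sq_nonneg (trkE U γ φ x - trkE U γ ψ x)]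
  simp only [← sq] at e2 e3
  have hl' : 0 ≤ 1 - l := by linarith
  have b1 := mul_le_mul_of_nonneg_left a1 hl'
  have b2 := mul_le_mul_of_nonneg_left a2 hl'
  rw [e1]
  have f2 : ∑ x ∈ U, (φ x - trkE U γ φ x) ^ 2 = ∑ x ∈ U, φ x ^ 2 - ∑ x ∈ U, trkE U γ φ x ^ 2 := by
    linarith
  have f3 : ∑ x ∈ U, (ψ x - trkE U γ ψ x) ^ 2 = ∑ x ∈ U, ψ x ^ 2 - ∑ x ∈ U, trkE U γ ψ x ^ 2 := by
    linarith
  rw [f2, f3] at k
  nlinarith

theorem trk_const {U : Finset Ω} {α β γ : Ω → V} {l : ℝ} (hl : l < 1)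
    (hlink : ∀ ω ∈ U, MixOn (trkFib U γ ω) α β l) (g : Ω → ℝ)
    (h1 : ∀ x ∈ U, ∀ y ∈ U, α x = α y → g x = g y)
    (h2 : ∀ x ∈ U, ∀ y ∈ U, β x = β y → g x = g y) :
    ∀ x ∈ U, ∀ y ∈ U, γ x = γ y → g x = g y := by
  have k := trk_link hlink g g h1 h2
  simp only [← sq] at k
  have hn : 0 ≤ ∑ x ∈ U, (g x - trkE U γ g x) ^ 2 := by positivity
  have hz : ∑ x ∈ U, (g x - trkE U γ g x) ^ 2 = 0 := by nlinarith
  rw [sum_eq_zero_iff_of_nonneg (fun x _ => sq_nonneg _)] at hz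
  intro x hx y hy h
  have a := pow_eq_zero_iff (two_ne_zero) |>.1 (hz x hx)
  have b := pow_eq_zero_iff (two_ne_zero) |>.1 (hz y hy)
  have := trkE_inv (U := U) g h
  linarith

theorem trk_gap [Fintype Ω] (U : Finset Ω) (α β : Ω → V)
    (hinj : ∀ g : Ω → ℝ, (∀ x ∈ U, ∀ y ∈ U, α x = α y → g x = g y) →
      (∀ x ∈ U, ∀ y ∈ U, β x = β y → g x = g y) → ∑ x ∈ U, g x = 0 → ∀ x ∈ U, g x = 0) :
    ∃ θ < 1, MixOn U α β θ := by
  classical
  let S : Submodule ℝ ((Ω → ℝ) × (Ω → ℝ)) :=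
    { carrier := {p | (∀ x ∈ U, ∀ y ∈ U, α x = α y → p.1 x = p.1 y) ∧
        (∀ x ∈ U, ∀ y ∈ U, β x = β y → p.2 x = p.2 y) ∧ ∑ x ∈ U, p.1 x = 0 ∧
        (∀ x, x ∉ U → p.1 x = 0) ∧ (∀ x, x ∉ U → p.2 x = 0)}
      add_mem' := by
        rintro p q ⟨a1, a2, a3, a4, a5⟩ ⟨b1, b2, b3, b4, b5⟩
        refine ⟨fun x hx y hy h => ?_, fun x hx y hy h => ?_, ?_, fun x hx => ?_, fun x hx => ?_⟩
        · simp [a1 x hx y hy h, b1 x hx y hy h]
        · simp [a2 x hx y hy h, b2 x hx y hy h]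
        · simp [sum_add_distrib, a3, b3]
        · simp [a4 x hx, b4 x hx]
        · simp [a5 x hx, b5 x hx]
      zero_mem' := by simp
      smul_mem' := by
        rintro c p ⟨a1, a2, a3, a4, a5⟩
        refine ⟨fun x hx y hy h => ?_, fun x hx y hy h => ?_, ?_, fun x hx => ?_, fun x hx => ?_⟩
        · simp [a1 x hx y hy h]
        · simp [a2 x hx y hy h]
        · simp [← mul_sum, a3]
        · simp [a4 x hx]
        · simp [a5 x hx] }
  let L : S →ₗ[ℝ] (Ω → ℝ) :=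
    (LinearMap.fst ℝ (Ω → ℝ) (Ω → ℝ) - LinearMap.snd ℝ (Ω → ℝ) (Ω → ℝ)).comp S.subtype
  have hL : LinearMap.ker L = ⊥ := by
    rw [LinearMap.ker_eq_bot']
    rintro ⟨⟨φ, ψ⟩, a1, a2, a3, a4, a5⟩ h
    have e : φ = ψ := sub_eq_zero.1 h
    subst e
    have z : φ = 0 := by
      funext x
      by_cases hx : x ∈ U
      · exact hinj φ a1 a2 a3 x hx
      · exact a4 x hx
    subst z; rfl
  obtain ⟨K, hK, hA⟩ := LinearMap.exists_antilipschitzWith L hL
  have hK' : (0 : ℝ) < K := hK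
  set C : ℝ := 2 * (U.card + 1) * K ^ 2 with hC
  have hCpos : 0 < C := by positivity
  refine ⟨1 - 1 / C, by have : 0 < 1 / C := by positivity
                        linarith, ?_⟩
  intro φ ψ h1 h2 h3 h4
  let φ' : Ω → ℝ := fun x => if x ∈ U then φ x else 0
  let ψ' : Ω → ℝ := fun x => if x ∈ U then ψ x else 0
  have hmem : (φ', ψ') ∈ S := by
    refine ⟨fun x hx y hy h => ?_, fun x hx y hy h => ?_, ?_, fun x hx => ?_, fun x hx => ?_⟩
    · simp [φ', hx, hy, h1 x hx y hy h]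
    · simp [ψ', hx, hy, h2 x hx y hy h]
    · rw [← h3]; exact sum_congr rfl fun x hx => by simp [φ', hx]
    · simp [φ', hx]
    · simp [ψ', hx]
  have hb := hA.le_mul_norm (map_zero L) ⟨(φ', ψ'), hmem⟩
  set D : ℝ := ∑ x ∈ U, (φ x - ψ x) ^ 2 with hD
  have hD0 : 0 ≤ D := by positivity
  have hLn : ‖L ⟨(φ', ψ'), hmem⟩‖ ≤ Real.sqrt D := by
    rw [pi_norm_le_iff_of_nonneg (Real.sqrt_nonneg _)]
    intro x
    have : L ⟨(φ', ψ'), hmem⟩ x = φ' x - ψ' x := rfl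
    rw [this, Real.norm_eq_abs]
    by_cases hx : x ∈ U
    · simp only [φ', ψ', hx, if_true]
      exact Real.abs_le_sqrt (single_le_sum (f := fun x => (φ x - ψ x) ^ 2)
        (fun _ _ => sq_nonneg _) hx)
    · simp [φ', ψ', hx]
  have hn : ‖(φ', ψ')‖ ≤ K * Real.sqrt D :=
    hb.trans (mul_le_mul_of_nonneg_left hLn hK'.le)
  have hsq : (K * Real.sqrt D) ^ 2 = K ^ 2 * D := by rw [mul_pow, Real.sq_sqrt hD0]
  have p1 : ∀ x ∈ U, φ x ^ 2 ≤ K ^ 2 * D := by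
    intro x hx
    have : ‖φ' x‖ ≤ K * Real.sqrt D :=
      ((norm_le_pi_norm φ' x).trans (norm_fst_le (φ', ψ'))).trans hn
    simp only [φ', hx, if_true, Real.norm_eq_abs] at this
    rw [← hsq, ← sq_abs]
    exact pow_le_pow_left₀ (abs_nonneg _) this 2
  have p2 : ∀ x ∈ U, ψ x ^ 2 ≤ K ^ 2 * D := by
    intro x hx
    have : ‖ψ' x‖ ≤ K * Real.sqrt D :=
      ((norm_le_pi_norm ψ' x).trans (norm_snd_le (φ', ψ'))).trans hn
    simp only [ψ', hx, if_true, Real.norm_eq_abs] at this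
    rw [← hsq, ← sq_abs]
    exact pow_le_pow_left₀ (abs_nonneg _) this 2
  have s1 := sum_le_card_nsmul U _ _ p1
  have s2 := sum_le_card_nsmul U _ _ p2
  rw [nsmul_eq_mul] at s1 s2
  have eD : D = ∑ x ∈ U, φ x ^ 2 + ∑ x ∈ U, ψ x ^ 2 - 2 * ∑ x ∈ U, φ x * ψ x := by
    rw [hD, mul_sum, ← sum_add_distrib, ← sum_sub_distrib]
    exact sum_congr rfl fun x _ => by ring
  have t : ∑ x ∈ U, φ x ^ 2 + ∑ x ∈ U, ψ x ^ 2 ≤ C * D := by
    have : 0 ≤ (K : ℝ) ^ 2 * D := by positivity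
    rw [hC]; nlinarith
  have t2 : 1 / C * (∑ x ∈ U, φ x ^ 2 + ∑ x ∈ U, ψ x ^ 2) ≤ D := by
    rw [one_div, inv_mul_le_iff₀ hCpos]; exact t
  nlinarith

end

variable {Ω V : Type} [Fintype Ω] {N : ℕ}

theorem trk_loc_insert (π : Ω → Fin N → V) (R : Finset (Fin N)) (ω0 ω : Ω) (c : Fin N)
    (hω : ω ∈ loc π R ω0) :
    loc π (insert c R) ω = trkFib (loc π R ω0) (fun x => π x c) ω := by
  ext x
  rw [mem_loc] at hω
  simp only [trk_mem_fib, mem_loc, rel, mem_insert, forall_eq_or_imp]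
  constructor
  · rintro ⟨a, b⟩; exact ⟨fun d hd => (b d hd).trans (hω d hd), a⟩
  · rintro ⟨a, b⟩; exact ⟨b, fun d hd => (a d hd).trans (hω d hd).symm⟩

theorem trk_level (π : Ω → Fin N → V) (R : Finset (Fin N)) (ω0 : Ω) {l : ℝ} (hl0 : 0 < l)
    (hl : l < 1) (hR : R.card + 3 ≤ N) (hconn : Conn π R ω0)
    (hlink : ∀ c, c ∉ R → ∀ ω a b, a ≠ b → a ∉ insert c R → b ∉ insert c R →
      Mix π l (insert c R) ω a b) :
    ∀ a b, a ≠ b → a ∉ R → b ∉ R → Mix π (l / (1 - l)) R ω0 a b := by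
  classical
  have hlk : ∀ a b c, a ≠ b → a ∉ R → b ∉ R → c ∉ R → c ≠ a → c ≠ b → ∀ ω ∈ loc π R ω0,
      MixOn (trkFib (loc π R ω0) (fun x => π x c) ω) (fun x => π x a) (fun x => π x b) l := by
    intro a b c hab ha hb hc hca hcb ω hω
    rw [← trk_loc_insert π R ω0 ω c hω]
    exact hlink c hc ω a b hab (by simp [ha, hca.symm]) (by simp [hb, hcb.symm])
  let valid : ℝ → Prop := fun θ => ∀ a b, a ≠ b → a ∉ R → b ∉ R → Mix π θ R ω0 a b
  have h1 : ∀ θ, 0 < θ → valid θ → valid (l + (1 - l) * θ ^ 2) := by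
    intro θ hθ hv a b hab ha hb
    have : ∃ c, c ∉ insert a (insert b R) := by
      by_contra hcon
      push Not at hcon
      have e : insert a (insert b R) = univ := eq_univ_of_forall hcon
      have c1 := card_insert_le a (insert b R)
      have c2 := card_insert_le b R
      rw [e, card_univ, Fintype.card_fin] at c1
      omega
    obtain ⟨c, hc⟩ := this
    simp only [mem_insert, not_or] at hc
    obtain ⟨hca, hcb, hc⟩ := hc
    exact trk_step hl.le hθ (hlk a b c hab ha hb hc hca hcb) (hv a c (Ne.symm hca) ha hc)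
      (hv b c (Ne.symm hcb) hb hc)
  have h2 : ∃ θ < 1, valid θ := by
    have : ∀ p : Fin N × Fin N, ∃ θ < (1 : ℝ), p.1 ≠ p.2 → p.1 ∉ R → p.2 ∉ R →
        Mix π θ R ω0 p.1 p.2 := by
      rintro ⟨a, b⟩
      by_cases h : a ≠ b ∧ a ∉ R ∧ b ∉ R
      · obtain ⟨hab, ha, hb⟩ := h
        obtain ⟨θ, h1, h2⟩ := trk_gap (loc π R ω0) (fun x => π x a) (fun x => π x b) (by
          intro g g1 g2 g3
          have hall : ∀ c, c ∉ R → ∀ x ∈ loc π R ω0, ∀ y ∈ loc π R ω0, π x c = π y c →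
              g x = g y := by
            intro c hc
            by_cases hca : c = a
            · subst hca; exact g1
            by_cases hcb : c = b
            · subst hcb; exact g2
            exact trk_const hl (hlk a b c hab ha hb hc hca hcb) g g1 g2
          have hcst := hconn (fun x => g x = g ω0)
            (fun c hc x hx y hy h hP => (hall c hc x hx y hy h).symm.trans hP) rfl
          have h0 : ω0 ∈ loc π R ω0 := mem_loc.2 fun _ _ => rfl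
          rw [sum_congr rfl hcst, sum_const, nsmul_eq_mul] at g3
          have hc : ((loc π R ω0).card : ℝ) ≠ 0 := by
            exact_mod_cast (Nonempty.card_pos ⟨ω0, h0⟩).ne'
          have hz : g ω0 = 0 := (mul_eq_zero.1 g3).resolve_left hc
          intro x hx; rw [hcst x hx, hz])
        exact ⟨θ, h1, fun _ _ _ => h2⟩
      · exact ⟨0, one_pos, fun h1 h2 h3 => absurd ⟨h1, h2, h3⟩ h⟩
    choose f hf1 hf2 using this
    have : Nonempty (Fin N) := ⟨⟨0, by omega⟩⟩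
    obtain ⟨p, hp⟩ := Finite.exists_max f
    exact ⟨f p, hf1 p, fun a b hab ha hb => trk_mono (hf2 (a, b) hab ha hb) (hp (a, b))⟩
  obtain ⟨θ0, hθ0, hv0⟩ := h2
  let A : Set ℝ := {θ | 0 ≤ θ ∧ valid θ}
  have hmax : max θ0 0 ∈ A := ⟨le_max_right _ _,
    fun a b hab ha hb => trk_mono (hv0 a b hab ha hb) (le_max_left _ _)⟩
  have hbdd : BddBelow A := ⟨0, fun _ h => h.1⟩
  have hs0 : 0 ≤ sInf A := le_csInf ⟨_, hmax⟩ fun _ h => h.1
  have hs1 : sInf A < 1 := (csInf_le hbdd hmax).trans_lt (max_lt hθ0 one_pos)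
  have hsv : valid (sInf A) := by
    intro a b hab ha hb φ ψ g1 g2 g3 g4
    set S := ∑ x ∈ loc π R ω0, φ x ^ 2 + ∑ x ∈ loc π R ω0, ψ x ^ 2 with hS
    have hS0 : 0 ≤ S := by positivity
    rcases hS0.eq_or_lt with h | h
    · have := hmax.2 a b hab ha hb φ ψ g1 g2 g3 g4
      rw [← hS, ← h] at this
      rw [← h]; simpa using this
    · rw [← div_le_iff₀ h]
      refine le_csInf ⟨_, hmax⟩ fun θ hθ => ?_
      rw [div_le_iff₀ h]
      exact hθ.2 a b hab ha hb φ ψ g1 g2 g3 g4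
  have hl' : 0 < 1 - l := by linarith
  have hfin : sInf A ≤ l / (1 - l) := by
    rcases hs0.eq_or_lt with h | h
    · rw [← h]; positivity
    · have : sInf A ≤ l + (1 - l) * sInf A ^ 2 :=
        csInf_le hbdd ⟨by positivity, h1 _ h hsv⟩
      rw [le_div_iff₀ hl']
      by_contra hcon
      push Not at hcon
      have := mul_pos (sub_pos.2 hs1) (sub_pos.2 hcon)
      nlinarith
  exact fun a b hab ha hb => trk_mono (hsv a b hab ha hb) hfin

/-- trickle-down theorem (partite version) -/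
theorem trickle {Ω V : Type} [Fintype Ω] {N : ℕ} (π : Ω → Fin N → V) (lam : ℝ) (h0 : 0 < lam)
    (h1 : 2 * N * lam ≤ 1)
    (hconn : ∀ R ω, R.card + 3 ≤ N → Conn π R ω)
    (hmix : ∀ R ω a b, a ≠ b → a ∉ R → b ∉ R → R.card + 2 = N → Mix π lam R ω a b) :
    ∀ R ω a b, a ≠ b → a ∉ R → b ∉ R → Mix π (2 * lam) R ω a b := by
  classical
  have key : ∀ m : ℕ, ∀ R : Finset (Fin N), R.card + 2 + m = N → ∀ ω a b, a ≠ b → a ∉ R → b ∉ R →
      Mix π (lam / (1 - m * lam)) R ω a b := by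
    intro m
    induction m with
    | zero =>
      intro R hR ω a b hab ha hb
      simpa using hmix R ω a b hab ha hb (by omega)
    | succ m ih =>
      intro R hR ω
      have hm : ((m : ℝ) + 3) ≤ N := by
        have : m + 3 ≤ N := by omega
        exact_mod_cast this
      have hm0 : (0 : ℝ) ≤ m := Nat.cast_nonneg m
      have hd : (m + 3) * lam ≤ 1 / 2 := by nlinarith
      have hpos : 0 < 1 - m * lam := by nlinarith
      have hpos' : 0 < 1 - (m + 1) * lam := by nlinarith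
      have := trk_level π R ω (l := lam / (1 - m * lam)) (by positivity)
        (by rw [div_lt_one hpos]; nlinarith) (by omega) (hconn R ω (by omega))
        (fun c hc ω' => ih (insert c R) (by rw [card_insert_of_notMem hc]; omega) ω')
      have e : lam / (1 - m * lam) / (1 - lam / (1 - m * lam))
          = lam / (1 - ((m + 1 : ℕ) : ℝ) * lam) := by
        push_cast
        have : 1 - lam / (1 - m * lam) = (1 - (m + 1) * lam) / (1 - m * lam) := by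
          rw [eq_div_iff hpos.ne', sub_mul, div_mul_cancel₀ _ hpos.ne']; ring
        rw [this, div_div_div_cancel_right₀ hpos.ne']
      rwa [e] at this
  intro R ω a b hab ha hb
  have hc : R.card + 2 ≤ N := by
    have h2 : (insert a (insert b R)).card = R.card + 2 := by
      rw [card_insert_of_notMem (by simp [hab, ha]), card_insert_of_notMem hb]
    have := card_le_univ (insert a (insert b R))
    rw [Fintype.card_fin] at this; omega
  obtain ⟨m, hm⟩ := Nat.exists_eq_add_of_le hc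
  refine trk_mono (key m R hm.symm ω a b hab ha hb) ?_
  have hmN : (m : ℝ) ≤ N := by
    have : m ≤ N := by omega
    exact_mod_cast this
  have hd : m * lam ≤ 1 / 2 := by nlinarith
  rw [div_le_iff₀ (by linarith)]
  nlinarith

end Vale.Agent.P067
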