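import Vale.Agent.P067.EK
import Vale.Agent.P067.Trickle
import Vale.Agent.P067.MixG

namespace Vale.Agent.P067

section

variable {Ω V : Type} {N : ℕ}

theorem glob_dR_add (R : Finset (Fin N)) (F G : Ω → Finset (Fin N) → ZMod 2) :
    dR R (F + G) = dR R F + dR R G := by
  funext ω T
  simp [dR, Finset.sum_add_distrib]

theorem glob_inv_add {π : Ω → Fin N → V} {F G : Ω → Finset (Fin N) → ZMod 2} (hF : Inv π F)
    (hG : Inv π G) : Inv π (F + G) := by
  intro T ω ω' h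
  simp only [Pi.add_apply, hF T ω ω' h, hG T ω ω' h]

theorem glob_inv_dR {π : Ω → Fin N → V} (R : Finset (Fin N)) {F : Ω → Finset (Fin N) → ZMod 2}
    (hF : Inv π F) : Inv π (dR R F) := by
  intro T ω ω' h
  unfold dR
  refine Finset.sum_congr rfl fun c _ => hF _ _ _ ?_
  intro d hd
  exact h d (Finset.mem_of_mem_erase hd)

theorem glob_add_self (x : ZMod 2) : x + x = 0 := by
  revert x; decide

theorem glob_dd (F : Ω → Finset (Fin N) → ZMod 2) (ω : Ω) (T : Finset (Fin N)) :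
    dR ∅ (dR ∅ F) ω T = 0 := by
  unfold dR
  simp only [Finset.sdiff_empty]
  have h1 : ∑ c ∈ T, ∑ d ∈ T.erase c, F ω ((T.erase c).erase d) =
      ∑ x ∈ T.offDiag, F ω ((T.erase x.1).erase x.2) := by
    rw [Finset.sum_sigma']
    refine Finset.sum_bij' (fun x _ => (x.1, x.2)) (fun x _ => ⟨x.1, x.2⟩) ?_ ?_ ?_ ?_ ?_
    · rintro ⟨a, b⟩ hx
      simp only [Finset.mem_sigma, Finset.mem_erase] at hx
      simp only [Finset.mem_offDiag]
      exact ⟨hx.1, hx.2.2, fun h => hx.2.1 h.symm⟩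
    · rintro ⟨a, b⟩ hx
      simp only [Finset.mem_offDiag] at hx
      simp only [Finset.mem_sigma, Finset.mem_erase]
      exact ⟨hx.1, fun h => hx.2.2 h.symm, hx.2.1⟩
    · rintro ⟨a, b⟩ _; rfl
    · rintro ⟨a, b⟩ _; rfl
    · rintro ⟨a, b⟩ _; rfl
  rw [h1]
  refine Finset.sum_involution (fun x _ => x.swap) ?_ ?_ ?_ ?_
  · rintro ⟨a, b⟩ _
    simp only [Prod.swap_prod_mk]
    rw [Finset.erase_right_comm (a := b) (b := a)]
    exact glob_add_self _
  · rintro ⟨a, b⟩ hx _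
    simp only [Finset.mem_offDiag] at hx
    intro h
    simp only [Prod.swap_prod_mk, Prod.mk.injEq] at h
    exact hx.2.2 h.2
  · rintro ⟨a, b⟩ hx
    simp only [Finset.mem_offDiag] at hx
    simp only [Prod.swap_prod_mk, Finset.mem_offDiag]
    exact ⟨hx.2.1, hx.1, fun h => hx.2.2 h.symm⟩
  · rintro ⟨a, b⟩ _; rfl

theorem glob_Wt_add (U : Finset Ω) (R : Finset (Fin N)) (j : ℕ)
    (F G : Ω → Finset (Fin N) → ZMod 2) : Wt U R j (F + G) ≤ Wt U R j F + Wt U R j G := by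
  classical
  unfold Wt
  refine le_trans (Finset.card_le_card ?_) (Finset.card_union_le _ _)
  intro x hx
  simp only [Finset.mem_filter, Finset.mem_union, Pi.add_apply] at hx ⊢
  by_cases h : F x.1 x.2 = 0
  · right
    refine ⟨hx.1, hx.2.1, hx.2.2.1, ?_⟩
    intro h'
    exact hx.2.2.2 (by rw [h, h', add_zero])
  · left
    exact ⟨hx.1, hx.2.1, hx.2.2.1, h⟩

theorem glob_Wt_le (U : Finset Ω) (R : Finset (Fin N)) (j : ℕ)
    (F : Ω → Finset (Fin N) → ZMod 2) : Wt U R j F ≤ U.card * 2 ^ N := by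
  unfold Wt
  refine le_trans (Finset.card_filter_le _ _) ?_
  rw [Finset.card_product, Finset.card_univ, Fintype.card_finset, Fintype.card_fin]

theorem glob_Wt_congr (U : Finset Ω) (R : Finset (Fin N)) (j : ℕ)
    {F G : Ω → Finset (Fin N) → ZMod 2}
    (h : ∀ ω ∈ U, ∀ T, R ⊆ T → T.card = j → F ω T = G ω T) : Wt U R j F = Wt U R j G := by
  unfold Wt
  congr 1
  refine Finset.filter_congr ?_
  intro x hx
  have hx1 := (Finset.mem_product.1 hx).1
  constructor
  · rintro ⟨h1, h2, h3⟩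
    exact ⟨h1, h2, by rw [← h x.1 hx1 x.2 h1 h2]; exact h3⟩
  · rintro ⟨h1, h2, h3⟩
    exact ⟨h1, h2, by rw [h x.1 hx1 x.2 h1 h2]; exact h3⟩

theorem glob_Wt_zero {U : Finset Ω} {R : Finset (Fin N)} {j : ℕ}
    {F : Ω → Finset (Fin N) → ZMod 2} :
    Wt U R j F = 0 ↔ ∀ ω ∈ U, ∀ T, R ⊆ T → T.card = j → F ω T = 0 := by
  unfold Wt
  rw [Finset.card_eq_zero, Finset.filter_eq_empty_iff]
  constructor
  · intro h ω hω T h1 h2
    by_contra h3
    exact h (x := (ω, T)) (Finset.mem_product.2 ⟨hω, Finset.mem_univ _⟩) ⟨h1, h2, h3⟩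
  · rintro h x hx ⟨h1, h2, h3⟩
    exact h3 (h x.1 (Finset.mem_product.1 hx).1 x.2 h1 h2)

end

section

variable {Ω V : Type} [Fintype Ω] {N : ℕ}

theorem glob_conn (π : Ω → Fin N → V) (M : ℕ) (hL : ∀ R ω, R.Nonempty → LinkExp π M R ω)
    (hV : VanA π 1) (R : Finset (Fin N)) (ω0 : Ω) (hR : R.card + 3 ≤ N) : Conn π R ω0 := by
  classical
  intro P hP h0
  set F : Ω → Finset (Fin N) → ZMod 2 := fun ω T =>
    if P ω ∧ rel π R ω ω0 ∧ R ⊆ T ∧ T.card = R.card + 1 then 1 else 0 with hF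
  have hhalf : ∀ T ω ω', rel π T ω ω' →
      (P ω ∧ rel π R ω ω0 ∧ R ⊆ T ∧ T.card = R.card + 1) →
      (P ω' ∧ rel π R ω' ω0 ∧ R ⊆ T ∧ T.card = R.card + 1) := by
    rintro T ω ω' h ⟨h1, h2, h3, h4⟩
    have h5 : rel π R ω' ω0 := ek_rel_trans (ek_rel_symm (ek_rel_mono h3 h)) h2
    obtain ⟨c, hcT, hcR⟩ : ∃ c ∈ T, c ∉ R := by
      by_contra hh
      push Not at hh
      have := Finset.card_le_card (show T ⊆ R from hh)
      omega
    exact ⟨hP c hcR ω (mem_loc.2 h2) ω' (mem_loc.2 h5) (h c hcT) h1, h5, h3, h4⟩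
  have hInv : Inv π F := by
    intro T ω ω' h
    simp only [hF]
    exact if_congr ⟨hhalf T ω ω' h, hhalf T ω' ω (ek_rel_symm h)⟩ rfl rfl
  have hcoc : ∀ ω T, R ⊆ T → T.card = R.card + 1 + 1 → dR R F ω T = 0 := by
    intro ω T h1 h2
    unfold dR
    have h3 : ∀ c ∈ T \ R, F ω (T.erase c) = if P ω ∧ rel π R ω ω0 then 1 else 0 := by
      intro c hc
      obtain ⟨hcT, hcR⟩ := Finset.mem_sdiff.1 hc
      have a1 : R ⊆ T.erase c := Finset.subset_erase.2 ⟨h1, hcR⟩
      have a2 : (T.erase c).card = R.card + 1 := by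
        rw [Finset.card_erase_of_mem hcT]; omega
      simp only [hF, a1, a2, and_true]
    rw [Finset.sum_congr rfl h3, Finset.sum_const, Finset.card_sdiff_of_subset h1, h2]
    have : R.card + 1 + 1 - R.card = 2 := by omega
    rw [this, two_nsmul]
    exact glob_add_self _
  obtain ⟨k, hk, hkF⟩ : ∃ k, Inv π k ∧ ∀ ω ∈ loc π R ω0, ∀ T, R ⊆ T → T.card = R.card + 1 →
      F ω T = dR R k ω T := by
    rcases R.eq_empty_or_nonempty with rfl | hne
    · obtain ⟨k, hk, hkF⟩ := hV F hInv (fun ω T hT => hcoc ω T (Finset.empty_subset _) (by simpa using hT))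
      exact ⟨k, hk, fun ω _ T _ hT => hkF ω T (by simpa using hT)⟩
    · obtain ⟨k, hk, hle⟩ := hL R ω0 hne (R.card + 1) (by omega) F hInv
      have hz : Wt (loc π R ω0) R (R.card + 1 + 1) (dR R F) = 0 :=
        glob_Wt_zero.2 fun ω _ T h1 h2 => hcoc ω T h1 h2
      rw [hz, mul_zero, Nat.le_zero, glob_Wt_zero] at hle
      refine ⟨k, hk, fun ω hω T h1 h2 => ?_⟩
      have := hle ω hω T h1 h2
      simp only [Pi.add_apply] at this
      have h3 := glob_add_self (dR R k ω T)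
      linear_combination this - h3
  obtain ⟨c, hcR⟩ : ∃ c, c ∉ R := by
    by_contra hh
    push Not at hh
    have : R = Finset.univ := Finset.eq_univ_of_forall hh
    rw [this, Finset.card_univ, Fintype.card_fin] at hR
    omega
  have hd : ∀ ω, dR R k ω (insert c R) = k ω R := by
    intro ω
    unfold dR
    rw [Finset.insert_sdiff_of_notMem _ hcR, Finset.sdiff_self]
    simp [Finset.erase_insert hcR]
  intro ω hω
  have e1 := hkF ω hω (insert c R) (Finset.subset_insert _ _) (Finset.card_insert_of_notMem hcR)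
  have e2 := hkF ω0 (ek_self_mem π R ω0) (insert c R) (Finset.subset_insert _ _)
    (Finset.card_insert_of_notMem hcR)
  rw [hd] at e1 e2
  have e3 : k ω R = k ω0 R := hk R ω ω0 (mem_loc.1 hω)
  have e4 : F ω0 (insert c R) = 1 := by
    simp only [hF]
    rw [if_pos]
    exact ⟨h0, fun _ _ => rfl, Finset.subset_insert _ _, Finset.card_insert_of_notMem hcR⟩
  have e5 : F ω (insert c R) = 1 := by rw [e1, e3, ← e2, e4]
  by_contra hn
  simp only [hF] at e5
  rw [if_neg (fun h => hn h.1)] at e5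
  exact zero_ne_one e5

theorem glob_split (π : Ω → Fin N → V) (R : Finset (Fin N)) (ω0 : Ω) (j : ℕ)
    (F G G' : Ω → Finset (Fin N) → ZMod 2)
    (h1 : ∀ ω T, rel π R ω ω0 → R ⊆ T → G ω T = G' ω T)
    (h2 : ∀ ω T, ¬ (rel π R ω ω0 ∧ R ⊆ T) → G ω T = F ω T)
    (hlt : Wt (loc π R ω0) R j G' < Wt (loc π R ω0) R j F) :
    Wt Finset.univ ∅ j G < Wt Finset.univ ∅ j F := by
  classical
  have key : ∀ H : Ω → Finset (Fin N) → ZMod 2, Wt Finset.univ ∅ j H = Wt (loc π R ω0) R j H +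
      ((Finset.univ : Finset (Ω × Finset (Fin N))).filter fun x =>
        ¬ (rel π R x.1 ω0 ∧ R ⊆ x.2) ∧ x.2.card = j ∧ H x.1 x.2 ≠ 0).card := by
    intro H
    unfold Wt
    rw [← Finset.card_union_of_disjoint]
    · congr 1
      ext x
      simp only [Finset.mem_filter, Finset.mem_product, Finset.mem_univ, Finset.empty_subset,
        true_and, and_true, Finset.mem_union, mem_loc]
      tauto
    · rw [Finset.disjoint_left]
      intro x hx hx'
      simp only [Finset.mem_filter, Finset.mem_product, Finset.mem_univ,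
        true_and, and_true, mem_loc] at hx hx'
      exact hx'.1 ⟨hx.1, hx.2.1⟩
  rw [key G, key F, glob_Wt_congr (loc π R ω0) R j (F := G) (G := G')
    (fun ω hω T hT _ => h1 ω T (mem_loc.1 hω) hT)]
  have : ((Finset.univ : Finset (Ω × Finset (Fin N))).filter fun x =>
        ¬ (rel π R x.1 ω0 ∧ R ⊆ x.2) ∧ x.2.card = j ∧ G x.1 x.2 ≠ 0) =
      ((Finset.univ : Finset (Ω × Finset (Fin N))).filter fun x =>
        ¬ (rel π R x.1 ω0 ∧ R ⊆ x.2) ∧ x.2.card = j ∧ F x.1 x.2 ≠ 0) := by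
    refine Finset.filter_congr fun x _ => ?_
    constructor
    · rintro ⟨a, b, c⟩
      exact ⟨a, b, by rw [← h2 _ _ a]; exact c⟩
    · rintro ⟨a, b, c⟩
      exact ⟨a, b, by rw [h2 _ _ a]; exact c⟩
  rw [this]
  omega

theorem glob_step (π : Ω → Fin N → V) (D : ℕ)
    (hD : ∀ R ω, R.Nonempty → (loc π R ω).card ≤ D) (j j' : ℕ)
    (h : Ω → Finset (Fin N) → ZMod 2) (hn : ¬ LocMin π j' h) :
    ∃ k', Inv π k' ∧ Wt Finset.univ ∅ j k' ≤ D * 2 ^ N ∧
      Wt Finset.univ ∅ j' (h + dR ∅ k') < Wt Finset.univ ∅ j' h := by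
  classical
  unfold LocMin at hn
  push Not at hn
  obtain ⟨R, hR, ω0, k, hk, hlt⟩ := hn
  set k' : Ω → Finset (Fin N) → ZMod 2 := fun ω T =>
    if rel π R ω ω0 ∧ R ⊆ T then k ω T else 0 with hk'
  refine ⟨k', ?_, ?_, ?_⟩
  · intro T ω ω' hr
    simp only [hk']
    refine if_congr ?_ (hk T ω ω' hr) rfl
    constructor
    · rintro ⟨a, b⟩
      exact ⟨ek_rel_trans (ek_rel_symm (ek_rel_mono b hr)) a, b⟩
    · rintro ⟨a, b⟩
      exact ⟨ek_rel_trans (ek_rel_mono b hr) a, b⟩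
  · have : Wt Finset.univ ∅ j k' ≤ (loc π R ω0 ×ˢ (Finset.univ : Finset (Finset (Fin N)))).card := by
      unfold Wt
      refine Finset.card_le_card ?_
      intro x hx
      simp only [Finset.mem_filter] at hx
      refine Finset.mem_product.2 ⟨mem_loc.2 ?_, Finset.mem_univ _⟩
      by_contra hh
      apply hx.2.2.2
      simp only [hk']
      rw [if_neg (fun a => hh a.1)]
    rw [Finset.card_product, Finset.card_univ, Fintype.card_finset, Fintype.card_fin] at this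
    exact this.trans (Nat.mul_le_mul_right _ (hD R ω0 hR))
  · refine glob_split π R ω0 j' h _ (h + dR R k) ?_ ?_ hlt
    · intro ω T a b
      simp only [Pi.add_apply]
      congr 1
      unfold dR
      rw [Finset.sdiff_empty, Finset.sdiff_eq_filter, Finset.sum_filter]
      refine Finset.sum_congr rfl fun c _ => ?_
      simp only [hk', Finset.subset_erase, a, b, true_and]
    · intro ω T a
      simp only [Pi.add_apply]
      have : dR ∅ k' ω T = 0 := by
        unfold dR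
        refine Finset.sum_eq_zero fun c _ => ?_
        simp only [hk']
        rw [if_neg]
        rintro ⟨b, c'⟩
        exact a ⟨b, c'.trans (Finset.erase_subset _ _)⟩
      rw [this, add_zero]

theorem glob_correct (π : Ω → Fin N → V) (D : ℕ)
    (hD : ∀ R ω, R.Nonempty → (loc π R ω).card ≤ D) (j j' : ℕ) (W : ℕ) :
    ∀ h : Ω → Finset (Fin N) → ZMod 2, Wt Finset.univ ∅ j' h ≤ W →
      ∃ k1, Inv π k1 ∧ LocMin π j' (h + dR ∅ k1) ∧ Wt Finset.univ ∅ j' (h + dR ∅ k1) ≤ W ∧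
        Wt Finset.univ ∅ j k1 ≤ D * 2 ^ N * W := by
  have hzero : ∀ h : Ω → Finset (Fin N) → ZMod 2, h + dR ∅ 0 = h := by
    intro h; funext ω T; simp [dR]
  have hw0 : Wt (Finset.univ : Finset Ω) (∅ : Finset (Fin N)) j 0 = 0 :=
    glob_Wt_zero.2 fun _ _ _ _ _ => rfl
  induction W with
  | zero =>
    intro h hW
    by_cases hm : LocMin π j' h
    · refine ⟨0, fun _ _ _ _ => rfl, by rw [hzero]; exact hm, by rw [hzero]; exact hW, ?_⟩
      rw [hw0]; exact Nat.zero_le _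
    · obtain ⟨k', _, _, h3⟩ := glob_step π D hD j j' h hm
      omega
  | succ W ih =>
    intro h hW
    by_cases hm : LocMin π j' h
    · refine ⟨0, fun _ _ _ _ => rfl, by rw [hzero]; exact hm, by rw [hzero]; exact hW, ?_⟩
      rw [hw0]; exact Nat.zero_le _
    · obtain ⟨k', h1, h2, h3⟩ := glob_step π D hD j j' h hm
      obtain ⟨k1, a1, a2, a3, a4⟩ := ih (h + dR ∅ k') (by omega)
      have e : h + dR ∅ (k' + k1) = h + dR ∅ k' + dR ∅ k1 := by
        rw [glob_dR_add, add_assoc]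
      refine ⟨k' + k1, glob_inv_add h1 a1, by rw [e]; exact a2, by rw [e]; omega, ?_⟩
      have := glob_Wt_add (Finset.univ : Finset Ω) ∅ j k' k1
      rw [Nat.mul_succ]
      omega

end

/-- local-to-global theorem -/
theorem locGlob (N M : ℕ) : ∃ lam : ℝ, 0 < lam ∧ ∀ D : ℕ, ∃ C : ℕ,
    ∀ (Ω V : Type) [Fintype Ω] (π : Ω → Fin N → V),
      (∀ R ω, R.Nonempty → LinkExp π M R ω) →
      (∀ R ω a b, a ≠ b → a ∉ R → b ∉ R → R.card + 2 = N → Mix π lam R ω a b) →
      (∀ R ω, R.Nonempty → (loc π R ω).card ≤ D) →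
      VanA π 1 → ∀ j, 1 ≤ j → j + 1 < N → VanA π j → GExp π C j := by
  obtain ⟨l0, η, hl0, hη, hek⟩ := ek N M
  have hN : (0 : ℝ) < 2 * N + 1 := by positivity
  refine ⟨min (l0 / 2) (1 / (2 * N + 1)), lt_min (by linarith) (by positivity), fun D =>
    ⟨D * 2 ^ N + ⌈1 / η⌉₊ * 2 ^ N, ?_⟩⟩
  intro Ω V _ π hL hmix hD hV1 j hj1 hjN hVj F hF
  set lam := min (l0 / 2) (1 / (2 * (N : ℝ) + 1)) with hlam
  have hlam0 : 0 < lam := lt_min (by linarith) (by positivity)
  have hlam1 : 2 * N * lam ≤ 1 := by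
    have h1 : lam ≤ 1 / (2 * (N : ℝ) + 1) := min_le_right _ _
    rw [le_div_iff₀ hN] at h1
    nlinarith
  have hmixall : ∀ R ω a b, a ≠ b → a ∉ R → b ∉ R → Mix π l0 R ω a b := by
    intro R ω a b h1 h2 h3
    have := trickle π lam hlam0 hlam1 (fun R ω hR => glob_conn π M hL hV1 R ω hR) hmix R ω a b
      h1 h2 h3
    have h4 : lam ≤ l0 / 2 := min_le_left _ _
    exact trk_mono this (by linarith)
  set W := Wt Finset.univ ∅ (j + 1) (dR ∅ F) with hW
  by_cases hsm : (W : ℝ) ≤ η * Fintype.card Ω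
  · obtain ⟨k1, a1, a2, a3, a4⟩ := glob_correct π D hD j (j + 1) W (dR ∅ F) le_rfl
    rw [← glob_dR_add] at a2 a3
    have hI : Inv π (F + k1) := glob_inv_add hF a1
    have hz := hek Ω V π hL hmixall (j + 1) (by omega) hjN (dR ∅ (F + k1)) (glob_inv_dR ∅ hI)
      (fun ω T _ => glob_dd _ ω T) a2 (le_trans (by exact_mod_cast a3) hsm)
    rw [glob_Wt_zero] at hz
    obtain ⟨k, hk, hkF⟩ := hVj (F + k1) hI
      (fun ω T hT => hz ω (Finset.mem_univ _) T (Finset.empty_subset _) hT)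
    refine ⟨k, hk, ?_⟩
    rw [glob_Wt_congr Finset.univ ∅ j (F := F + dR ∅ k) (G := k1)]
    · calc _ ≤ D * 2 ^ N * W := a4
        _ ≤ _ := Nat.mul_le_mul_right _ (Nat.le_add_right _ _)
    · intro ω _ T _ hT
      have := hkF ω T hT
      simp only [Pi.add_apply] at this ⊢
      have h3 := glob_add_self (F ω T)
      linear_combination h3 - this
  · refine ⟨0, fun _ _ _ _ => rfl, ?_⟩
    push Not at hsm
    have h1 := glob_Wt_le (Finset.univ : Finset Ω) (∅ : Finset (Fin N)) j (F + dR ∅ 0)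
    rw [Finset.card_univ] at h1
    have h2 : Fintype.card Ω ≤ ⌈1 / η⌉₊ * W := by
      have h3 : (1 / η) ≤ (⌈1 / η⌉₊ : ℝ) := Nat.le_ceil _
      have h4 : (Fintype.card Ω : ℝ) ≤ 1 / η * W := by
        rw [one_div, ← div_eq_inv_mul, le_div_iff₀ hη]
        linarith
      have h5 : (Fintype.card Ω : ℝ) ≤ (⌈1 / η⌉₊ : ℝ) * W :=
        h4.trans (mul_le_mul_of_nonneg_right h3 (Nat.cast_nonneg _))
      exact_mod_cast h5
    calc _ ≤ Fintype.card Ω * 2 ^ N := h1
      _ ≤ ⌈1 / η⌉₊ * W * 2 ^ N := Nat.mul_le_mul_right _ h2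
      _ = ⌈1 / η⌉₊ * 2 ^ N * W := by ring
      _ ≤ _ := Nat.mul_le_mul_right _ (Nat.le_add_left _ _)

end Vale.Agent.P067
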