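import Vale.Agent.P067.LatD

namespace Vale.Agent.P067

open scoped LaurentPolynomial Polynomial Pointwise
open Module

variable {K : Type} [Field K] {N : ℕ}

theorem lemT_RL_empty {L : Sb K N} :
    RL L = ∅ ↔ ∀ k : ℤ, h0 (sh k L) = 0 ∨ h1 (sh k L) = 0 := by
  constructor
  · intro h k
    by_contra hc
    push Not at hc
    have : ((1, 1) : ℕ × ℕ) ∈ RL L :=
      ⟨le_rfl, le_rfl, k, Nat.one_le_iff_ne_zero.2 hc.1, Nat.one_le_iff_ne_zero.2 hc.2⟩
    rw [h] at this
    exact this
  · intro h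
    refine Set.eq_empty_of_forall_notMem fun ab ⟨h1', h2', k, h3, h4⟩ => ?_
    rcases h k with h | h <;> omega

theorem lemT_Rs_empty {σ : Finset (Vx K N)} : Rs σ = ∅ ↔ ∀ u ∈ σ, RL u.1 = ∅ := by
  rw [← Set.subset_empty_iff, Rs_subset_iff]
  simp only [Set.subset_empty_iff]

theorem lemT_RL_lam (c : ℕ) : RL (lamS c : Sb K N) = ∅ := by
  refine lemT_RL_empty.2 fun k => ?_
  rcases lt_or_ge k 0 with hk | hk
  · left
    rw [h0_eq_zero_iff ((lat_lamS c).1.sh k), eq_bot_iff,
      ← Std_inf_Pos (show 1 + k ≤ 0 by omega), ← sh_Std]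
    exact inf_le_inf_right _ (sh_mono k (lamS_le_Std c))
  · right
    have := h1_anti (lat_lamS (K := K) (N := N) c).1 ((lat_lamS c).le_sh hk)
    rw [h1_lamS] at this
    omega

theorem lemT_cmp_lam {c c' : ℕ} (h : c ≤ c') : CmpL (lamS c : Sb K N) (lamS c') := by
  refine cmpL_of_window (lat_lamS c) (lamS_mono h) ((lamS_le_Std c').trans ?_)
  have := sh_mono 1 (Std_le_lamS (K := K) (N := N) c)
  rwa [sh_Std, zero_add] at this

theorem good_std (T : Finset (Fin N)) : Good (std T : Finset (Vx K N)) := by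
  constructor
  · intro u hu w hw
    obtain ⟨c, -, rfl⟩ := Finset.mem_image.1 hu
    obtain ⟨c', -, rfl⟩ := Finset.mem_image.1 hw
    rcases le_total (c : ℕ) c' with h | h
    · exact lemT_cmp_lam h
    · exact (lemT_cmp_lam h).symm
  · refine lemT_Rs_empty.2 fun u hu => ?_
    obtain ⟨c, -, rfl⟩ := Finset.mem_image.1 hu
    exact lemT_RL_lam c

theorem lemT_sub {g g' : GG K N} {T T' : Finset (Fin N)}
    (h : g • (std T : Finset (Vx K N)) = g' • std T') {c : Fin N} (hc : c ∈ T) :
    c ∈ T' ∧ g • (lam c : Vx K N) = g' • lam c := by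
  have : g • (lam c : Vx K N) ∈ g' • (std T' : Finset (Vx K N)) :=
    h ▸ Finset.smul_mem_smul_finset (Finset.mem_image_of_mem _ hc)
  obtain ⟨u, hu, e⟩ := Finset.mem_smul_finset.1 this
  obtain ⟨c', hc', rfl⟩ := Finset.mem_image.1 hu
  have := congrArg col e
  rw [col_smul, col_smul, col_lam, col_lam] at this
  subst this
  exact ⟨hc', e.symm⟩

theorem smul_std_eq {g g' : GG K N} {T T' : Finset (Fin N)}
    (h : g • (std T : Finset (Vx K N)) = g' • std T') :
    T = T' ∧ ∀ c ∈ T, g • (lam c : Vx K N) = g' • lam c :=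
  ⟨Finset.Subset.antisymm (fun _ hc => (lemT_sub h hc).1) fun _ hc => (lemT_sub h.symm hc).1,
    fun _ hc => (lemT_sub h hc).2⟩

theorem lemT_flag {E : Type} [AddCommGroup E] [Module K E] (n : ℕ) (Z : Fin n → Submodule K E)
    (h : ∀ i : Fin n, (i : ℕ) < finrank K (Z i)) :
    ∃ b : Fin n → E, LinearIndependent K b ∧ ∀ i, b i ∈ Z i := by
  induction n with
  | zero => exact ⟨Fin.elim0, linearIndependent_empty_type, fun i => i.elim0⟩
  | succ n ih =>
    obtain ⟨b, hb, hb'⟩ := ih (fun i => Z i.castSucc) fun i => h i.castSucc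
    have : ¬ Z (Fin.last n) ≤ Submodule.span K (Set.range b) := fun hle => by
      have := Module.Finite.span_of_finite K (Set.finite_range b)
      have h1 := Submodule.finrank_mono hle
      rw [finrank_span_eq_card hb, Fintype.card_fin] at h1
      have := h (Fin.last n)
      rw [Fin.val_last] at this
      omega
    obtain ⟨x, hx, hx'⟩ := SetLike.not_le_iff_exists.1 this
    refine ⟨Fin.snoc b x, linearIndependent_finSnoc.2 ⟨hb, hx'⟩, fun i => ?_⟩
    refine Fin.lastCases ?_ (fun i => ?_) i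
    · simpa using hx
    · simpa using hb' i

/-- the constant coefficients -/
noncomputable def lemTev : VV K N →ₗ[K] (Fin N → K) where
  toFun x := fun i => (x i).coeff 0
  map_add' x y := by funext i; simp [AddMonoidAlgebra.coeff_add]
  map_smul' c x := by funext i; simp

theorem lemT_ker : (Pos 0 ⊓ LinearMap.ker lemTev : Sb K N) = Pos 1 := by
  ext x
  simp only [Submodule.mem_inf, mem_Pos, LinearMap.mem_ker]
  constructor
  · rintro ⟨h, h'⟩ i m hm
    rcases (show m < 0 ∨ m = 0 by omega) with h0 | rfl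
    · exact h i m h0
    · exact congrFun h' i
  · exact fun h => ⟨fun i m hm => h i m (by omega), funext fun i => h i 0 (by omega)⟩

theorem lemT_inf_one (M : Sb K N) : M ⊓ Pos 1 = sh 1 (sh (-1) M ⊓ Pos 0) := by
  rw [sh_inf, sh_sh, sh_Pos]
  simp

theorem lemT_rank {M : Sb K N} (h : Com M) :
    finrank K ((M ⊓ Pos 0).map lemTev) + h0 (sh (-1) M) = h0 M := by
  have := (h.fr 0).1
  have h1 := LinearMap.finrank_range_add_finrank_ker (lemTev.domRestrict (M ⊓ Pos 0 : Sb K N))
  rw [LinearMap.range_domRestrict, LinearMap.ker_domRestrict] at h1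
  rw [h0, h0, ← h1]
  congr 1
  have e : (LinearMap.ker lemTev).comap (M ⊓ Pos 0 : Sb K N).subtype
      = (M ⊓ Pos 1 : Sb K N).comap (M ⊓ Pos 0 : Sb K N).subtype := by
    rw [← lemT_ker, ← inf_assoc, Submodule.comap_inf, Submodule.comap_subtype_self, top_inf_eq]
  rw [e, (Submodule.comapSubtypeEquivOfLe
    (inf_le_inf_left M (Pos_anti zero_le_one))).finrank_eq, lemT_inf_one]
  exact (LinearEquiv.finrank_map_eq _ _).symm

theorem lemT_h0 {u : Vx K N} (h : RL u.1 = ∅) {k : ℤ} (hk : 0 ≤ k) :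
    (h0 (sh k u.1) : ℤ) = idx u.1 + k * N := by
  have h1' := idx_sh u.com k
  have h2 := u.2.2.1
  have h3 : 0 ≤ k * N := by positivity
  rw [idx] at h1'
  rcases lemT_RL_empty.1 h k with h | h <;> omega

theorem lemT_h0_neg {u : Vx K N} (h : RL u.1 = ∅) : h0 (sh (-1) u.1) = 0 := by
  have h1' := idx_sh u.com (-1)
  have h2 := u.2.2.2
  rw [idx] at h1'
  rcases lemT_RL_empty.1 h (-1) with h | h <;> omega

theorem lemT_h0_zero {u : Vx K N} (h : RL u.1 = ∅) : h0 u.1 = col u := by
  have := lemT_h0 h le_rfl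
  rw [sh_zero, ← col_val] at this
  omega

/-- an adapted family of vectors -/
theorem lemT_basis {σ : Finset (Vx K N)} (h : Good σ) {w : Vx K N} (hw : w ∈ σ) :
    ∃ v : Fin N → VV K N, LinearIndependent K (lemTev ∘ v) ∧ (∀ i, v i ∈ sh 1 w.1 ⊓ Pos 0) ∧
      ∀ u ∈ σ, ∀ i, i < col u → v i ∈ u.1 := by
  have hR := lemT_Rs_empty.1 h.2
  have hle : ∀ u ∈ σ, ∀ u' ∈ σ, col u ≤ col u' → u.1 ≤ u'.1 := fun u hu u' hu' hc =>
    (h.1 u hu u' hu').le_of_idx u.com u'.com (by rw [← col_val, ← col_val]; exact_mod_cast hc)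
  have : ∀ i : Fin N, ∃ M : Sb K N, M ≤ sh 1 w.1 ∧ (∀ u ∈ σ, i < col u → M ≤ u.1) ∧
      (i : ℕ) < finrank K ((M ⊓ Pos 0).map lemTev) := fun i => by
    by_cases hi : ∃ u ∈ σ, i < col u
    · obtain ⟨u, hu, hm⟩ := (σ.filter fun u => i < col u).exists_min_image col
        (by obtain ⟨u, hu, h⟩ := hi; exact ⟨u, Finset.mem_filter.2 ⟨hu, h⟩⟩)
      obtain ⟨hu, hiu⟩ := Finset.mem_filter.1 hu
      refine ⟨u.1, ?_, fun u' hu' hi' => hle u hu u' hu' (hm u' (Finset.mem_filter.2 ⟨hu', hi'⟩)),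
        ?_⟩
      · refine (((h.1 w hw u hu).sh_left 1).symm).le_of_idx u.com (w.com.sh 1) ?_
        rw [idx_sh w.com]
        have := u.2.2.2
        have := w.2.2.1
        omega
      · have := lemT_rank u.com
        rw [lemT_h0_neg (hR u hu), lemT_h0_zero (hR u hu)] at this
        have h2 : (i : ℕ) < col u := hiu
        omega
    · refine ⟨sh 1 w.1, le_rfl, fun u hu h' => absurd ⟨u, hu, h'⟩ hi, ?_⟩
      have := lemT_rank (w.com.sh 1)
      rw [sh_sh] at this
      have h1' := lemT_h0 (hR w hw) zero_le_one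
      have h2 := lemT_h0 (hR w hw) (show (0 : ℤ) ≤ -1 + 1 by norm_num)
      have := i.2
      omega
  choose M hM1 hM2 hM3 using this
  obtain ⟨b, hb, hb'⟩ := lemT_flag N _ hM3
  choose v hv hv' using hb'
  refine ⟨v, ?_, fun i => ⟨hM1 i (hv i).1, (hv i).2⟩, fun u hu i hi => hM2 i u hu hi (hv i).1⟩
  rwa [show lemTev ∘ v = b from funext hv']

theorem lemT_pv_add (a b : Fin N → K[X]) : pv (a + b) = pv a + pv b := by
  funext i; simp [pv]

theorem lemT_pv_X (a : Fin N → K[X]) : pv ((Polynomial.X : K[X]) • a) = shl 1 (pv a) := by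
  funext i; simp [pv, shl_apply]

theorem lemT_pv_comb (p : Fin N → Fin N → K[X]) (a : Fin N → K) :
    pv ((Matrix.of fun i j => p j i).mulVec fun j => Polynomial.C (a j)) = ∑ j, a j • pv (p j) := by
  funext i
  simp [pv, Matrix.mulVec, dotProduct, LaurentPolynomial.smul_eq_C_mul, mul_comm]

theorem lemT_gen {w : Vx K N} (hw : RL w.1 = ∅) {p : Fin N → Fin N → K[X]}
    (h1 : LinearIndependent K (lemTev ∘ fun i => pv (p i))) (h2 : ∀ i, pv (p i) ∈ sh 1 w.1)
    (h3 : ∀ i, i < col w → pv (p i) ∈ w.1) (k : ℕ) :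
    ∀ x ∈ sh k w.1 ⊓ Pos 0, ∃ y, x = pv ((Matrix.of fun i j => p j i).mulVec y) := by
  induction k with
  | zero =>
    intro x hx
    have := (w.com.fr 0).1
    have hi : LinearIndependent K fun i : Fin (col w) => pv (p (Fin.castLE (col w).2.le i)) :=
      (LinearIndependent.of_comp _ h1).comp _ (Fin.castLE_injective _)
    have e : Submodule.span K (Set.range fun i : Fin (col w) => pv (p (Fin.castLE (col w).2.le i)))
        = w.1 ⊓ Pos 0 := by
      refine Submodule.eq_of_le_of_finrank_le (Submodule.span_le.2 ?_) ?_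
      · rintro _ ⟨i, rfl⟩
        exact ⟨h3 _ i.2, pv_mem_Pos _⟩
      · rw [finrank_span_eq_card hi, Fintype.card_fin, ← lemT_h0_zero hw, h0]
    rw [Nat.cast_zero, sh_zero, ← e] at hx
    have hx' : x ∈ Submodule.span K (Set.range fun i => pv (p i)) :=
      Submodule.span_mono (by rintro _ ⟨i, rfl⟩; exact ⟨_, rfl⟩) hx
    obtain ⟨a, rfl⟩ := (Submodule.mem_span_range_iff_exists_fun K).1 hx'
    exact ⟨_, (lemT_pv_comb p a).symm⟩
  | succ k ih =>
    intro x hx
    have hN : Nonempty (Fin N) := ⟨col w⟩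
    have hs := h1.span_eq_top_of_card_eq_finrank (by simp)
    obtain ⟨a, ha⟩ := (Submodule.mem_span_range_iff_exists_fun K).1
      (hs.ge (Submodule.mem_top (x := lemTev x)))
    have hz : x - ∑ j, a j • pv (p j) ∈ sh (k + 1 : ℕ) w.1 ⊓ Pos 1 := by
      rw [← lemT_ker]
      refine ⟨Submodule.sub_mem _ hx.1 (Submodule.sum_mem _ fun j _ => Submodule.smul_mem _ _
        (w.lat.sh_le (by push_cast; omega) (h2 j))), Submodule.sub_mem _ hx.2
        (Submodule.sum_mem _ fun j _ => Submodule.smul_mem _ _ (pv_mem_Pos _)), ?_⟩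
      change lemTev _ = 0
      rw [map_sub, ← ha, map_sum]
      simp
    rw [lemT_inf_one, sh_sh, show (-1 : ℤ) + (k + 1 : ℕ) = k by push_cast; ring] at hz
    obtain ⟨z, hz, e⟩ := hz
    obtain ⟨y, rfl⟩ := ih z hz
    refine ⟨(Polynomial.X : K[X]) • y + fun j => Polynomial.C (a j), ?_⟩
    rw [Matrix.mulVec_add, Matrix.mulVec_smul, lemT_pv_add, lemT_pv_X, lemT_pv_comb]
    exact (eq_sub_iff_add_eq.1 e).symm

theorem lemT_main {σ : Finset (Vx K N)} (h : Good σ) :
    ∃ g : GG K N, ∀ u ∈ σ, g • (lam (col u) : Vx K N) = u := by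
  rcases σ.eq_empty_or_nonempty with rfl | hne
  · exact ⟨1, by simp⟩
  obtain ⟨w, hw, hmin⟩ := σ.exists_min_image col hne
  obtain ⟨v, hv1, hv2, hv3⟩ := lemT_basis h hw
  choose p hp using fun i => exists_pv (hv2 i).2
  obtain rfl : v = fun i => pv (p i) := funext fun i => (hp i).symm
  have hg := lemT_gen (lemT_Rs_empty.1 h.2 w hw) hv1 (fun i => (hv2 i).1) (hv3 w hw)
  set A : Matrix (Fin N) (Fin N) K[X] := Matrix.of fun i j => p j i with hA
  have : ∀ j, ∃ y, A.mulVec y = Pi.single j 1 := fun j => by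
    obtain ⟨a, -, ha, -⟩ := w.com
    obtain ⟨b, hb⟩ := exists_mem_Std (pv (Pi.single j 1) : VV K N)
    obtain ⟨y, hy⟩ := hg (b - a).toNat (pv (Pi.single j 1)) ⟨sh_mono _ ha (by
      rw [sh_Std]; exact Std_mono (by omega) hb), pv_mem_Pos _⟩
    exact ⟨y, (pv_injective hy).symm⟩
  choose y hy using this
  have hu : IsUnit A.det := by
    refine Matrix.isUnit_det_of_right_inverse (B := Matrix.of fun i j => y j i) ?_
    ext1 i j
    have := congrFun (hy j) i
    rw [Matrix.one_apply, ← Pi.single_apply, ← this]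
    rfl
  obtain ⟨r, hr, hr'⟩ := Polynomial.isUnit_iff.1 hu
  let c : Fin N → K := Function.update 1 (col w) r⁻¹
  have hd : (A * Matrix.diagonal fun j => Polynomial.C (c j)).det = 1 := by
    rw [Matrix.det_mul, Matrix.det_diagonal, ← map_prod, Finset.prod_update_of_mem
      (Finset.mem_univ _), ← hr', ← map_mul]
    simp [hr.ne_zero]
  let g : GG K N := ⟨_, hd⟩
  have hac : ∀ j m, ac g (mon j m) = c j • shl m (pv (p j)) := fun j m => by
    funext i
    rw [ac_mon]
    simp [g, hA, shl_apply, pv, LaurentPolynomial.smul_eq_C_mul, Matrix.mul_diagonal]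
    ring
  refine ⟨g, fun u hu => ?_⟩
  rw [smul_eq_iff_eq_inv_smul]
  refine Vx.ext (eq_of_le_of_idx (lam _).com (g⁻¹ • u).com (Sup_le_iff.2 fun i m him => ?_) ?_)
  · rw [Vx.smul_val, mem_gm, inv_inv, hac]
    refine Submodule.smul_mem _ _ ?_
    rcases him with hm | ⟨hm, hi⟩
    · have h1 : w.1 ≤ u.1 := (h.1 w hw u hu).le_of_idx w.com u.com
        (by rw [← col_val, ← col_val]; exact_mod_cast hmin u hu)
      have h2 := shl_mem_sh (k := m).2 (sh_mono 1 h1 (hv2 i).1)
      rw [sh_sh] at h2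
      exact u.lat.sh_le_self (by change m < 0 at hm; omega) h2
    · obtain rfl : m = 0 := hm
      rw [shl_zero]
      exact hv3 u hu i hi
  · rw [← col_val, ← col_val, col_smul, col_lam]

/-- every good face is a translate of a standard face -/
theorem lemT {σ : Finset (Vx K N)} (h : Good σ) :
    ∃ g : GG K N, σ = g • std (σ.image col) := by
  obtain ⟨g, hg⟩ := lemT_main h
  refine ⟨g, ?_⟩
  rw [std, Finset.smul_finset_def, Finset.image_image, Finset.image_image]
  exact ((Finset.image_congr hg).trans Finset.image_id).symm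

/-- relative form: a good face containing the standard face `R` is an `HH K R`-translate -/
theorem lemT_rel {R : Finset (Fin N)} {τ : Finset (Vx K N)} :
    LL (std R) τ ↔ ∃ (h : HH K R) (T : Finset (Fin N)), Disjoint T R ∧
      τ = T.image fun c => h • (lam c : Vx K N) := by
  constructor
  · rintro ⟨h1, h2, h3⟩
    rw [(good_std R).2, Set.subset_empty_iff] at h3
    have hG : Good (std R ∪ τ) := ⟨h2, lemT_Rs_empty.2 fun u hu =>
      (Finset.mem_union.1 hu).elim (lemT_Rs_empty.1 (good_std R).2 u) (lemT_Rs_empty.1 h3 u)⟩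
    obtain ⟨g, hg⟩ := lemT_main hG
    have hH : g ∈ HH K R := mem_HH.2 fun c hc => by
      have := hg (lam c) (Finset.mem_union_left _ (Finset.mem_image_of_mem _ hc))
      rwa [col_lam] at this
    refine ⟨⟨g, hH⟩, τ.image col, Finset.disjoint_left.2 fun c hc hc' => ?_, ?_⟩
    · obtain ⟨u, hu, rfl⟩ := Finset.mem_image.1 hc
      have := hg u (Finset.mem_union_right _ hu)
      rw [mem_HH.1 hH _ hc'] at this
      exact Finset.disjoint_left.1 h1 (this ▸ Finset.mem_image_of_mem _ hc') hu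
    · rw [Finset.image_image]
      exact ((Finset.image_congr fun u hu => hg u (Finset.mem_union_right _ hu)).trans
        Finset.image_id).symm
  · rintro ⟨h, T, hT, rfl⟩
    have hG : Good (std R ∪ T.image fun c => h • (lam c : Vx K N)) := by
      refine good_down _ _ ((good_std (R ∪ T)).smul h.1) fun u hu => ?_
      rcases Finset.mem_union.1 hu with hu | hu
      · obtain ⟨c, hc, rfl⟩ := Finset.mem_image.1 hu
        rw [← mem_HH.1 h.2 c hc]
        exact Finset.smul_mem_smul_finset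
          (Finset.mem_image_of_mem _ (Finset.mem_union_left _ hc))
      · obtain ⟨c, hc, rfl⟩ := Finset.mem_image.1 hu
        exact Finset.smul_mem_smul_finset
          (Finset.mem_image_of_mem _ (Finset.mem_union_right _ hc))
    refine ⟨Finset.disjoint_left.2 fun u hu hu' => ?_, hG.1, ?_⟩
    · obtain ⟨c, hc, rfl⟩ := Finset.mem_image.1 hu
      obtain ⟨c', hc', e⟩ := Finset.mem_image.1 hu'
      have := congrArg col e
      rw [Subgroup.smul_def, col_smul, col_lam, col_lam] at this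
      exact Finset.disjoint_left.1 hT hc' (this ▸ hc)
    · rw [(good_down _ _ hG Finset.subset_union_right).2]
      exact Set.empty_subset _

end Vale.Agent.P067
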