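import Vale.Agent.P067.ClA
import Vale.Agent.P067.ClB
import Vale.Agent.P067.LemT

namespace Vale.Agent.P067

open scoped Pointwise

section one
variable {K : Type} [Field K] {N : ℕ}

theorem va_smul_std (g : GG K N) (T : Finset (Fin N)) :
    g • (std T : Finset (Vx K N)) = T.image fun c => g • (lam c : Vx K N) := by
  rw [std, Finset.smul_finset_def, Finset.image_image]; rfl

theorem va_inj (g : GG K N) : Function.Injective fun c : Fin N => g • (lam c : Vx K N) := by
  intro a b h
  have := congrArg col h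
  simpa [col_smul, col_lam] using this

theorem va_card (g : GG K N) (T : Finset (Fin N)) :
    (g • (std T : Finset (Vx K N))).card = T.card := by
  rw [va_smul_std, Finset.card_image_of_injective _ (va_inj g)]

theorem va_dl {M : Type} [AddCommMonoid M] (F : Finset (Vx K N) → M) (g : GG K N)
    (T : Finset (Fin N)) :
    dl F (g • std T) = ∑ c ∈ T, F (g • std (T.erase c)) := by
  rw [dl, va_smul_std, Finset.sum_image fun a _ b _ h => va_inj g h]
  refine Finset.sum_congr rfl fun c _ => ?_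
  rw [va_smul_std, Finset.image_erase (va_inj g)]

theorem va_welldef [NeZero N] {M : Type} (f : Finset (Vx K N) → M) (n : ℕ)
    (hf : ∀ γ : GG K N, γ ∈ Gam K N 1 → ∀ σ, Good σ → σ.card = n → f (γ • σ) = f σ)
    {g g' : GG K N} {T : Finset (Fin N)} (hT : (insert 0 T).card = n)
    (h : g • (std T : Finset (Vx K N)) = g' • std T) :
    f (g' • std (insert 0 T)) = f (g • std (insert 0 T)) := by
  obtain ⟨g0, h1, h2, h3⟩ := const_part (g⁻¹ * g')
  have h4 := (smul_std_eq h).2
  have e : g0 • (std (insert 0 T) : Finset (Vx K N)) = std (insert 0 T) := by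
    rw [va_smul_std, std]
    refine Finset.image_congr fun c hc => ?_
    rcases Finset.mem_insert.1 (Finset.mem_coe.1 hc) with rfl | hc
    · exact h2
    · refine h3 c ?_
      rw [mul_smul, ← h4 c hc, inv_smul_smul]
  have e2 : g' • (std (insert 0 T) : Finset (Vx K N))
      = (g * (g⁻¹ * g' * g0⁻¹) * g⁻¹) • g • std (insert 0 T) := by
    conv_rhs => rw [← e]
    rw [smul_smul, smul_smul]
    congr 1; group
  rw [e2]
  refine hf _ ((inferInstance : (Gam K N 1).Normal).conj_mem _ h1 g) _ ((good_std _).smul g) ?_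
  rw [va_card, hT]

end one

theorem van_one {K : Type} [Field K] {N : ℕ} [NeZero N] (𝔽 : Type) [Field 𝔽] [CharP 𝔽 2]
    (i : ℕ) : Van (fun _ : Gam K N 1 => (1 : 𝔽)) (Good : Finset (Vx K N) → Prop) i := by
  classical
  intro f hf hc
  have hf' : ∀ γ : GG K N, γ ∈ Gam K N 1 → ∀ σ, Good σ → σ.card = i + 1 → f (γ • σ) = f σ := by
    intro γ hγ σ h1 h2
    have := hf ⟨γ, hγ⟩ σ h1 h2
    rw [one_mul] at this
    exact this
  let k : Finset (Vx K N) → 𝔽 := fun τ =>
    if h : Good τ ∧ (0 : Fin N) ∉ τ.image col then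
      f ((lemT h.1).choose • std (insert 0 (τ.image col))) else 0
  have himg : ∀ (g : GG K N) (T : Finset (Fin N)),
      (g • (std T : Finset (Vx K N))).image col = T := by
    intro g T
    rw [va_smul_std, Finset.image_image]
    have : (col ∘ fun c : Fin N => g • (lam c : Vx K N)) = id := by
      funext c; simp [col_smul, col_lam]
    rw [this, Finset.image_id]
  have hk0 : ∀ (g : GG K N) (T : Finset (Fin N)), 0 ∈ T → k (g • std T) = 0 := by
    intro g T hT
    simp only [k]
    rw [dif_neg]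
    rw [himg]; exact fun h => h.2 hT
  have hk1 : ∀ (g : GG K N) (T : Finset (Fin N)), 0 ∉ T → T.card = i →
      k (g • std T) = f (g • std (insert 0 T)) := by
    intro g T hT hcard
    have hg : Good (g • (std T : Finset (Vx K N))) ∧
        (0 : Fin N) ∉ (g • (std T : Finset (Vx K N))).image col :=
      ⟨(good_std T).smul g, by rwa [himg]⟩
    simp only [k]
    rw [dif_pos hg]
    have h1 := (lemT hg.1).choose_spec
    generalize (lemT hg.1).choose = g' at h1 ⊢
    rw [himg] at h1 ⊢
    exact va_welldef f (i + 1) hf' (by rw [Finset.card_insert_of_notMem hT, hcard]) h1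
  refine ⟨k, fun γ σ h1 h2 => ?_, fun σ h1 h2 => ?_⟩
  · obtain ⟨g, hg⟩ := lemT h1
    generalize σ.image col = T at hg
    subst hg
    rw [va_card] at h2
    have e : γ • g • (std T : Finset (Vx K N)) = (γ.1 * g) • std T := by
      rw [mul_smul]; rfl
    rw [one_mul, e]
    by_cases hT : (0 : Fin N) ∈ T
    · rw [hk0 _ _ hT, hk0 _ _ hT]
    · rw [hk1 _ _ hT h2, hk1 _ _ hT h2, mul_smul]
      exact hf' _ γ.2 _ ((good_std _).smul g)
        (by rw [va_card, Finset.card_insert_of_notMem hT, h2])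
  · obtain ⟨g, hg⟩ := lemT h1
    generalize σ.image col = T at hg
    subst hg
    rw [va_card] at h2
    rw [va_dl]
    by_cases hT : (0 : Fin N) ∈ T
    · rw [Finset.sum_eq_single_of_mem 0 hT]
      · rw [hk1 _ _ (Finset.notMem_erase _ _) (by rw [Finset.card_erase_of_mem hT, h2]; rfl),
          Finset.insert_erase hT]
      · intro c _ hc0
        exact hk0 _ _ (Finset.mem_erase.2 ⟨hc0.symm, hT⟩)
    · have h3 := hc (g • std (insert 0 T)) ((good_std _).smul g)
        (by rw [va_card, Finset.card_insert_of_notMem hT, h2])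
      rw [va_dl, Finset.sum_insert hT, Finset.erase_insert hT] at h3
      have h4 : ∑ c ∈ T, k (g • std (T.erase c))
          = ∑ c ∈ T, f (g • std ((insert 0 T).erase c)) := by
        refine Finset.sum_congr rfl fun c hc => ?_
        rw [hk1 _ _ (fun h => hT (Finset.mem_of_mem_erase h))
          (by rw [Finset.card_erase_of_mem hc, h2]; rfl),
          Finset.erase_insert_of_ne (by rintro rfl; exact hT hc)]
      rw [h4]
      have h5 := CharTwo.add_self_eq_zero (f (g • std T))
      exact add_left_cancel (h3.trans h5.symm)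

theorem va_step {K 𝔽 : Type} [Field K] [Finite K] [Field 𝔽] [CharP 𝔽 2] {N : ℕ}
    (hK : Odd (Nat.card K)) (ψ : AddChar K 𝔽) (hψ : ∀ a, a ≠ 0 → ψ a ≠ 1) (i s : ℕ) (hs : 1 ≤ s)
    (IH : Van (fun _ : Gam K N s => (1 : 𝔽)) (Good : Finset (Vx K N) → Prop) i)
    (hB : ∀ Y : Matrix (Fin N) (Fin N) K, (∀ c : K, Y ≠ c • 1) →
      ∀ χ : Gam K N s →* 𝔽, (∀ γ : Gam K N s, χ γ = ψ (Y * kap s γ.1).trace) →
      Van χ (Good : Finset (Vx K N) → Prop) i) :
    Van (fun _ : Gam K N (s + 1) => (1 : 𝔽)) (Good : Finset (Vx K N) → Prop) i := by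
  classical
  intro f hf hc
  let _ : Fintype K := Fintype.ofFinite K
  let tr : Matrix (Fin N) (Fin N) K → Matrix (Fin N) (Fin N) K →+ K := fun Y =>
    { toFun := fun Z => (Y * Z).trace
      map_zero' := by simp
      map_add' := fun a b => by rw [Matrix.mul_add, Matrix.trace_add] }
  let tl : Matrix (Fin N) (Fin N) K → Matrix (Fin N) (Fin N) K →+ K := fun Z =>
    { toFun := fun Y => (Y * Z).trace
      map_zero' := by simp
      map_add' := fun a b => by rw [Matrix.add_mul, Matrix.trace_add] }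
  let χ : Matrix (Fin N) (Fin N) K → AddChar (Matrix (Fin N) (Fin N) K) 𝔽 := fun Y =>
    ψ.compAddMonoidHom (tr Y)
  have hχ : ∀ Y Z, χ Y Z = ψ (Y * Z).trace := fun _ _ => rfl
  have hκ : ∀ γ γ' : Gam K N s, kap s (γ * γ').1 = kap s γ.1 + kap s γ'.1 :=
    fun γ γ' => kap_mul hs γ.2 γ'.2
  obtain ⟨k, hk1, hk2⟩ := van_step (Γ := Gam K N s) (V := Vx K N) (fun γ => kap s γ.1) hκ χ
    (by
      simp only [AddChar.map_zero_eq_one, Finset.sum_const, Finset.card_univ, nsmul_eq_mul, mul_one]
      have : Odd (Fintype.card (Matrix (Fin N) (Fin N) K)) := by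
        have e : Fintype.card (Matrix (Fin N) (Fin N) K) = Fintype.card K ^ (N * N) := by
          change Fintype.card (Fin N → Fin N → K) = _
          simp [pow_mul]
        rw [e, ← Nat.card_eq_fintype_card]
        exact hK.pow
      obtain ⟨m, hm⟩ := this
      rw [hm]; push_cast
      rw [show (2 : 𝔽) = 0 from CharTwo.two_eq_zero]; simp)
    (by
      intro a ha
      have : ∑ Y, χ Y a = ∑ Y, (ψ.compAddMonoidHom (tl a)) Y := rfl
      rw [this]
      refine AddChar.sum_eq_zero_of_ne_one (AddChar.ne_one_iff.2 ?_)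
      obtain ⟨u, v, huv⟩ : ∃ u v, a u v ≠ 0 := by
        by_contra h
        push Not at h
        exact ha (Matrix.ext h)
      refine ⟨Matrix.single v u 1, ?_⟩
      have : (ψ.compAddMonoidHom (tl a)) (Matrix.single v u 1)
          = ψ (Matrix.single v u 1 * a).trace := rfl
      rw [this, Matrix.trace_single_mul]
      simpa using hψ _ huv)
    Good good_down (fun γ σ h => h.smul γ.1) i
    (by
      intro Y
      by_cases hY : ∃ c : K, Y = c • 1
      · obtain ⟨c, rfl⟩ := hY
        have : (fun γ : Gam K N s => χ (c • 1) (kap s γ.1)) = fun _ => (1 : 𝔽) := by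
          funext γ
          rw [hχ, Matrix.smul_mul, Matrix.one_mul, Matrix.trace_smul, trace_kap hs γ.2]
          simp
        rw [this]; exact IH
      · push Not at hY
        let χ' : Gam K N s →* 𝔽 :=
          { toFun := fun γ => χ Y (kap s γ.1)
            map_one' := by
              have : kap s (1 : Gam K N s).1 = 0 := (kap_eq_zero (1 : Gam K N s).2).2 (one_mem _)
              rw [this, AddChar.map_zero_eq_one]
            map_mul' := fun γ γ' => by rw [hκ, AddChar.map_add_eq_mul] }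
        exact hB Y hY χ' fun γ => rfl)
    f
    (by
      intro γ σ h0 h1 h2
      have := hf ⟨γ.1, (kap_eq_zero γ.2).1 h0⟩ σ h1 h2
      rw [one_mul] at this
      exact this)
    hc
  refine ⟨k, fun γ σ h1 h2 => ?_, hk2⟩
  have hγ : γ.1 ∈ Gam K N s := Gam_anti (Nat.le_succ s) γ.2
  rw [one_mul]
  exact hk1 ⟨γ.1, hγ⟩ σ ((kap_eq_zero hγ).2 γ.2) h1 h2

theorem va_retract {Γ V 𝔽 : Type} [DecidableEq V] [Group Γ] [MulAction Γ V] [Field 𝔽]
    [Algebra (ZMod 2) 𝔽] (L : Finset V → Prop) (i : ℕ)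
    (h : Van (fun _ : Γ => (1 : 𝔽)) L i) : Van (fun _ : Γ => (1 : ZMod 2)) L i := by
  intro f hf hc
  obtain ⟨r, hr⟩ := LinearMap.exists_leftInverse_of_injective (Algebra.linearMap (ZMod 2) 𝔽)
    (LinearMap.ker_eq_bot.2 (algebraMap (ZMod 2) 𝔽).injective)
  have hr' : ∀ a, r (algebraMap (ZMod 2) 𝔽 a) = a := fun a => LinearMap.congr_fun hr a
  obtain ⟨k, hk1, hk2⟩ := h (fun σ => algebraMap (ZMod 2) 𝔽 (f σ))
    (fun γ σ h1 h2 => by simp only [hf γ σ h1 h2, one_mul])
    (fun σ h1 h2 => by
      have := congrArg (algebraMap (ZMod 2) 𝔽) (hc σ h1 h2)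
      rw [dl, map_sum, map_zero] at this
      exact this)
  refine ⟨fun σ => r (k σ), fun γ σ h1 h2 => ?_, fun σ h1 h2 => ?_⟩
  · rw [one_mul]
    have := hk1 γ σ h1 h2
    rw [one_mul] at this
    simp only [this]
  · have := congrArg r (hk2 σ h1 h2)
    rw [dl, map_sum, hr'] at this
    exact this

/-- vanishing of the `F_2`-cohomology of the congruence quotients -/
theorem van_all (i : ℕ) : ∃ N0 : ℕ, ∀ N : ℕ, N0 ≤ N → ∀ (p : ℕ) [Fact p.Prime], 2 < p →
    (∀ ρ : Finset (Vx (ZMod p) N), Face ρ → ρ.Nonempty → ∀ n, n + ρ.card < N →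
      ∃ M, Contr (LL ρ) n M) →
    ∀ s : ℕ, 1 ≤ s → Van (fun _ : Gam (ZMod p) N s => (1 : ZMod 2))
      (Good : Finset (Vx (ZMod p) N) → Prop) i := by
  obtain ⟨N0, hN0⟩ := claimB i
  refine ⟨max N0 (i + 3), fun N hN p hp h2p hcontr s hs => ?_⟩
  have : NeZero N := ⟨by have := le_of_max_le_right hN; omega⟩
  have hch : ringChar (ZMod 2) ≠ ringChar (ZMod p) := by
    rw [ZMod.ringChar_zmod_n, ZMod.ringChar_zmod_n]; omega
  let P := AddChar.FiniteField.primitiveChar (ZMod p) (ZMod 2) hch
  let 𝔽 := CyclotomicField P.n (ZMod 2)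
  have : CharP 𝔽 2 := charP_of_injective_algebraMap (algebraMap (ZMod 2) 𝔽).injective 2
  have hψ : ∀ a, a ≠ 0 → P.char a ≠ 1 := fun a ha h =>
    ha ((P.prim.zmod_char_eq_one_iff p a).1 h)
  have h2 : (2 : ZMod p) ≠ 0 := by
    intro h
    have : ((2 : ℕ) : ZMod p) = 0 := by exact_mod_cast h
    rw [ZMod.natCast_eq_zero_iff] at this
    have := Nat.le_of_dvd (by norm_num) this
    omega
  have hodd : Odd (Nat.card (ZMod p)) := by
    rw [Nat.card_zmod]
    exact hp.out.odd_of_ne_two (by omega)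
  refine va_retract (𝔽 := 𝔽) _ _ ?_
  induction s, hs using Nat.le_induction with
  | base => exact van_one 𝔽 i
  | succ s hs ih =>
    refine va_step hodd P.char hψ i s hs ih fun Y hY χ hχ => ?_
    exact claimA (Gam (ZMod p) N s) χ (odd_stab h2 _ (Gam_anti hs)) hcontr i
      (le_of_max_le_right hN)
      (hN0 N (le_of_max_le_left hN) (ZMod p) 𝔽 h2 s hs P.char hψ Y hY χ hχ)

end Vale.Agent.P067
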