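import Vale.Agent.P067.FinA
import Vale.Agent.P067.FillL
import Vale.Agent.P067.VanAll
import Vale.Agent.P067.Glob
import Vale.Agent.P067.Asm

namespace Vale.Agent.P067

open Filter

theorem main (d : ℕ) (hd : 1 ≤ d) : ∃ (D : ℕ) (ε : ℝ), 0 < ε ∧ ∃ X : ℕ → Cx d,
    Tendsto (fun m => ((X m).face 0).card) atTop atTop ∧
    ∀ m, (X m).Connected ∧ (X m).degree ≤ D ∧ (X m).IsCobExp ε := by
  choose N0 hN0 using van_all
  set N := (Finset.range d).sup N0 + d + 4 with hN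
  choose M0 P0 hMP using contrL N
  set M := (Finset.range N).sup M0
  obtain ⟨l, hl, hglob⟩ := locGlob N (2 ^ N * M)
  obtain ⟨p, hp1, hp2⟩ := Nat.exists_infinite_primes
    ((Finset.range N).sup P0 + ⌈4 / l ^ 2⌉₊ + 3)
  have : Fact p.Prime := ⟨hp2⟩
  have hcard : Nat.card (ZMod p) = p := Nat.card_zmod p
  have hM : ∀ ρ : Finset (Vx (ZMod p) N), Face ρ → ρ.Nonempty → ∀ n, n + ρ.card < N →
      Contr (LL ρ) n M := by
    intro ρ h1 h2 n hn
    have hn' : n ∈ Finset.range N := Finset.mem_range.2 (by omega)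
    have := Finset.le_sup (f := P0) hn'
    exact (hMP n (ZMod p) (by omega) ρ h1 h2 hn).mono_M (Finset.le_sup (f := M0) hn')
  have hlq : 4 ≤ l ^ 2 * Nat.card (ZMod p) := by
    rw [hcard]
    have h1 : (4 / l ^ 2 : ℝ) ≤ p := (Nat.le_ceil _).trans (by exact_mod_cast (by omega))
    rwa [div_le_iff₀ (by positivity), mul_comm] at h1
  set D := ∑ R' : Finset (Fin N), Nat.card (HH (ZMod p) R')
  obtain ⟨C, hC⟩ := hglob D
  obtain ⟨D', ε, hε, hasm⟩ := assemble N d D C hd (by omega)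
  have key : ∀ m : ℕ, ∃ X : Cx d, (X.Connected ∧ X.degree ≤ D' ∧ X.IsCobExp ε) ∧
      m + 2 ≤ D * (X.face 0).card := by
    intro m
    have := finite_quot (K := ZMod p) (N := N) (m + 2)
    have := Fintype.ofFinite (Om (ZMod p) N (m + 2))
    obtain ⟨π, hπ1, hπ⟩ := fin_exists_pi (K := ZMod p) (N := N) (m + 2)
    have hs : 2 ≤ m + 2 := by omega
    have hv : ∀ j, 1 ≤ j → j ≤ d → VanA π j := by
      intro j h1 h2
      obtain ⟨i, rfl⟩ : ∃ i, j = i + 1 := ⟨j - 1, by omega⟩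
      have := Finset.le_sup (f := N0) (Finset.mem_range.2 (show i < d by omega))
      exact fin_vanA hs hπ i (hN0 i N (by omega) p (by omega)
        (fun ρ h1 h2 n hn => ⟨M, hM ρ h1 h2 n hn⟩) (m + 2) (by omega))
    have hD : ∀ R ω, R.Nonempty → (loc π R ω).card ≤ D := fun R ω hR => fin_loc_card hs hπ hR ω
    obtain ⟨X, h1, h2, h3, h4⟩ := hasm _ π hπ1 hD fun j h1 h2 =>
      hC _ _ π (fin_linkExp hs hπ M hM) (fin_mix hs (by omega) hπ l hl.le hlq) hD
        (hv 1 le_rfl hd) j h1 (by omega) (hv j h1 h2)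
    refine ⟨X, ⟨h1, h2, h3⟩, le_trans ?_ h4⟩
    rw [← Nat.card_eq_fintype_card]
    exact card_quot (by omega) _
  choose X hX1 hX2 using key
  refine ⟨D', ε, hε, X, tendsto_atTop_atTop.2 fun b => ⟨D * b, fun m hm => ?_⟩, hX1⟩
  by_contra hc
  have := hX2 m
  have := Nat.mul_le_mul_left D (not_le.1 hc).le
  omega

end Vale.Agent.P067
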