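import Vale.Agent.P067.CsD
import Vale.Agent.P067.Chain

namespace Vale.Agent.P067

open Finset

/-- coboundary expansion of a link from a bounded contraction and a chamber-transitive group -/
theorem linkExp_of_contr {Ω V U H : Type} [Fintype Ω] [Group H] [Fintype H] [DecidableEq U]
    [MulAction H U] {N : ℕ} (π : Ω → Fin N → V) (R : Finset (Fin N)) (ω0 : Ω)
    (lam : Fin N → U) (col : U → Fin N) (hcol : ∀ (h : H) c, col (h • lam c) = c)
    (e : H → Ω) (he : Function.Injective e) (hr : ∀ ω, ω ∈ loc π R ω0 ↔ ∃ h, e h = ω)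
    (hπ : ∀ h h' c, c ∉ R → (π (e h) c = π (e h') c ↔ h • lam c = h' • lam c))
    (L : Finset U → Prop)
    (hL : ∀ τ, L τ ↔ ∃ (h : H) (T : Finset (Fin N)), Disjoint T R ∧
      τ = T.image fun c => h • lam c)
    (n M : ℕ) (hn : n + R.card + 1 = N) (hc : Contr L n M) :
    LinkExp π (2 ^ N * M) R ω0 := by
  classical
  intro j hj F hF
  obtain ⟨c, hc⟩ := hc
  set face : H → Finset (Fin N) → Finset U := fun h T => T.image fun c => h • lam c with hface
  have hinj : ∀ h : H, Function.Injective fun c => h • lam c := fun h a b hab => by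
    rw [← hcol h a, ← hcol h b]; exact congrArg col hab
  have hfcol : ∀ h T, (face h T).image col = T := fun h T => by
    simp only [hface, image_image, Function.comp_def, hcol, image_id']
  have hfcard : ∀ h T, (face h T).card = T.card := fun h T => card_image_of_injective _ (hinj h)
  have hferase : ∀ h T a, (face h T).erase (h • lam a) = face h (T.erase a) := fun h T a =>
    (image_erase (hinj h) T a).symm
  have hdl : ∀ (g : Finset U → ZMod 2) h T, dl g (face h T) = ∑ a ∈ T, g (face h (T.erase a)) := by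
    intro g h T
    unfold dl
    rw [hface]
    simp only
    rw [sum_image fun a _ b _ hab => hinj h hab]
    exact sum_congr rfl fun a _ => congrArg g (hferase h T a)
  have hact : ∀ h0 h T, (face h T).image (fun u => h0 • u) = face (h0 * h) T := fun h0 h T => by
    simp only [hface, image_image, Function.comp_def, mul_smul]
  have hmem : ∀ h, e h ∈ loc π R ω0 := fun h => (hr _).2 ⟨h, rfl⟩
  set f : Finset U → ZMod 2 := fun τ =>
    if hx : ∃ h, τ = face h (τ.image col) then F (e hx.choose) (τ.image col ∪ R) else 0 with hf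
  have hfv : ∀ h T, Disjoint T R → f (face h T) = F (e h) (T ∪ R) := by
    intro h T hT
    have hx : ∃ h', face h T = face h' ((face h T).image col) := ⟨h, by rw [hfcol]⟩
    have h1 := hx.choose_spec
    simp only [hf, dif_pos hx]
    generalize hx.choose = h' at h1
    rw [hfcol] at h1 ⊢
    refine hF _ _ _ fun a ha => ?_
    rcases mem_union.1 ha with ha | ha
    · refine (hπ _ _ a (disjoint_left.1 hT ha)).2 ?_
      have : h' • lam a ∈ face h T := h1 ▸ mem_image_of_mem _ ha
      obtain ⟨b, -, hb⟩ := mem_image.1 this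
      have hab : b = a := by rw [← hcol h b, ← hcol h' a]; exact congrArg col hb
      rw [← hb, hab]
    · exact (mem_loc.1 (hmem h') a ha).trans (mem_loc.1 (hmem h) a ha).symm
  set f' : H → Finset U → ZMod 2 := fun h0 x => f (x.image fun u => h0 • u) with hf'
  set κ : H → Finset U → ZMod 2 := fun h0 τ =>
    Finsupp.linearCombination (ZMod 2) (f' h0) (c (τ.image fun u => h0⁻¹ • u)) with hκ
  set K : H → Ω → Finset (Fin N) → ZMod 2 := fun h0 ω T =>
    if R ⊆ T ∧ ω ∈ loc π R ω0 then κ h0 (face (Function.invFun e ω) (T \ R)) else 0 with hK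
  have hinv : ∀ h, Function.invFun e (e h) = h := Function.leftInverse_invFun he
  have hKi : ∀ h0, Inv π (K h0) := by
    intro h0 T ω ω' hrel
    simp only [hK]
    by_cases hT : R ⊆ T
    · have hl : ω ∈ loc π R ω0 ↔ ω' ∈ loc π R ω0 := by
        rw [mem_loc, mem_loc]
        exact ⟨fun h a ha => (hrel a (hT ha)).symm.trans (h a ha),
          fun h a ha => (hrel a (hT ha)).trans (h a ha)⟩
      by_cases hω : ω ∈ loc π R ω0
      · obtain ⟨h, rfl⟩ := (hr _).1 hω
        obtain ⟨h', rfl⟩ := (hr _).1 (hl.1 hω)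
        rw [if_pos ⟨hT, hω⟩, if_pos ⟨hT, hl.1 hω⟩, hinv, hinv]
        congr 1
        exact image_congr fun a ha =>
          (hπ _ _ a (mem_sdiff.1 ha).2).1 (hrel a (mem_sdiff.1 ha).1)
      · rw [if_neg fun h => hω h.2, if_neg fun h => hω (hl.2 h.2)]
    · rw [if_neg fun h => hT h.1, if_neg fun h => hT h.1]
  have hval : ∀ h0 g T, R ⊆ T → T.card = j → (F + dR R (K h0)) (e (h0 * g)) T =
      ∑ x ∈ (c (face g (T \ R))).support, dl (f' h0) x := by
    intro h0 g T hT hcard
    have hd : Disjoint (T \ R) R := sdiff_disjoint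
    have hcn : (face g (T \ R)).card ≤ n := by
      rw [hfcard, card_sdiff_of_subset hT]; omega
    obtain ⟨-, -, h2⟩ := hc (face g (T \ R)) ((hL _).2 ⟨g, _, hd, rfl⟩) hcn
    have h3 := lc_bd (f' h0) (c (face g (T \ R)))
    rw [h2, map_add, map_sum, ch_lc_sx, ch_map_eq _ (c (face g (T \ R)))] at h3
    simp only [ch_lc_sx] at h3
    rw [← h3]
    have h4 := hdl (fun τ => Finsupp.linearCombination (ZMod 2) (f' h0) (c τ)) g (T \ R)
    unfold dl at h4
    rw [h4]
    simp only [Pi.add_apply, dR, hf', hact]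
    rw [hfv _ _ hd, sdiff_union_of_subset hT]
    congr 1
    refine sum_congr rfl fun a ha => ?_
    have h5 : R ⊆ T.erase a := fun b hb =>
      mem_erase.2 ⟨fun e => (mem_sdiff.1 ha).2 (e ▸ hb), hT hb⟩
    simp only [hK, hκ]
    rw [if_pos ⟨h5, hmem _⟩, hinv, hact, inv_mul_cancel_left, erase_sdiff_comm]
  set W := Wt (loc π R ω0) R (j + 1) (dR R F) with hW
  have hcount : ∀ x, L x → x.card + R.card = j + 1 →
      (univ.filter fun h0 : H => dl (f' h0) x ≠ 0).card ≤ W := by
    intro x hx hcard
    obtain ⟨g, T, hT, rfl⟩ := (hL x).1 hx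
    change (face g T).card + R.card = j + 1 at hcard
    rw [hfcard] at hcard
    refine card_le_card_of_injOn (fun h0 => (e (h0 * g), T ∪ R)) (fun h0 hh => ?_) ?_
    · have h1 := (mem_filter.1 hh).2
      change dl (f' h0) (face g T) ≠ 0 at h1
      refine mem_filter.2 ⟨mem_product.2 ⟨hmem _, mem_univ _⟩, subset_union_right,
        by rw [card_union_of_disjoint hT, hcard], fun h2 => h1 ?_⟩
      rw [hdl, ← h2]
      simp only [hf', hact, dR]
      rw [union_sdiff_right, sdiff_eq_self_of_disjoint hT]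
      refine sum_congr rfl fun a ha => ?_
      rw [hfv _ _ (hT.mono_left (erase_subset a T)), erase_union_distrib,
        erase_eq_of_notMem (disjoint_left.1 hT ha)]
    · intro a _ b _ hab
      exact mul_right_cancel (he (congrArg Prod.fst hab))
  set ind : H → H × Finset (Fin N) → Prop := fun h0 z => R ⊆ z.2 ∧ z.2.card = j ∧
    ∑ x ∈ (c (face z.1 (z.2 \ R))).support, dl (f' h0) x ≠ 0 with hind
  have h1 : ∀ h0, Wt (loc π R ω0) R j (F + dR R (K h0)) ≤ (univ.filter (ind h0)).card := by
    intro h0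
    refine le_trans (card_le_card fun z hz => ?_)
      (card_image_le (f := fun z : H × Finset (Fin N) => (e (h0 * z.1), z.2)))
    obtain ⟨hz1, hz2, hz3, hz4⟩ := mem_filter.1 hz
    obtain ⟨h, hh⟩ := (hr _).1 (mem_product.1 hz1).1
    refine mem_image.2 ⟨(h0⁻¹ * h, z.2), mem_filter.2 ⟨mem_univ _, hz2, hz3, ?_⟩, ?_⟩
    · rw [← hval h0 _ _ hz2 hz3, mul_inv_cancel_left, hh]
      exact hz4
    · simp only [mul_inv_cancel_left, hh]
  have h2 : ∀ z : H × Finset (Fin N), (univ.filter fun h0 => ind h0 z).card ≤ M * W := by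
    rintro ⟨g, T⟩
    by_cases hT : R ⊆ T ∧ T.card = j
    · have hd : Disjoint (T \ R) R := sdiff_disjoint
      have hcd : (face g (T \ R)).card + R.card = j := by
        rw [hfcard, card_sdiff_add_card_eq_card hT.1, hT.2]
      obtain ⟨h3, h4, -⟩ := hc _ ((hL _).2 ⟨g, _, hd, rfl⟩) (by
        change (face g (T \ R)).card ≤ n
        omega)
      change InCh L ((face g (T \ R)).card + 1) (c (face g (T \ R))) at h3
      refine le_trans (card_le_card (t := (c (face g (T \ R))).support.biUnion fun x =>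
        univ.filter fun h0 : H => dl (f' h0) x ≠ 0) fun h0 hh => ?_) ?_
      · obtain ⟨x, hx, hx'⟩ := exists_ne_zero_of_sum_ne_zero (mem_filter.1 hh).2.2.2
        exact mem_biUnion.2 ⟨x, hx, mem_filter.2 ⟨mem_univ _, hx'⟩⟩
      · refine card_biUnion_le.trans ((sum_le_card_nsmul _ _ W fun x hx =>
          hcount x (h3 x hx).1 (by rw [(h3 x hx).2]; omega)).trans ?_)
        exact Nat.mul_le_mul_right _ h4
    · rw [filter_eq_empty_iff.2 fun h0 _ h => hT ⟨h.1, h.2.1⟩]
      exact Nat.zero_le _
  have h3 : ∑ h0 : H, Wt (loc π R ω0) R j (F + dR R (K h0)) ≤ ∑ _h0 : H, 2 ^ N * M * W := by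
    refine (sum_le_sum fun h0 _ => h1 h0).trans ?_
    simp only [card_filter]
    rw [sum_comm]
    refine (sum_le_card_nsmul _ _ _ fun z _ => (card_filter _ _).ge.trans (h2 z)).trans ?_
    simp [card_univ, mul_assoc]
  obtain ⟨h0, -, hh⟩ := exists_le_of_sum_le univ_nonempty h3
  exact ⟨K h0, hKi h0, hh⟩

end Vale.Agent.P067
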