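import Vale.Agent.P067.LemT
import Vale.Agent.P067.Stab
import Vale.Agent.P067.MixG

namespace Vale.Agent.P067

open scoped Pointwise

variable {K : Type} [Field K] {N : ℕ}

theorem rk2_idx (g : GG K N) (c : Fin N) (k : ℤ) :
    idx (sh k (g • (lam c : Vx K N)).1) = c + k * N := by
  rw [idx_sh (Vx.com _), ← col_val, col_smul, col_lam]

theorem rk2_le (g : GG K N) {c c' : Fin N} {k k' : ℤ} (h : (c : ℤ) + k * N ≤ c' + k' * N) :
    sh k (g • (lam c : Vx K N)).1 ≤ sh k' (g • (lam c' : Vx K N)).1 := by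
  have f := (good_std (K := K) (Finset.univ : Finset (Fin N))).1
  have f1 : CmpL (lam c : Vx K N).1 (lam c' : Vx K N).1 :=
    f _ (Finset.mem_image_of_mem _ (Finset.mem_univ c)) _
      (Finset.mem_image_of_mem _ (Finset.mem_univ c'))
  have f2 : CmpL (g • (lam c : Vx K N)).1 (g • (lam c' : Vx K N)).1 := by
    rw [Vx.smul_val, Vx.smul_val]; exact f1.gm g
  refine (f2.sh k k').le_of_idx ((Vx.com _).sh k) ((Vx.com _).sh k') ?_
  rwa [rk2_idx, rk2_idx]

/-- a lattice of index `n` fixed by `HH K R` -/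
theorem rk2_fix {R : Finset (Fin N)} {a b : Fin N} (hR : ∀ c, c ≠ a → c ≠ b → c ∈ R) (n : ℤ)
    (ha : ∀ k : ℤ, n ≠ a + k * N) (hb : ∀ k : ℤ, n ≠ b + k * N) : ∃ M : Sb K N, Com M ∧ idx M = n ∧
      (∀ (g : HH K R) (c : Fin N) (k : ℤ), c + k * N ≤ n → sh k (g • (lam c : Vx K N)).1 ≤ M) ∧
      ∀ (g : HH K R) (c : Fin N) (k : ℤ), n ≤ c + k * N → M ≤ sh k (g • (lam c : Vx K N)).1 := by
  have hN : (0 : ℤ) < N := by exact_mod_cast a.pos
  have h1 := Int.emod_nonneg n hN.ne'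
  have h2 := Int.emod_lt_of_pos n hN
  obtain ⟨c, e⟩ : ∃ c : Fin N, n = c + n / N * N :=
    ⟨⟨(n % N).toNat, by omega⟩, by simp [Int.toNat_of_nonneg h1, Int.emod_add_ediv_mul]⟩
  have hc : ∀ g : HH K R, (g : GG K N) • (lam c : Vx K N) = lam c := fun g =>
    mem_HH.1 g.2 c (hR c (fun h => ha _ (h ▸ e)) fun h => hb _ (h ▸ e))
  refine ⟨sh (n / N) (lam c : Vx K N).1, (Vx.com _).sh _, ?_, fun g c' k h => ?_, fun g c' k h => ?_⟩
  · rw [← one_smul (GG K N) (lam c), rk2_idx, ← e]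
  · rw [← hc g]; exact rk2_le _ (h.trans_eq e)
  · rw [← hc g]; exact rk2_le _ (e.symm.trans_le h)

theorem rk2_ex {L H : Sb K N} (hL : Com L) (hH : Com H) (h : idx L < idx H) :
    ∃ x ∈ H, x ∉ L := by
  by_contra hc
  push Not at hc
  exact (idx_le hH hL hc).not_gt h

theorem rk2_span_le {L H : Sb K N} (h : L ≤ H) {x : VV K N} (hx : x ∈ H) : L ⊔ K ∙ x ≤ H :=
  sup_le h ((Submodule.span_singleton_le_iff_mem _ _).2 hx)

theorem rk2_pts [Finite K] {lo hi : Sb K N} (h1 : Com lo) (h2 : Com hi) (hle : lo ≤ hi)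
    (hi3 : idx hi = idx lo + 3) : ∃ f : (K × K) ⊕ K ⊕ Unit → Sb K N,
      ∀ P, lo ≤ P → P ≤ hi → idx P = idx lo + 1 → P ∈ Set.range f := by
  obtain ⟨x, x1, x2⟩ := rk2_ex h1 h2 (by omega)
  have i1 := idx_span_eq h1 x2
  obtain ⟨y, y1, y2⟩ := rk2_ex (h1.span x) h2 (by omega)
  have i2 := idx_span_eq (h1.span x) y2
  obtain ⟨z, z1, z2⟩ := rk2_ex ((h1.span x).span y) h2 (by omega)
  have i3 := idx_span_eq ((h1.span x).span y) z2
  have e := eq_of_le_of_idx (((h1.span x).span y).span z) h2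
    (rk2_span_le (rk2_span_le (rk2_span_le hle x1) y1) z1) (by omega)
  let f : (K × K) ⊕ K ⊕ Unit → VV K N :=
    Sum.elim (fun p => x + p.1 • y + p.2 • z) (Sum.elim (fun p => y + p • z) fun _ => z)
  refine ⟨fun t => lo ⊔ K ∙ f t, fun P p1 p2 p3 => ?_⟩
  have hP := h1.between h2 p1 p2
  obtain ⟨v, v1, v2⟩ := rk2_ex h1 hP (by omega)
  obtain ⟨t, c, w, hw, rfl⟩ : ∃ t, ∃ c : K, ∃ w ∈ lo, v = w + c • f t := by
    have := p2 v1
    simp only [← e, Submodule.mem_sup, Submodule.mem_span_singleton] at this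
    obtain ⟨_, ⟨_, ⟨w, hw, _, ⟨α, rfl⟩, rfl⟩, _, ⟨β, rfl⟩, rfl⟩, _, ⟨γ, rfl⟩, rfl⟩ := this
    by_cases hα : α = 0
    · by_cases hβ : β = 0
      · exact ⟨.inr (.inr ()), γ, w, hw, by simp [f, hα, hβ]⟩
      · exact ⟨.inr (.inl (β⁻¹ * γ)), β, w, hw, by simp [f, hα, hβ, smul_smul, add_assoc]⟩
    · exact ⟨.inl (α⁻¹ * β, α⁻¹ * γ), α, w, hw, by simp [f, hα, smul_smul, add_assoc]⟩
  have hc : c ≠ 0 := fun h => v2 (by simpa [h] using hw)
  have f1 : f t ∈ P := (P.smul_mem_iff hc).1 ((P.add_mem_iff_right (p1 hw)).1 v1)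
  have f2 : f t ∉ lo := fun h => v2 (lo.add_mem hw (lo.smul_mem c h))
  exact ⟨t, eq_of_le_of_idx (h1.span _) hP (rk2_span_le p1 f1) (by rw [idx_span_eq h1 f2, p3])⟩

theorem rk2_sup {P Q W : Sb K N} (hP : Com P) (hQ : Com Q) (hW : Com W) (h1 : P ≤ W) (h2 : Q ≤ W)
    (hi : idx P = idx Q) (hi' : idx W = idx P + 1) (hne : P ≠ Q) : P ⊔ Q = W := by
  refine eq_of_le_of_idx (hP.sup hQ) hW (sup_le h1 h2) ?_
  have := idx_lt hP (hP.sup hQ) (lt_of_le_of_ne le_sup_left fun e =>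
    hne (eq_of_le_of_idx hQ hP (le_sup_right.trans e.ge) hi.le).symm)
  omega

theorem rk2_ne (hN : 4 ≤ N) {d k : ℤ} (h0 : d ≠ 0) (h1 : -N < d) (h2 : d < N) : d ≠ k * N := by
  rintro rfl
  rcases lt_trichotomy k 0 with h | h | h
  · nlinarith
  · simp [h] at h0
  · nlinarith

theorem rk2_adj [Finite K] (hN : 4 ≤ N) {R : Finset (Fin N)} {a b : Fin N} (hab : a ≠ b)
    (ha : a ∉ R) (hb : b ∉ R) (hR : ∀ c, c ≠ a → c ≠ b → c ∈ R) [Fintype (HH K R)] {k : ℤ}
    (hk : (b : ℤ) + k * N = a + 1) (l : ℝ) (hl : 0 ≤ l) (hlq : 4 ≤ l ^ 2 * Nat.card K) :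
    MixOn Finset.univ (fun g : HH K R => g • (lam a : Vx K N))
      (fun g : HH K R => g • (lam b : Vx K N)) l := by
  have root : ∀ c d : Fin N, c ≠ d → d ∉ R → ∃ f : Fin (Nat.card K) → HH K R,
      (∀ i, f i • (lam c : Vx K N) = lam c) ∧
        Function.Injective fun i => f i • (lam d : Vx K N) := fun c d h hd => by
    obtain ⟨x, x1, x2⟩ := exists_root (K := K) (by omega) d
    exact ⟨fun i => ⟨x ((Finite.equivFin K).symm i),
      mem_HH.2 fun c' hc' => x1 _ _ fun e => hd (e ▸ hc')⟩, fun i => x1 _ _ h,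
      x2.comp (Finite.equivFin K).symm.injective⟩
  have ia : ∀ g : HH K R, idx (g • (lam a : Vx K N)).1 = a := fun g => by
    simpa using! rk2_idx (g : GG K N) a 0
  refine mix_plane _ _ (Nat.card K) Nat.card_pos (root a b hab hb) (root b a hab.symm ha) ?_
    (fun g1 g2 g3 g4 e1 e2 e3 e4 ne => ?_) l hl hlq
  · obtain ⟨lo, l1, l2, -, l4⟩ := rk2_fix (K := K) hR (a - 1)
      (fun j e => rk2_ne hN (d := -1) (k := j) (by omega) (by omega) (by omega) (by linarith))
      fun j e => rk2_ne hN (d := -2) (k := j - k) (by omega) (by omega) (by omega) (by linarith)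
    obtain ⟨hi, i1, i2, i3, -⟩ := rk2_fix (K := K) hR (a + 2)
      (fun j e => rk2_ne hN (d := 2) (k := j) (by omega) (by omega) (by omega) (by linarith))
      fun j e => rk2_ne hN (d := 1) (k := j - k) (by omega) (by omega) (by omega) (by linarith)
    have p1 : ∀ g : HH K R, lo ≤ (g • (lam a : Vx K N)).1 := fun g => by
      simpa using l4 g a 0 (by omega)
    have p2 : ∀ g : HH K R, (g • (lam a : Vx K N)).1 ≤ hi := fun g => by
      simpa using i3 g a 0 (by omega)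
    obtain ⟨f, hf⟩ := rk2_pts l1 i1 ((p1 1).trans (p2 1)) (by omega)
    rw [← Set.ncard_image_of_injective _ (f := fun u : Vx K N => u.1) fun _ _ => Vx.ext]
    refine (Set.ncard_le_ncard (t := Set.range f) ?_ (Set.finite_range f)).trans ?_
    · rintro _ ⟨_, ⟨g, rfl⟩, rfl⟩
      exact hf _ (p1 g) (p2 g) (by rw [ia]; omega)
    · rw [← Set.image_univ]
      refine (Set.ncard_image_le Set.finite_univ).trans_eq ?_
      simp [Set.ncard_univ, sq, add_assoc]
  · have key : ∀ g g' : HH K R, g • (lam b : Vx K N) = g' • lam b →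
        g • (lam a : Vx K N) ≠ g' • lam a →
        (g • (lam a : Vx K N)).1 ⊔ (g' • (lam a : Vx K N)).1 = sh k (g • (lam b : Vx K N)).1 := by
      intro g g' e ne
      have le : ∀ g : HH K R, (g • (lam a : Vx K N)).1 ≤ sh k (g • (lam b : Vx K N)).1 := fun g => by
        simpa using! rk2_le (g : GG K N) (c := a) (c' := b) (k := 0) (k' := k) (by omega)
      refine rk2_sup (Vx.com _) (Vx.com _) ((Vx.com _).sh k) (le g) (e ▸ le g') (by rw [ia, ia]) ?_
        fun h => ne (Vx.ext h)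
      rw [ia]
      exact (rk2_idx (g : GG K N) b k).trans hk
    have k1 := key g1 g2 e3 ne
    rw [e1, e2, key g3 g4 e4 (e1 ▸ e2 ▸ ne)] at k1
    exact (Vx.ext (sh_inj.1 k1)).symm

theorem rk2_far {R : Finset (Fin N)} {a b : Fin N} (hN : 4 ≤ N) (ha : a ∉ R) (hb : b ∉ R)
    (hR : ∀ c, c ≠ a → c ≠ b → c ∈ R) (h1 : (a : ℤ) + 1 < b) (h2 : (b : ℤ) + 1 < a + N)
    (g g' : HH K R) : ∃ g'' : HH K R, g'' • (lam a : Vx K N) = g • lam a ∧
      g'' • (lam b : Vx K N) = g' • lam b := by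
  obtain ⟨M, -, -, m1, m2⟩ := rk2_fix (K := K) hR (a + 1)
    (fun j e => rk2_ne hN (d := 1) (k := j) (by omega) (by omega) (by omega) (by linarith))
    fun j e => rk2_ne hN (d := a + 1 - b) (k := j) (by omega) (by omega) (by omega) (by linarith)
  obtain ⟨M', -, -, n1, n2⟩ := rk2_fix (K := K) hR (b + 1)
    (fun j e => rk2_ne hN (d := b + 1 - a) (k := j) (by omega) (by omega) (by omega) (by linarith))
    fun j e => rk2_ne hN (d := 1) (k := j) (by omega) (by omega) (by omega) (by linarith)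
  have c : CmpL (g • (lam a : Vx K N)).1 (g' • (lam b : Vx K N)).1 := cmpL_of_window (Vx.lat _)
    (by simpa using (m1 g a 0 (by omega)).trans (m2 g' b 0 (by omega)))
    (by simpa using (n1 g' b 0 (by omega)).trans (n2 g a 1 (by omega)))
  have one : ∀ (g : HH K R) (c : Fin N), c ∉ R → LL (std R) {g • (lam c : Vx K N)} := fun g c hc =>
    lemT_rel.2 ⟨g, {c}, by simpa using hc, by simp⟩
  obtain ⟨a1, a2, a3⟩ := one g a ha
  obtain ⟨b1, b2, b3⟩ := one g' b hb
  have hL : LL (std R) {g • (lam a : Vx K N), g' • (lam b : Vx K N)} := by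
    refine ⟨?_, ?_, ?_⟩
    · rw [Finset.disjoint_insert_right]
      exact ⟨Finset.disjoint_singleton_right.1 a1, b1⟩
    · intro u hu w hw
      simp only [Finset.mem_union, Finset.mem_insert, Finset.mem_singleton] at hu hw
      rcases hu with hu | rfl | rfl <;> rcases hw with hw | rfl | rfl
      · exact a2 _ (by simp [hu]) _ (by simp [hw])
      · exact a2 _ (by simp [hu]) _ (by simp)
      · exact b2 _ (by simp [hu]) _ (by simp)
      · exact a2 _ (by simp) _ (by simp [hw])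
      · exact (Vx.lat _).cmpL_self
      · exact c
      · exact b2 _ (by simp) _ (by simp [hw])
      · exact c.symm
      · exact (Vx.lat _).cmpL_self
    · rw [Rs_subset_iff] at a3 b3 ⊢
      intro u hu
      rcases Finset.mem_insert.1 hu with rfl | hu
      · exact a3 _ (Finset.mem_singleton_self _)
      · exact b3 _ hu
  obtain ⟨h, T, -, e⟩ := lemT_rel.1 hL
  have key : ∀ (g : HH K R) (c : Fin N), g • (lam c : Vx K N) ∈
      T.image (fun c => h • (lam c : Vx K N)) → h • (lam c : Vx K N) = g • lam c := fun g c hc => by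
    obtain ⟨c', -, e'⟩ := Finset.mem_image.1 hc
    have : c' = c := by
      have := congrArg col e'
      rwa [Subgroup.smul_def, Subgroup.smul_def, col_smul, col_smul, col_lam, col_lam] at this
    rwa [this] at e'
  exact ⟨h, key g a (e ▸ by simp), key g' b (e ▸ by simp)⟩

theorem mix_rank2 [Finite K] (hN : 4 ≤ N) (R : Finset (Fin N)) (a b : Fin N) (hab : a ≠ b)
    (ha : a ∉ R) (hb : b ∉ R) (hR : R.card + 2 = N) [Fintype (HH K R)] (l : ℝ) (hl : 0 ≤ l)
    (hlq : 4 ≤ l ^ 2 * Nat.card K) :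
    MixOn Finset.univ (fun g : HH K R => g • (lam a : Vx K N))
      (fun g : HH K R => g • (lam b : Vx K N)) l := by
  wlog hlt : a < b generalizing a b
  · exact (this b a hab.symm hb ha (lt_of_le_of_ne (not_lt.1 hlt) hab.symm)).symm
  have hR' : ∀ c, c ≠ a → c ≠ b → c ∈ R := fun c h1 h2 => by
    have : insert a (insert b R) = Finset.univ := Finset.eq_univ_of_card _ (by
      rw [Finset.card_insert_of_notMem (by simp [hab, ha]), Finset.card_insert_of_notMem hb,
        Fintype.card_fin]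
      omega)
    simpa [h1, h2] using this.ge (Finset.mem_univ c)
  have h0 : (a : ℕ) < b := hlt
  have := b.2
  by_cases h1 : (b : ℤ) = a + 1
  · exact rk2_adj hN hab ha hb hR' (k := 0) (by omega) l hl hlq
  by_cases h2 : (b : ℤ) + 1 = a + N
  · exact (rk2_adj hN hab.symm hb ha (fun c c1 c2 => hR' c c2 c1) (k := 1) (by omega) l hl hlq).symm
  · exact (mix_prod _ _ (rk2_far hN ha hb hR' (by omega) (by omega))).mono hl

end Vale.Agent.P067
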