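import Vale.Agent.P067.LemT
import Vale.Agent.P067.Stab
import Vale.Agent.P067.LinkE
import Vale.Agent.P067.Rk2

namespace Vale.Agent.P067

open scoped Pointwise

variable {K : Type} [Field K] {N : ℕ}

abbrev Om (K : Type) [Field K] (N s : ℕ) : Type := GG K N ⧸ Gam K N s

def PiSpec (s : ℕ) (π : Om K N s → Fin N → ℕ) : Prop :=
  ∀ (g g' : GG K N) c, π (g : Om K N s) c = π (g' : Om K N s) c ↔
    ∃ h : GG K N, h • (lam c : Vx K N) = lam c ∧ (g * h)⁻¹ * g' ∈ Gam K N s

theorem fin_exists_pi [Finite K] (s : ℕ) : ∃ π : Om K N s → Fin N → ℕ,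
    (∀ ω ω' c c', π ω c = π ω' c' → c = c') ∧ PiSpec s π := by
  have := finite_quot (K := K) (N := N) s
  let Hb : Fin N → Subgroup (Om K N s) := fun c =>
    (MulAction.stabilizer (GG K N) (lam c : Vx K N)).map (QuotientGroup.mk' _)
  obtain ⟨enc, henc⟩ := exists_injective_nat (Σ c : Fin N, Om K N s ⧸ Hb c)
  refine ⟨fun ω c => enc ⟨c, (ω : Om K N s ⧸ Hb c)⟩, fun ω ω' c c' h => ?_, fun g g' c => ?_⟩
  · exact (Sigma.mk.inj (henc h)).1
  · rw [henc.eq_iff, Sigma.mk.inj_iff, heq_eq_eq, QuotientGroup.eq]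
    simp only [true_and, Hb, Subgroup.mem_map, MulAction.mem_stabilizer_iff]
    refine exists_congr fun h => and_congr_right fun _ => ?_
    rw [QuotientGroup.mk'_apply, ← QuotientGroup.mk_inv, ← QuotientGroup.mk_mul, QuotientGroup.eq,
      mul_inv_rev, mul_assoc]

theorem fin_rel [Finite K] {s : ℕ} (hs : 2 ≤ s) [Fintype (Om K N s)] {π : Om K N s → Fin N → ℕ}
    (hπ : PiSpec s π) {T : Finset (Fin N)} (hT : T.Nonempty) (g g' : GG K N) :
    rel π T (g' : Om K N s) (g : Om K N s) ↔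
      ∃ h ∈ HH K T, ((g * h : GG K N) : Om K N s) = (g' : Om K N s) := by
  constructor
  · intro h
    obtain ⟨c0, hc0⟩ := hT
    obtain ⟨h0, h01, h02⟩ := (hπ g g' c0).1 (h c0 hc0).symm
    refine ⟨h0, mem_HH.2 fun c hc => ?_, QuotientGroup.eq.2 h02⟩
    obtain ⟨h1, h11, h12⟩ := (hπ g g' c).1 (h c hc).symm
    have : h0 = h1 := by
      refine eq_of_Gam hs h01 h11 ?_
      have := (Gam K N s).mul_mem h02 ((Gam K N s).inv_mem h12)
      convert this using 1
      group
    rw [this, h11]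
  · rintro ⟨h, hh, e⟩ c hc
    exact ((hπ g g' c).2 ⟨h, mem_HH.1 hh c hc, QuotientGroup.eq.1 e⟩).symm

theorem fin_local [Finite K] {s : ℕ} (hs : 2 ≤ s) [Fintype (Om K N s)]
    {π : Om K N s → Fin N → ℕ} (hπ : PiSpec s π) {R : Finset (Fin N)} (hR : R.Nonempty)
    (ω0 : Om K N s) : ∃ e : HH K R → Om K N s, Function.Injective e ∧
      (∀ ω, ω ∈ loc π R ω0 ↔ ∃ h, e h = ω) ∧
      ∀ h h' c, π (e h) c = π (e h') c ↔ h • (lam c : Vx K N) = h' • lam c := by
  obtain ⟨g0, rfl⟩ := QuotientGroup.mk_surjective ω0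
  obtain ⟨r, hr⟩ := id hR
  refine ⟨fun h => ((g0 * h.1 : GG K N) : Om K N s), fun h h' e => ?_, fun ω => ?_,
    fun h h' c => ?_⟩
  · refine Subtype.ext (eq_of_Gam hs (mem_HH.1 h.2 r hr) (mem_HH.1 h'.2 r hr) ?_)
    have := QuotientGroup.eq.1 e
    convert this using 1
    group
  · obtain ⟨g, rfl⟩ := QuotientGroup.mk_surjective ω
    rw [mem_loc, fin_rel hs hπ hR]
    exact ⟨fun ⟨h, hh, e⟩ => ⟨⟨h, hh⟩, e⟩, fun ⟨h, e⟩ => ⟨h.1, h.2, e⟩⟩
  · rw [hπ]
    constructor
    · rintro ⟨k, hk, hk'⟩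
      have : k = h.1⁻¹ * h'.1 := by
        refine eq_of_Gam hs hk (mem_HH.1 (h⁻¹ * h').2 r hr) ?_
        convert hk' using 1
        group
      rw [this, mul_smul, inv_smul_eq_iff] at hk
      exact hk.symm
    · intro e
      refine ⟨h.1⁻¹ * h'.1, ?_, ?_⟩
      · rw [mul_smul, inv_smul_eq_iff]; exact e.symm
      · convert (Gam K N s).one_mem using 1
        group

theorem fin_loc_card [Finite K] {s : ℕ} (hs : 2 ≤ s) [Fintype (Om K N s)]
    {π : Om K N s → Fin N → ℕ} (hπ : PiSpec s π) {R : Finset (Fin N)} (hR : R.Nonempty)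
    (ω0 : Om K N s) : (loc π R ω0).card ≤ ∑ R' : Finset (Fin N), Nat.card (HH K R') := by
  classical
  obtain ⟨e, -, he, -⟩ := fin_local hs hπ hR ω0
  have := finite_HH (K := K) hR
  have := Fintype.ofFinite (HH K R)
  refine le_trans ?_ (Finset.single_le_sum (f := fun R' : Finset (Fin N) => Nat.card (HH K R'))
    (fun _ _ => Nat.zero_le _) (Finset.mem_univ R))
  have : loc π R ω0 = Finset.univ.image e := by
    ext ω; simp [he]
  rw [this, Nat.card_eq_fintype_card]
  exact Finset.card_image_le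

theorem Contr.mono_M {V : Type} [DecidableEq V] {L : Finset V → Prop} {n M M' : ℕ}
    (h : Contr L n M) (hM : M ≤ M') : Contr L n M' := by
  obtain ⟨c, hc⟩ := h
  exact ⟨c, fun σ h1 h2 => ⟨(hc σ h1 h2).1, (hc σ h1 h2).2.1.trans hM, (hc σ h1 h2).2.2⟩⟩

theorem lam_injective : Function.Injective (lam : Fin N → Vx K N) := fun a b h => by
  rw [← col_lam (K := K) a, h, col_lam]

theorem card_std (T : Finset (Fin N)) : (std T : Finset (Vx K N)).card = T.card :=
  Finset.card_image_of_injective _ lam_injective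

theorem fin_linkExp [Finite K] {s : ℕ} (hs : 2 ≤ s) [Fintype (Om K N s)]
    {π : Om K N s → Fin N → ℕ} (hπ : PiSpec s π) (M : ℕ)
    (hM : ∀ ρ : Finset (Vx K N), Face ρ → ρ.Nonempty → ∀ n, n + ρ.card < N → Contr (LL ρ) n M)
    (R : Finset (Fin N)) (ω0 : Om K N s) (hR : R.Nonempty) : LinkExp π (2 ^ N * M) R ω0 := by
  by_cases hc : R.card < N
  · obtain ⟨e, he1, he2, he3⟩ := fin_local hs hπ hR ω0
    have := finite_HH (K := K) hR
    have := Fintype.ofFinite (HH K R)
    refine linkExp_of_contr π R ω0 lam col (fun h c => ?_) e he1 he2 (fun h h' c _ => he3 h h' c)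
      (LL (std R)) (fun τ => lemT_rel) (N - 1 - R.card) M (by omega) ?_
    · rw [Subgroup.smul_def, col_smul, col_lam]
    · exact hM _ (good_std R).1 (hR.image _) _ (by rw [card_std]; omega)
  · intro j hj F _
    refine ⟨0, fun _ _ _ _ => rfl, le_trans (le_of_eq ?_) (Nat.zero_le _)⟩
    rw [Wt, Finset.card_eq_zero, Finset.filter_eq_empty_iff]
    rintro x - ⟨h1, h2, -⟩
    have := Finset.card_le_card h1
    omega

theorem fin_mix [Finite K] {s : ℕ} (hs : 2 ≤ s) (hN : 4 ≤ N) [Fintype (Om K N s)]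
    {π : Om K N s → Fin N → ℕ} (hπ : PiSpec s π) (l : ℝ) (hl : 0 ≤ l)
    (hlq : 4 ≤ l ^ 2 * Nat.card K) (R : Finset (Fin N)) (ω0 : Om K N s) (a b : Fin N)
    (hab : a ≠ b) (ha : a ∉ R) (hb : b ∉ R) (hR : R.card + 2 = N) : Mix π l R ω0 a b := by
  have hR' : R.Nonempty := Finset.card_pos.1 (by omega)
  obtain ⟨e, he1, he2, he3⟩ := fin_local hs hπ hR' ω0
  have := finite_HH (K := K) hR'
  have := Fintype.ofFinite (HH K R)
  exact mixOn_transfer _ _ _ _ _ e he1 he2 (fun h h' e => (he3 h h' a).2 e)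
    (fun h h' e => (he3 h h' b).2 e) l (mix_rank2 hN R a b hab ha hb hR l hl hlq)

theorem smul_std (g : GG K N) (T : Finset (Fin N)) :
    g • (std T : Finset (Vx K N)) = T.image fun c => g • (lam c : Vx K N) := by
  rw [std, Finset.smul_finset_def, Finset.image_image]; rfl

theorem smul_lam_injective (g : GG K N) :
    Function.Injective fun c : Fin N => g • (lam c : Vx K N) :=
  (MulAction.injective g).comp lam_injective

theorem dl_smul_std {M : Type} [AddCommMonoid M] (f : Finset (Vx K N) → M) (g : GG K N)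
    (T : Finset (Fin N)) : dl f (g • std T) = ∑ c ∈ T, f (g • std (T.erase c)) := by
  rw [dl, smul_std, Finset.sum_image fun _ _ _ _ h => smul_lam_injective g h]
  refine Finset.sum_congr rfl fun c _ => ?_
  rw [smul_std, Finset.image_erase (smul_lam_injective g)]

theorem card_smul_std (g : GG K N) (T : Finset (Fin N)) :
    (g • (std T : Finset (Vx K N))).card = T.card := by
  rw [Finset.card_smul_finset, card_std]

theorem fin_vanA [Finite K] {s : ℕ} (hs : 2 ≤ s) [Fintype (Om K N s)]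
    {π : Om K N s → Fin N → ℕ} (hπ : PiSpec s π) (i : ℕ)
    (hv : Van (fun _ : Gam K N s => (1 : ZMod 2)) (Good : Finset (Vx K N) → Prop) i) :
    VanA π (i + 1) := by
  classical
  intro F hF hd
  let f : Finset (Vx K N) → ZMod 2 := fun σ =>
    if h : ∃ x : GG K N × Finset (Fin N), σ = x.1 • std x.2 then
      F (h.choose.1 : Om K N s) h.choose.2 else 0
  have hf : ∀ (g : GG K N) T, f (g • std T) = F (g : Om K N s) T := by
    intro g T
    have h : ∃ x : GG K N × Finset (Fin N), g • (std T : Finset (Vx K N)) = x.1 • std x.2 :=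
      ⟨(g, T), rfl⟩
    obtain ⟨h1, h2⟩ := smul_std_eq h.choose_spec
    simp only [f, dif_pos h]
    rw [← h1]
    refine hF _ _ _ fun c hc => ((hπ _ _ c).2 ⟨g⁻¹ * h.choose.1, ?_, ?_⟩).symm
    · rw [mul_smul, inv_smul_eq_iff]; exact (h2 c hc).symm
    · convert (Gam K N s).one_mem using 1
      group
  obtain ⟨k, hk1, hk2⟩ := hv f (by
    intro γ σ hσ _
    obtain ⟨g, hg⟩ := lemT hσ
    rw [hg, Subgroup.smul_def, smul_smul, hf, hf, one_mul]
    congr 1
    rw [QuotientGroup.eq]
    have := (inferInstance : (Gam K N s).Normal).conj_mem' _ ((Gam K N s).inv_mem γ.2) g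
    convert this using 1
    group) (by
    intro σ hσ hc
    obtain ⟨g, hg⟩ := lemT hσ
    rw [hg, card_smul_std] at hc
    rw [hg, dl_smul_std]
    simp only [hf]
    have := hd (g : Om K N s) _ hc
    rwa [dR, Finset.sdiff_empty] at this)
  have key : ∀ (g g' : GG K N) (T : Finset (Fin N)), T.card = i →
      rel π T (g' : Om K N s) (g : Om K N s) → k (g' • std T) = k (g • std T) := by
    intro g g' T hT hrel
    rcases T.eq_empty_or_nonempty with rfl | hne
    · simp [std]
    obtain ⟨h, hh, e⟩ := (fin_rel hs hπ hne g g').1 hrel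
    have e1 := QuotientGroup.eq.1 e
    have e2 := (inferInstance : (Gam K N s).Normal).conj_mem _ e1 (g * h)
    have e3 : h • (std T : Finset (Vx K N)) = std T := by
      rw [smul_std, std]
      exact Finset.image_congr fun c hc => mem_HH.1 hh c hc
    have := hk1 ⟨_, e2⟩ ((g * h) • std T) ((good_std T).smul _) (by rw [card_smul_std, hT])
    rw [one_mul, Subgroup.smul_def, smul_smul, mul_smul g h, e3] at this
    rw [← this]
    congr 2
    group
  refine ⟨fun ω T => if T.card = i then k (ω.out • std T) else 0, fun T ω ω' h => ?_,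
    fun ω T hT => ?_⟩
  · by_cases hT : T.card = i
    · simp only [if_pos hT]
      exact key _ _ _ hT (by simpa using h)
    · simp only [if_neg hT]
  · have := hk2 (ω.out • std T) ((good_std T).smul _) (by rw [card_smul_std, hT])
    rw [hf, dl_smul_std, QuotientGroup.out_eq'] at this
    rw [← this, dR, Finset.sdiff_empty]
    refine Finset.sum_congr rfl fun c hc => ?_
    rw [if_pos]
    rw [Finset.card_erase_of_mem hc, hT]; rfl

end Vale.Agent.P067
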