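import Vale.Agent.P067.LatD

namespace Vale.Agent.P067

open scoped LaurentPolynomial Polynomial Pointwise Matrix

variable {K : Type} [Field K] {N : ℕ}

theorem flow_lvl_ex {x : VV K N} (hx : x ≠ 0) (u : Vx K N) :
    ∃ k : ℤ, x ∈ sh k u.1 ∧ x ∉ sh (k - 1) u.1 := by
  obtain ⟨a, b, ha, hb⟩ := u.com
  obtain ⟨k0, hk0⟩ := exists_mem_Std x
  obtain ⟨i, m, hm⟩ : ∃ i m, (x i).coeff m ≠ 0 := by
    by_contra hh
    push Not at hh
    apply hx
    funext i
    ext m
    simp [hh i m]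
  obtain ⟨k, hk, hmin⟩ := Int.exists_least_of_bdd (P := fun k => x ∈ sh k u.1)
    ⟨m - b, fun k hk => by
      have h1 := sh_mono k hb hk
      rw [sh_Std] at h1
      by_contra hlt
      exact hm (mem_Std.1 h1 i m (by omega))⟩
    ⟨k0 - a, by
      apply sh_mono _ ha
      rw [sh_Std]
      exact Std_mono (by omega) hk0⟩
  exact ⟨k, hk, fun h => by have := hmin _ h; omega⟩

theorem flow_lvl_uniq {x : VV K N} {u : Vx K N} {k l : ℤ}
    (hk : x ∈ sh k u.1 ∧ x ∉ sh (k - 1) u.1) (hl : x ∈ sh l u.1 ∧ x ∉ sh (l - 1) u.1) : k = l := by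
  rcases lt_trichotomy k l with h | h | h
  · exact absurd (u.lat.sh_le (by omega) hk.1) hl.2
  · exact h
  · exact absurd (u.lat.sh_le (by omega) hl.1) hk.2

noncomputable def flowLvl (x : VV K N) (u : Vx K N) : ℤ :=
  Classical.epsilon fun k : ℤ => x ∈ sh k u.1 ∧ x ∉ sh (k - 1) u.1

theorem flowLvl_spec {x : VV K N} (hx : x ≠ 0) (u : Vx K N) :
    x ∈ sh (flowLvl x u) u.1 ∧ x ∉ sh (flowLvl x u - 1) u.1 :=
  Classical.epsilon_spec (flow_lvl_ex hx u)

noncomputable def flowRp (x : VV K N) (u : Vx K N) : Sb K N := sh (flowLvl x u) u.1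

theorem flowRp_lat (x : VV K N) (u : Vx K N) : Lat (flowRp x u) := u.lat.sh _

theorem flowRp_mem {x : VV K N} (hx : x ≠ 0) (u : Vx K N) : x ∈ flowRp x u :=
  (flowLvl_spec hx u).1

theorem flowRp_notMem {x : VV K N} (hx : x ≠ 0) (u : Vx K N) : shl 1 x ∉ flowRp x u := by
  intro h
  apply (flowLvl_spec hx u).2
  have : sh (flowLvl x u - 1) u.1 = sh (-1) (flowRp x u) := by
    rw [flowRp, sh_sh]; congr 1; ring
  rw [this, mem_sh]
  simpa using h

theorem flow_ac_ne {x : VV K N} (hx : x ≠ 0) (g : GG K N) : ac g x ≠ 0 := by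
  intro h
  exact hx ((ac g).map_eq_zero_iff.1 h)

theorem flowRp_gm {x : VV K N} (hx : x ≠ 0) (g : GG K N) (u : Vx K N) :
    flowRp (ac g x) (g • u) = gm g (flowRp x u) := by
  have h : flowLvl (ac g x) (g • u) = flowLvl x u := by
    refine flow_lvl_uniq (flowLvl_spec (flow_ac_ne hx g) _) ?_
    rw [Vx.smul_val, ← gm_sh, ← gm_sh, ac_mem_gm, ac_mem_gm]
    exact flowLvl_spec hx u
  rw [flowRp, h, Vx.smul_val, ← gm_sh, flowRp]

noncomputable def flowO (x : VV K N) : Sb K N :=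
  Submodule.span K (Set.range fun j : ℕ => shl (-(j : ℤ)) x)

theorem flowO_mem (x : VV K N) {m : ℤ} (hm : m ≤ 0) : shl m x ∈ flowO x := by
  refine Submodule.subset_span ⟨(-m).toNat, ?_⟩
  have : (-(((-m).toNat : ℕ) : ℤ)) = m := by omega
  simp only [this]

theorem flowO_gm (g : GG K N) (x : VV K N) : gm g (flowO x) = flowO (ac g x) := by
  rw [gm, flowO, Submodule.map_span, ← Set.range_comp, flowO]
  congr 2
  funext j
  exact ac_shl g _ x

theorem flowO_sh (x : VV K N) : sh (-1) (flowO x) ≤ flowO x := by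
  rw [sh, flowO, Submodule.map_span, Submodule.span_le]
  rintro _ ⟨_, ⟨j, rfl⟩, rfl⟩
  change shl (-1) (shl (-(j : ℤ)) x) ∈ flowO x
  rw [shl_shl]
  exact flowO_mem x (by omega)

theorem flowO_le_sh (x : VV K N) : flowO x ≤ sh 1 (flowO x) := le_sh_iff.2 (flowO_sh x)

theorem flowO_le {L : Sb K N} (hL : Lat L) {x : VV K N} (hx : x ∈ L) : flowO x ≤ L := by
  rw [flowO, Submodule.span_le]
  rintro _ ⟨j, rfl⟩
  exact hL.sh_le_self (k := -(j : ℤ)) (by omega) (shl_mem_sh.2 hx)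

theorem flow_lat_sup {L : Sb K N} (hL : Lat L) (x : VV K N) : Lat (L ⊔ flowO x) := by
  obtain ⟨k, hk⟩ := exists_mem_Std x
  refine ⟨?_, ?_⟩
  · exact hL.1.between (hL.1.sup (com_Std k)) le_sup_left
      (sup_le_sup_left (flowO_le (lat_Std k) hk) _)
  · rw [sh_sup]
    exact sup_le_sup hL.2 (flowO_sh x)

noncomputable def flowA (x : VV K N) (n : ℕ) (u : Vx K N) : Sb K N :=
  sh (-(n : ℤ)) (flowRp x u) ⊔ flowO x

theorem flowA_lat (x : VV K N) (n : ℕ) (u : Vx K N) : Lat (flowA x n u) :=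
  flow_lat_sup ((flowRp_lat x u).sh _) x

theorem flow_window {x : VV K N} (hx : x ≠ 0) {u w : Vx K N} (h : CmpL u.1 w.1)
    (hi : idx (flowRp x u) ≤ idx (flowRp x w)) :
    flowRp x u ≤ flowRp x w ∧ flowRp x w ≤ sh 1 (flowRp x u) := by
  have hc : CmpL (flowRp x u) (flowRp x w) := h.sh _ _
  refine ⟨hc.le_of_idx (flowRp_lat x u).1 (flowRp_lat x w).1 hi, ?_⟩
  rcases hc 1 with h1 | h1
  · exact absurd (h1 (shl_mem_sh.2 (flowRp_mem hx u))) (flowRp_notMem hx w)
  · exact h1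

theorem flow_comm (n : ℤ) (L : Sb K N) : sh n (sh 1 L) = sh 1 (sh n L) := by
  rw [sh_sh, sh_sh, add_comm]

theorem flow_cmp_same {x : VV K N} (hx : x ≠ 0) (n : ℕ) {u w : Vx K N} (h : CmpL u.1 w.1) :
    CmpL (flowA x n u) (flowA x n w) := by
  have key : ∀ u w : Vx K N, CmpL u.1 w.1 → idx (flowRp x u) ≤ idx (flowRp x w) →
      CmpL (flowA x n u) (flowA x n w) := by
    intro u w h hi
    obtain ⟨h1, h2⟩ := flow_window hx h hi
    refine cmpL_of_window (flowA_lat x n u) (sup_le_sup_right (sh_mono _ h1) _) ?_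
    rw [flowA, flowA, sh_sup, ← flow_comm]
    exact sup_le_sup (sh_mono _ h2) (flowO_le_sh x)
  rcases le_total (idx (flowRp x u)) (idx (flowRp x w)) with hi | hi
  · exact key u w h hi
  · exact (key w u h.symm hi).symm

theorem flow_cmp_succ {x : VV K N} (hx : x ≠ 0) (n : ℕ) {u w : Vx K N} (h : CmpL u.1 w.1)
    (hi : idx (flowRp x u) ≤ idx (flowRp x w)) :
    CmpL (flowA x n u) (flowA x (n + 1) w) := by
  obtain ⟨h1, h2⟩ := flow_window hx h hi
  have e : sh 1 (flowA x (n + 1) w) = sh (-(n : ℤ)) (flowRp x w) ⊔ sh 1 (flowO x) := by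
    rw [flowA, sh_sup, sh_sh]
    congr 2
    push_cast; ring
  have hc : CmpL (flowA x n u) (sh 1 (flowA x (n + 1) w)) := by
    rw [e]
    refine cmpL_of_window (flowA_lat x n u) (sup_le_sup (sh_mono _ h1) (flowO_le_sh x)) ?_
    rw [flowA, sh_sup, ← flow_comm]
    exact sup_le_sup_right (sh_mono _ h2) _
  have := hc.sh 0 (-1)
  simpa [sh_sh] using this

theorem flow_smul_mem (x : VV K N) (f : K[T;T⁻¹]) (hf : ∀ m, 0 < m → f.coeff m = 0) :
    f • x ∈ flowO x := by
  have e : f = ∑ m ∈ f.coeff.support, LaurentPolynomial.C (f.coeff m) * LaurentPolynomial.T m := by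
    ext m
    rw [AddMonoidAlgebra.coeff_sum, Finsupp.finset_sum_apply, Finset.sum_eq_single m]
    · rw [lp_coeff_C_mul]; simp
    · intro b _ hbm
      rw [lp_coeff_C_mul]; simp [hbm]
    · intro hm
      rw [Finsupp.notMem_support_iff.1 hm]; simp
  rw [e, Finset.sum_smul]
  refine Submodule.sum_mem _ fun m hm => ?_
  have hm0 : m ≤ 0 := by
    by_contra hc
    exact Finsupp.mem_support_iff.1 hm (hf m (not_le.1 hc))
  have : (LaurentPolynomial.C (f.coeff m) * LaurentPolynomial.T m) • x = f.coeff m • shl m x := by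
    funext i
    simp [shl_apply, LaurentPolynomial.smul_eq_C_mul, mul_assoc]
  rw [this]
  exact Submodule.smul_mem _ _ (flowO_mem x hm0)

theorem flow_dot_std (x φ : VV K N) {c k : ℤ} (hφ : φ ∈ (Std c : Sb K N)) (hk : c + k ≤ 0)
    {y : VV K N} (hy : y ∈ (Std k : Sb K N)) : (φ ⬝ᵥ y) • x ∈ flowO x := by
  rw [Std, Sup_eq_span] at hy
  induction hy using Submodule.span_induction with
  | mem y hy =>
    obtain ⟨⟨i, m⟩, hm, rfl⟩ := hy
    have hm' : m < k := hm
    apply flow_smul_mem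
    intro m' hm0
    simp only [mon, dotProduct_single]
    rw [mul_comm, lp_coeff_T_mul]
    exact mem_Std.1 hφ i _ (by omega)
  | zero => simp
  | add y z _ _ hy hz => rw [dotProduct_add, add_smul]; exact Submodule.add_mem _ hy hz
  | smul a y _ hy => rw [dotProduct_smul, smul_assoc]; exact Submodule.smul_mem _ _ hy

theorem flow_dot_O {x φ : VV K N} (h : φ ⬝ᵥ x = 0) {y : VV K N} (hy : y ∈ flowO x) :
    φ ⬝ᵥ y = 0 := by
  rw [flowO] at hy
  induction hy using Submodule.span_induction with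
  | mem y hy =>
    obtain ⟨j, rfl⟩ := hy
    have : shl (-(j : ℤ)) x = (LaurentPolynomial.T (-(j : ℤ)) : K[T;T⁻¹]) • x := by
      funext i; rfl
    simp only [this, dotProduct_smul, h, smul_zero]
  | zero => simp
  | add y z _ _ hy hz => rw [dotProduct_add, hy, hz, add_zero]
  | smul a y _ hy => rw [dotProduct_smul, hy, smul_zero]

/-- the flow of the building towards the cusp of the vector `x` -/
theorem flow_exists [NeZero N] :
    ∃ (κ : VV K N → Vx K N → ℤ) (a : VV K N → ℕ → Vx K N → Vx K N),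
      (∀ (g : GG K N) x u, x ≠ 0 → κ (ac g x) (g • u) = κ x u) ∧
      (∀ (g : GG K N) x n u, x ≠ 0 → a (ac g x) n (g • u) = g • a x n u) ∧
      (∀ x u, x ≠ 0 → a x 0 u = u) ∧
      (∀ x (σ : Finset (Vx K N)), x ≠ 0 → Face σ → Set.InjOn (κ x) σ) ∧
      (∀ x n σ u, x ≠ 0 → Face σ → u ∈ σ →
        Face ((σ.filter fun w => κ x w ≤ κ x u).image (a x n) ∪
          (σ.filter fun w => κ x u ≤ κ x w).image (a x (n + 1)))) ∧
      (∀ x (r : GG K N) (φ : VV K N), x ≠ 0 → φ ⬝ᵥ x = 0 → (∀ y, ac r y = y + (φ ⬝ᵥ y) • x) →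
        ∀ u, ∃ n0, ∀ n, n0 ≤ n → r • a x n u = a x n u) := by
  refine ⟨fun x u => idx (flowRp x u), fun x n u => cls (flowA x n u), ?_, ?_, ?_, ?_, ?_, ?_⟩
  · intro g x u hx
    simp only [flowRp_gm hx, idx_gm]
  · intro g x n u hx
    simp only
    rw [← cls_gm (flowA_lat x n u), flowA, flowA, flowRp_gm hx, gm_sup, gm_sh, flowO_gm]
  · intro x u hx
    simp only [flowA, Nat.cast_zero, neg_zero, sh_zero]
    rw [sup_eq_left.2 (flowO_le (flowRp_lat x u) (flowRp_mem hx u))]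
    exact cls_sh_vx u _
  · intro x σ _ hσ u hu w hw h
    have hc : CmpL (flowRp x u) (flowRp x w) := (hσ u hu w hw).sh _ _
    exact (vx_eq_of_sh (hc.eq_of_idx (flowRp_lat x u).1 (flowRp_lat x w).1 h)).1
  · intro x n σ u hx hσ _ v hv v' hv'
    simp only [Finset.mem_union, Finset.mem_image, Finset.mem_filter] at hv hv'
    rcases hv with ⟨w, ⟨hw, h1⟩, rfl⟩ | ⟨w, ⟨hw, h1⟩, rfl⟩ <;>
      rcases hv' with ⟨w', ⟨hw', h2⟩, rfl⟩ | ⟨w', ⟨hw', h2⟩, rfl⟩ <;>
      rw [cmpL_cls (flowA_lat _ _ _) (flowA_lat _ _ _)]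
    · exact flow_cmp_same hx n (hσ w hw w' hw')
    · exact flow_cmp_succ hx n (hσ w hw w' hw') (h1.trans h2)
    · exact (flow_cmp_succ hx n (hσ w' hw' w hw) (h2.trans h1)).symm
    · exact flow_cmp_same hx (n + 1) (hσ w hw w' hw')
  · intro x r φ _ hφ hr u
    obtain ⟨c, hc⟩ := exists_mem_Std φ
    obtain ⟨-, b, -, hb⟩ := (flowRp_lat x u).1
    refine ⟨(c + b).toNat, fun n hn => ?_⟩
    simp only
    have hle : gm r (flowA x n u) ≤ flowA x n u := by
      rw [flowA, gm_sup]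
      refine sup_le ?_ ?_
      · rintro _ ⟨y, hy, rfl⟩
        change ac r y ∈ _
        rw [hr]
        refine Submodule.add_mem_sup hy (flow_dot_std x φ hc (k := b + -(n : ℤ)) (by omega) ?_)
        rw [← sh_Std]
        exact sh_mono _ hb hy
      · rintro _ ⟨y, hy, rfl⟩
        change ac r y ∈ _
        rw [hr, flow_dot_O hφ hy, zero_smul, add_zero]
        exact Submodule.mem_sup_right hy
    have he := eq_of_le_of_idx ((flowA_lat x n u).1.gm r) (flowA_lat x n u).1 hle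
      (by rw [idx_gm])
    rw [← cls_gm (flowA_lat x n u), he]

end Vale.Agent.P067
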