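import Mathlib

/-! Fredholm pairs of subspaces and their index. -/

namespace Vale.Agent.P067

open Module

variable {K W : Type} [Field K] [AddCommGroup W] [Module K W]

theorem fred_q_eq {U U' : Submodule K W} (h : U ≤ U') [Module.Finite K (W ⧸ U)] :
    finrank K (W ⧸ U) = finrank K (W ⧸ U') + finrank K (U'.map U.mkQ) := by
  rw [← (Submodule.quotientQuotientEquivQuotient U U' h).finrank_eq,
    Submodule.finrank_quotient_add_finrank]

theorem fred_q_fin {U U' : Submodule K W} (h : U ≤ U') [Module.Finite K (W ⧸ U)] :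
    Module.Finite K (W ⧸ U') :=
  Module.Finite.equiv (Submodule.quotientQuotientEquivQuotient U U' h)

theorem fred_q_le {U U' : Submodule K W} (h : U ≤ U') [Module.Finite K (W ⧸ U)] :
    finrank K (W ⧸ U') ≤ finrank K (W ⧸ U) := by
  rw [fred_q_eq h]; omega

theorem fred_q_lt {U U' : Submodule K W} (h : U < U') [Module.Finite K (W ⧸ U)] :
    finrank K (W ⧸ U') < finrank K (W ⧸ U) := by
  rw [fred_q_eq h.le]
  have : 0 < finrank K (U'.map U.mkQ) := by
    rw [Nat.pos_iff_ne_zero]
    intro h0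
    rw [Submodule.finrank_eq_zero] at h0
    obtain ⟨x, hx, hx'⟩ := SetLike.exists_of_lt h
    have : U.mkQ x ∈ U'.map U.mkQ := Submodule.mem_map_of_mem hx
    rw [h0] at this
    exact hx' (by simpa using this)
  omega

theorem fred_q_span (U : Submodule K W) (l : W) [Module.Finite K (W ⧸ U)] :
    finrank K (W ⧸ U) ≤ finrank K (W ⧸ (U ⊔ K ∙ l)) + 1 := by
  rw [fred_q_eq (le_sup_left : U ≤ U ⊔ K ∙ l)]
  have : (U ⊔ K ∙ l).map U.mkQ = K ∙ U.mkQ l := by
    rw [Submodule.map_sup, Submodule.map_span]; simp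
  rw [this]
  have := finrank_span_le_card (R := K) ({U.mkQ l} : Set (W ⧸ U))
  rw [Set.toFinset_singleton, Finset.card_singleton] at this
  omega

/-- Fredholm pair -/
def Fr (L B : Submodule K W) : Prop :=
  Module.Finite K (L ⊓ B : Submodule K W) ∧ Module.Finite K (W ⧸ (L ⊔ B))

noncomputable def ix (L B : Submodule K W) : ℤ :=
  (finrank K (L ⊓ B : Submodule K W) : ℤ) - finrank K (W ⧸ (L ⊔ B))

theorem Fr.symm {L B : Submodule K W} (h : Fr L B) : Fr B L := by
  unfold Fr at *; rw [inf_comm, sup_comm]; exact h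

theorem ix_comm (L B : Submodule K W) : ix L B = ix B L := by
  unfold ix; rw [inf_comm, sup_comm]

theorem fred_fin_of_le {U U' : Submodule K W} (h : U ≤ U') [Module.Finite K U'] :
    Module.Finite K U := Module.Finite.of_injective (Submodule.inclusion h)
      (Submodule.inclusion_injective h)

theorem ix_lt {L L' B : Submodule K W} (h : Fr L B) (h' : Fr L' B) (hlt : L < L') :
    ix L B < ix L' B := by
  have := h.1; have := h.2; have := h'.1; have := h'.2
  have a1 : finrank K (L ⊓ B : Submodule K W) ≤ finrank K (L' ⊓ B : Submodule K W) :=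
    Submodule.finrank_mono (inf_le_inf_right _ hlt.le)
  have a2 : finrank K (W ⧸ (L' ⊔ B)) ≤ finrank K (W ⧸ (L ⊔ B)) :=
    fred_q_le (sup_le_sup_right hlt.le _)
  unfold ix
  by_contra hc
  have e1 : L ⊓ B = L' ⊓ B :=
    Submodule.eq_of_le_of_finrank_eq (inf_le_inf_right _ hlt.le) (by omega)
  have e2 : L ⊔ B = L' ⊔ B := by
    by_contra hne
    have := fred_q_lt (lt_of_le_of_ne (sup_le_sup_right hlt.le B) hne)
    omega
  exact hlt.ne (eq_of_le_of_inf_le_of_le_sup hlt.le (e1.ge.trans inf_le_left) (le_sup_left.trans e2.ge))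

theorem ix_le {L L' B : Submodule K W} (h : Fr L B) (h' : Fr L' B) (hle : L ≤ L') :
    ix L B ≤ ix L' B := by
  rcases hle.eq_or_lt with e | e
  · rw [e]
  · exact (ix_lt h h' e).le

theorem fred_inf_span_of_notMem {L B : Submodule K W} {l : W} (hl : l ∉ L ⊔ B) :
    (L ⊔ K ∙ l) ⊓ B = L ⊓ B := by
  apply le_antisymm _ (inf_le_inf_right _ le_sup_left)
  rintro x ⟨hx, hxB⟩
  obtain ⟨y, hy, z, hz, rfl⟩ := Submodule.mem_sup.1 hx
  obtain ⟨c, rfl⟩ := Submodule.mem_span_singleton.1 hz
  by_cases hc : c = 0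
  · subst hc; exact ⟨by simpa using hy, hxB⟩
  · exfalso; apply hl
    have : l = c⁻¹ • ((y + c • l) - y) := by simp [smul_smul, hc]
    rw [this]
    exact Submodule.smul_mem _ _ (Submodule.sub_mem _ (Submodule.mem_sup_right hxB)
      (Submodule.mem_sup_left hy))

theorem fred_span_cases (L B : Submodule K W) (l : W) :
    ((L ⊔ K ∙ l) ⊓ B = L ⊓ B ∧ (L ⊔ K ∙ l) ⊔ B = (L ⊔ B) ⊔ K ∙ l) ∨
      ((∃ a, (L ⊔ K ∙ l) ⊓ B = (L ⊓ B) ⊔ K ∙ a) ∧ (L ⊔ K ∙ l) ⊔ B = L ⊔ B) := by
  by_cases hl : l ∈ L ⊔ B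
  · right
    obtain ⟨y, hy, a, ha, rfl⟩ := Submodule.mem_sup.1 hl
    have e : L ⊔ K ∙ (y + a) = L ⊔ K ∙ a := by
      apply le_antisymm
      · refine sup_le le_sup_left ((Submodule.span_singleton_le_iff_mem _ _).2 ?_)
        exact Submodule.add_mem _ (Submodule.mem_sup_left hy)
          (Submodule.mem_sup_right (Submodule.mem_span_singleton_self _))
      · refine sup_le le_sup_left ((Submodule.span_singleton_le_iff_mem _ _).2 ?_)
        have : a = (y + a) - y := by simp
        rw [this]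
        exact Submodule.sub_mem _ (Submodule.mem_sup_right (by
          simpa using Submodule.mem_span_singleton_self _)) (Submodule.mem_sup_left hy)
    have ha' : (K ∙ a) ≤ B := (Submodule.span_singleton_le_iff_mem _ _).2 ha
    refine ⟨⟨a, ?_⟩, ?_⟩
    · rw [e, sup_comm L, sup_inf_assoc_of_le _ ha', sup_comm]
    · rw [e, sup_assoc, sup_eq_right.2 ha']
  · left
    exact ⟨fred_inf_span_of_notMem hl, sup_right_comm _ _ _⟩

theorem fred_finrank_sup_span (U : Submodule K W) [Module.Finite K U] (a : W) :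
    finrank K (U ⊔ K ∙ a : Submodule K W) ≤ finrank K U + 1 := by
  have h1 := Submodule.finrank_add_le_finrank_add_finrank U (K ∙ a)
  have h2 := finrank_span_le_card (R := K) ({a} : Set W)
  simp at h2
  omega

theorem Fr.span {L B : Submodule K W} (h : Fr L B) (l : W) : Fr (L ⊔ K ∙ l) B := by
  have := h.1; have := h.2
  refine ⟨?_, fred_q_fin (sup_le_sup_right le_sup_left B)⟩
  rcases fred_span_cases L B l with ⟨e, -⟩ | ⟨⟨a, e⟩, -⟩
  · rw [e]; infer_instance
  · rw [e]; infer_instance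

theorem ix_span_le {L B : Submodule K W} (h : Fr L B) (l : W) :
    ix (L ⊔ K ∙ l) B ≤ ix L B + 1 := by
  have := h.1; have := h.2
  unfold ix
  rcases fred_span_cases L B l with ⟨e, e'⟩ | ⟨⟨a, e⟩, e'⟩
  · rw [e, e']
    have := fred_q_span (L ⊔ B) l
    omega
  · rw [e, e']
    have := fred_finrank_sup_span (L ⊓ B) a
    omega

theorem ix_span_eq {L B : Submodule K W} (h : Fr L B) {l : W} (hl : l ∉ L) :
    ix (L ⊔ K ∙ l) B = ix L B + 1 := by
  have h1 := ix_span_le h l
  have h2 : ix L B < ix (L ⊔ K ∙ l) B := by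
    refine ix_lt h (h.span l) (lt_of_le_of_ne le_sup_left fun e => hl ?_)
    rw [e]; exact Submodule.mem_sup_right (Submodule.mem_span_singleton_self _)
  omega

theorem fred_inf_map (e : W ≃ₗ[K] W) (L B : Submodule K W) :
    finrank K (L.map e.toLinearMap ⊓ B.map e.toLinearMap : Submodule K W)
      = finrank K (L ⊓ B : Submodule K W) := by
  rw [← Submodule.map_inf _ e.injective, LinearEquiv.finrank_map_eq]

theorem fred_q_map (e : W ≃ₗ[K] W) (L B : Submodule K W) :
    finrank K (W ⧸ (L.map e.toLinearMap ⊔ B.map e.toLinearMap)) = finrank K (W ⧸ (L ⊔ B)) := by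
  rw [← Submodule.map_sup]
  exact (Submodule.Quotient.equiv _ _ e rfl).finrank_eq.symm

theorem ix_map (e : W ≃ₗ[K] W) (L B : Submodule K W) :
    ix (L.map e.toLinearMap) (B.map e.toLinearMap) = ix L B := by
  unfold ix; rw [fred_inf_map, fred_q_map]

end Vale.Agent.P067
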