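import Vale.Agent.P067.Fred

/-! The space of Laurent vectors, coordinate subspaces, shift and group action. -/

namespace Vale.Agent.P067

open scoped LaurentPolynomial Polynomial
open Module

abbrev VV (K : Type) [Field K] (N : ℕ) : Type := Fin N → K[T;T⁻¹]
abbrev GG (K : Type) [Field K] (N : ℕ) : Type := Matrix.SpecialLinearGroup (Fin N) K[X]
abbrev Sb (K : Type) [Field K] (N : ℕ) : Type := Submodule K (VV K N)

variable {K : Type} [Field K] {N : ℕ}

theorem lp_coeff_T_mul (k : ℤ) (f : K[T;T⁻¹]) (m : ℤ) :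
    (LaurentPolynomial.T k * f).coeff m = f.coeff (m - k) := by
  rw [LaurentPolynomial.T, AddMonoidAlgebra.coeff_single_mul_apply, one_mul]
  congr 1; ring

theorem lp_coeff_C_mul (c : K) (f : K[T;T⁻¹]) (m : ℤ) :
    (LaurentPolynomial.C c * f).coeff m = c * f.coeff m := by
  rw [← LaurentPolynomial.single_eq_C, AddMonoidAlgebra.coeff_single_mul_apply]
  simp

theorem lp_coeff_toLaurent_nat (f : K[X]) (n : ℕ) : (Polynomial.toLaurent f).coeff n = f.coeff n := by
  rw [LaurentPolynomial.coeff_toLaurent]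
  exact Finsupp.mapDomain_apply Nat.castEmbedding.injective _ n

theorem lp_coeff_toLaurent_neg (f : K[X]) {m : ℤ} (hm : m < 0) :
    (Polynomial.toLaurent f).coeff m = 0 := by
  rw [LaurentPolynomial.coeff_toLaurent]
  apply Finsupp.mapDomain_notin_range
  rintro ⟨n, hn⟩
  simp at hn; omega

theorem lp_coeff_poly_mul (f : K[X]) (x : K[T;T⁻¹]) (m : ℤ) :
    (Polynomial.toLaurent f * x).coeff m = ∑ n ∈ f.support, f.coeff n * x.coeff (m - n) := by
  conv_lhs => rw [f.as_sum_support]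
  rw [map_sum, Finset.sum_mul, AddMonoidAlgebra.coeff_sum, Finsupp.finset_sum_apply]
  refine Finset.sum_congr rfl fun n _ => ?_
  rw [Polynomial.toLaurent_C_mul_T, mul_assoc, lp_coeff_C_mul, lp_coeff_T_mul]

theorem lp_exists_poly (f : K[T;T⁻¹]) (h : ∀ m < 0, f.coeff m = 0) :
    ∃ q : K[X], Polynomial.toLaurent q = f := by
  refine ⟨∑ m ∈ f.coeff.support, Polynomial.monomial m.toNat (f.coeff m), ?_⟩
  ext m
  rw [map_sum, AddMonoidAlgebra.coeff_sum, Finsupp.finset_sum_apply, Finset.sum_eq_single m]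
  · by_cases hm : m < 0
    · rw [lp_coeff_toLaurent_neg _ hm, h m hm]
    · obtain ⟨n, rfl⟩ := Int.eq_ofNat_of_zero_le (not_lt.1 hm)
      rw [lp_coeff_toLaurent_nat]; simp
  · intro b hb hbm
    have hb0 : 0 ≤ b := by
      by_contra hc
      exact (Finsupp.mem_support_iff.1 hb) (h b (not_le.1 hc))
    by_cases hm : m < 0
    · rw [lp_coeff_toLaurent_neg _ hm]
    · obtain ⟨n, rfl⟩ := Int.eq_ofNat_of_zero_le (not_lt.1 hm)
      rw [lp_coeff_toLaurent_nat, Polynomial.coeff_monomial, if_neg]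
      omega
  · intro hm
    rw [Finsupp.notMem_support_iff.1 hm]; simp

/-- coordinate subspace -/
def Sup (E : Set (Fin N × ℤ)) : Sb K N where
  carrier := {x | ∀ i m, (i, m) ∉ E → (x i).coeff m = 0}
  add_mem' := fun {a b} ha hb i m h => by
    simp [AddMonoidAlgebra.coeff_add, ha i m h, hb i m h]
  zero_mem' := fun i m _ => by simp
  smul_mem' := fun c x hx i m h => by
    simp [hx i m h]

theorem mem_Sup {E : Set (Fin N × ℤ)} {x : VV K N} :
    x ∈ (Sup E : Sb K N) ↔ ∀ i m, (i, m) ∉ E → (x i).coeff m = 0 := Iff.rfl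

/-- the monomial vector `t^m e_i` -/
noncomputable def mon (i : Fin N) (m : ℤ) : VV K N := Pi.single i (LaurentPolynomial.T m)

theorem mon_coeff (i j : Fin N) (m n : ℤ) :
    ((mon i m : VV K N) j).coeff n = if j = i ∧ n = m then 1 else 0 := by
  unfold mon
  by_cases h : j = i
  · subst h; simp [eq_comm]
  · simp [h]

noncomputable def vvE : VV K N ≃ₗ[K] (Fin N × ℤ →₀ K) :=
  (LinearEquiv.piCongrRight fun _ => AddMonoidAlgebra.coeffLinearEquiv K).trans
    ((Finsupp.linearEquivFunOnFinite K (ℤ →₀ K) (Fin N)).symm.trans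
      (Finsupp.curryLinearEquiv K).symm)

theorem vvE_apply (x : VV K N) (i : Fin N) (m : ℤ) : vvE x (i, m) = (x i).coeff m := rfl

theorem Sup_eq_comap (E : Set (Fin N × ℤ)) :
    (Sup E : Sb K N) = (Finsupp.supported K K E).comap vvE.toLinearMap := by
  ext x
  rw [mem_Sup, Submodule.mem_comap, Finsupp.mem_supported']
  exact ⟨fun h a ha => h a.1 a.2 ha, fun h i m him => h (i, m) him⟩

theorem Sup_eq_map (E : Set (Fin N × ℤ)) :
    (Sup E : Sb K N) = (Finsupp.supported K K E).map vvE.symm.toLinearMap := by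
  rw [Sup_eq_comap, Submodule.comap_equiv_eq_map_symm]

theorem Sup_mono {E E' : Set (Fin N × ℤ)} (h : E ⊆ E') : (Sup E : Sb K N) ≤ Sup E' :=
  fun _ hx i m him => hx i m fun h' => him (h h')

theorem Sup_inter (E E' : Set (Fin N × ℤ)) : (Sup E ⊓ Sup E' : Sb K N) = Sup (E ∩ E') := by
  simp only [Sup_eq_comap, Finsupp.supported_inter, Submodule.comap_inf]

theorem Sup_union (E E' : Set (Fin N × ℤ)) : (Sup E ⊔ Sup E' : Sb K N) = Sup (E ∪ E') := by
  simp only [Sup_eq_map, Finsupp.supported_union, Submodule.map_sup]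

theorem Sup_univ : (Sup Set.univ : Sb K N) = ⊤ := by
  ext x; simp [mem_Sup]

theorem Sup_empty : (Sup ∅ : Sb K N) = ⊥ := by
  rw [Sup_eq_map, Finsupp.supported_empty, Submodule.map_bot]

theorem mon_mem_Sup {E : Set (Fin N × ℤ)} {i : Fin N} {m : ℤ} :
    (mon i m : VV K N) ∈ (Sup E : Sb K N) ↔ (i, m) ∈ E := by
  constructor
  · intro h
    by_contra hc
    have := h i m hc
    simp [mon_coeff] at this
  · intro h j n hn
    rw [mon_coeff, if_neg]
    rintro ⟨rfl, rfl⟩; exact hn h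

theorem vvE_symm_single (a : Fin N × ℤ) :
    (vvE (K := K)).symm (Finsupp.single a 1) = mon a.1 a.2 := by
  rw [LinearEquiv.symm_apply_eq]
  ext ⟨j, n⟩
  rw [vvE_apply, mon_coeff, Finsupp.single_apply]
  obtain ⟨i, m⟩ := a
  simp [eq_comm]

theorem Sup_eq_span (E : Set (Fin N × ℤ)) :
    (Sup E : Sb K N) = Submodule.span K ((fun a : Fin N × ℤ => (mon a.1 a.2 : VV K N)) '' E) := by
  rw [Sup_eq_map, Finsupp.supported_eq_span_single, Submodule.map_span, Set.image_image]
  congr 2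
  funext a
  exact vvE_symm_single a

theorem Sup_le_iff {E : Set (Fin N × ℤ)} {L : Sb K N} :
    Sup E ≤ L ↔ ∀ i m, (i, m) ∈ E → mon i m ∈ L := by
  rw [Sup_eq_span, Submodule.span_le]
  constructor
  · intro h i m him; exact h ⟨(i, m), him, rfl⟩
  · rintro h _ ⟨a, ha, rfl⟩; exact h a.1 a.2 ha

theorem Sup_insert (E : Set (Fin N × ℤ)) (a : Fin N × ℤ) :
    (Sup (insert a E) : Sb K N) = Sup E ⊔ K ∙ mon a.1 a.2 := by
  rw [Sup_eq_span, Sup_eq_span, Set.image_insert_eq, Submodule.span_insert, sup_comm]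

theorem Sup_finite {E : Set (Fin N × ℤ)} (h : E.Finite) :
    Module.Finite K (Sup E : Sb K N) := by
  rw [Sup_eq_span]
  exact Module.Finite.span_of_finite _ (h.image _)

theorem Sup_finrank {E : Set (Fin N × ℤ)} (h : E.Finite) :
    finrank K (Sup E : Sb K N) = E.ncard := by
  have := h.fintype
  rw [Sup_eq_map, LinearEquiv.finrank_map_eq, (Finsupp.supportedEquivFinsupp E).finrank_eq,
    Module.finrank_finsupp_self, Set.ncard_eq_toFinset_card', Set.toFinset_card]

theorem Sup_isCompl (E : Set (Fin N × ℤ)) : IsCompl (Sup E : Sb K N) (Sup Eᶜ) := by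
  constructor
  · rw [disjoint_iff, Sup_inter, Set.inter_compl_self, Sup_empty]
  · rw [codisjoint_iff, Sup_union, Set.union_compl_self, Sup_univ]

theorem Sup_q_finite {E : Set (Fin N × ℤ)} (h : Eᶜ.Finite) :
    Module.Finite K (VV K N ⧸ (Sup E : Sb K N)) := by
  have := Sup_finite (K := K) h
  exact Module.Finite.equiv (Submodule.quotientEquivOfIsCompl _ _ (Sup_isCompl E)).symm

theorem Sup_q_finrank {E : Set (Fin N × ℤ)} (h : Eᶜ.Finite) :
    finrank K (VV K N ⧸ (Sup E : Sb K N)) = Eᶜ.ncard := by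
  rw [(Submodule.quotientEquivOfIsCompl _ _ (Sup_isCompl E)).finrank_eq, Sup_finrank h]

/-- exponents `< k` -/
def Std (k : ℤ) : Sb K N := Sup {a | a.2 < k}
/-- exponents `≥ k` -/
def Pos (k : ℤ) : Sb K N := Sup {a | k ≤ a.2}
/-- the standard lattice `Std 0 + span (e_i, i < c)` -/
def lamS (c : ℕ) : Sb K N := Sup {a | a.2 < 0 ∨ (a.2 = 0 ∧ a.1.val < c)}

theorem mem_Std {k : ℤ} {x : VV K N} :
    x ∈ (Std k : Sb K N) ↔ ∀ i m, k ≤ m → (x i).coeff m = 0 := by
  simp [Std, mem_Sup]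

theorem mem_Pos {k : ℤ} {x : VV K N} :
    x ∈ (Pos k : Sb K N) ↔ ∀ i m, m < k → (x i).coeff m = 0 := by
  simp [Pos, mem_Sup]

theorem Std_mono {a b : ℤ} (h : a ≤ b) : (Std a : Sb K N) ≤ Std b :=
  Sup_mono fun _ hx => lt_of_lt_of_le hx h

theorem Pos_anti {a b : ℤ} (h : a ≤ b) : (Pos b : Sb K N) ≤ Pos a :=
  Sup_mono fun _ hx => le_trans h hx

theorem Std_sup_Pos {a b : ℤ} (h : b ≤ a) : (Std a ⊔ Pos b : Sb K N) = ⊤ := by
  rw [Std, Pos, Sup_union, ← Sup_univ]
  congr 1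
  ext x; simp; omega

theorem Std_inf_Pos {a b : ℤ} (h : a ≤ b) : (Std a ⊓ Pos b : Sb K N) = ⊥ := by
  rw [Std, Pos, Sup_inter, ← Sup_empty]
  congr 1
  ext x; simp; omega

theorem exists_mem_Std (x : VV K N) : ∃ k, x ∈ (Std k : Sb K N) := by
  obtain ⟨k, hk⟩ := ((vvE x).support.image Prod.snd).bddAbove
  refine ⟨k + 1, mem_Std.2 fun i m hm => ?_⟩
  by_contra hc
  have : m ≤ k := hk (Finset.mem_coe.2 (Finset.mem_image.2 ⟨(i, m), Finsupp.mem_support_iff.2 hc, rfl⟩))
  omega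

theorem exists_mem_Pos (x : VV K N) : ∃ k, x ∈ (Pos k : Sb K N) := by
  obtain ⟨k, hk⟩ := ((vvE x).support.image Prod.snd).bddBelow
  refine ⟨k, mem_Pos.2 fun i m hm => ?_⟩
  by_contra hc
  have : k ≤ m := hk (Finset.mem_coe.2 (Finset.mem_image.2 ⟨(i, m), Finsupp.mem_support_iff.2 hc, rfl⟩))
  omega

theorem finite_band (a b : ℤ) : {x : Fin N × ℤ | a ≤ x.2 ∧ x.2 < b}.Finite := by
  refine ((Set.finite_univ (α := Fin N)).prod (Set.finite_Ico a b)).subset ?_
  rintro ⟨i, m⟩ h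
  exact ⟨trivial, h⟩

/-- multiplication by `t^k` -/
noncomputable def shl (k : ℤ) : VV K N ≃ₗ[K] VV K N where
  toFun x := fun i => LaurentPolynomial.T k * x i
  invFun x := fun i => LaurentPolynomial.T (-k) * x i
  map_add' x y := by funext i; simp [mul_add]
  map_smul' c x := by funext i; simp
  left_inv x := by funext i; simp [← mul_assoc, ← LaurentPolynomial.T_add]
  right_inv x := by funext i; simp [← mul_assoc, ← LaurentPolynomial.T_add]

theorem shl_apply (k : ℤ) (x : VV K N) (i : Fin N) : shl k x i = LaurentPolynomial.T k * x i := rfl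

theorem shl_coeff (k : ℤ) (x : VV K N) (i : Fin N) (m : ℤ) :
    (shl k x i).coeff m = (x i).coeff (m - k) := lp_coeff_T_mul _ _ _

theorem shl_shl (k l : ℤ) (x : VV K N) : shl k (shl l x) = shl (k + l) x := by
  funext i; simp [shl_apply, ← mul_assoc, ← LaurentPolynomial.T_add]

@[simp] theorem shl_zero (x : VV K N) : shl 0 x = x := by
  funext i; simp [shl_apply]

theorem shl_mon (k : ℤ) (i : Fin N) (m : ℤ) : shl k (mon i m : VV K N) = mon i (m + k) := by
  funext j; ext n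
  rw [shl_coeff, mon_coeff, mon_coeff]
  congr 1
  apply propext
  constructor <;> rintro ⟨h1, h2⟩ <;> exact ⟨h1, by omega⟩

/-- the action of `SL_N(K[t])` on Laurent vectors -/
noncomputable def ac (g : GG K N) : VV K N ≃ₗ[K] VV K N :=
  (Matrix.SpecialLinearGroup.toLin'
    (Matrix.SpecialLinearGroup.map (Polynomial.toLaurent (R := K)) g)).restrictScalars K

theorem ac_apply (g : GG K N) (x : VV K N) (i : Fin N) :
    ac g x i = ∑ j, Polynomial.toLaurent (g.1 i j) * x j := rfl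

theorem ac_mul (g h : GG K N) (x : VV K N) : ac (g * h) x = ac g (ac h x) := by
  simp [ac]

@[simp] theorem ac_one (x : VV K N) : ac (1 : GG K N) x = x := by
  simp [ac]

theorem ac_shl (g : GG K N) (k : ℤ) (x : VV K N) : ac g (shl k x) = shl k (ac g x) := by
  funext i
  simp only [ac_apply, shl_apply, Finset.mul_sum]
  exact Finset.sum_congr rfl fun j _ => by ring

theorem ac_coeff (g : GG K N) (x : VV K N) (i : Fin N) (m : ℤ) :
    (ac g x i).coeff m = ∑ j, ∑ n ∈ (g.1 i j).support, (g.1 i j).coeff n * (x j).coeff (m - n) := by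
  rw [ac_apply, AddMonoidAlgebra.coeff_sum, Finsupp.finset_sum_apply]
  exact Finset.sum_congr rfl fun j _ => lp_coeff_poly_mul _ _ _

theorem ac_mon (g : GG K N) (j : Fin N) (m : ℤ) (i : Fin N) :
    ac g (mon j m) i = LaurentPolynomial.T m * Polynomial.toLaurent (g.1 i j) := by
  rw [ac_apply, Finset.sum_eq_single j]
  · rw [mon, Pi.single_eq_same, mul_comm]
  · intro b _ hb; simp [mon, hb]
  · simp

theorem ac_mon_coeff (g : GG K N) (j : Fin N) (m : ℤ) (i : Fin N) (n : ℕ) :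
    (ac g (mon j m) i).coeff (m + n) = (g.1 i j).coeff n := by
  rw [ac_mon, lp_coeff_T_mul, add_sub_cancel_left, lp_coeff_toLaurent_nat]

/-- polynomial vectors as Laurent vectors -/
noncomputable def pv (v : Fin N → K[X]) : VV K N := fun i => Polynomial.toLaurent (v i)

theorem pv_mem_Pos (v : Fin N → K[X]) : pv v ∈ (Pos 0 : Sb K N) :=
  mem_Pos.2 fun _ _ hm => lp_coeff_toLaurent_neg _ hm

theorem exists_pv {x : VV K N} (hx : x ∈ (Pos 0 : Sb K N)) : ∃ v, pv v = x := by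
  choose q hq using fun i => lp_exists_poly (x i) (fun m hm => mem_Pos.1 hx i m hm)
  exact ⟨q, funext hq⟩

theorem pv_injective : Function.Injective (pv : (Fin N → K[X]) → VV K N) :=
  fun _ _ h => funext fun i => Polynomial.toLaurent_injective (congrFun h i)

theorem ac_pv (g : GG K N) (v : Fin N → K[X]) : ac g (pv v) = pv (g • v) := by
  funext i
  rw [ac_apply]
  simp [pv, Matrix.SpecialLinearGroup.smul_def, Matrix.mulVec, dotProduct]

noncomputable def sh (k : ℤ) (L : Sb K N) : Sb K N := L.map (shl k).toLinearMap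
noncomputable def gm (g : GG K N) (L : Sb K N) : Sb K N := L.map (ac g).toLinearMap

theorem mem_sh {k : ℤ} {L : Sb K N} {x : VV K N} : x ∈ sh k L ↔ shl (-k) x ∈ L := by
  constructor
  · rintro ⟨y, hy, rfl⟩
    simpa [shl_shl] using hy
  · intro h; exact ⟨_, h, by simp [shl_shl]⟩

theorem shl_mem_sh {k : ℤ} {L : Sb K N} {x : VV K N} : shl k x ∈ sh k L ↔ x ∈ L := by
  rw [mem_sh, shl_shl]; simp

theorem mem_gm {g : GG K N} {L : Sb K N} {x : VV K N} : x ∈ gm g L ↔ ac g⁻¹ x ∈ L := by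
  constructor
  · rintro ⟨y, hy, rfl⟩
    simpa [← ac_mul] using hy
  · intro h; exact ⟨_, h, by simp [← ac_mul]⟩

theorem ac_mem_gm {g : GG K N} {L : Sb K N} {x : VV K N} : ac g x ∈ gm g L ↔ x ∈ L := by
  rw [mem_gm, ← ac_mul]; simp

theorem sh_sh (k l : ℤ) (L : Sb K N) : sh k (sh l L) = sh (k + l) L := by
  ext x; simp only [mem_sh, shl_shl]; rw [neg_add, add_comm]

@[simp] theorem sh_zero (L : Sb K N) : sh 0 L = L := by
  ext x; simp [mem_sh]

theorem gm_mul (g h : GG K N) (L : Sb K N) : gm (g * h) L = gm g (gm h L) := by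
  ext x; simp only [mem_gm, mul_inv_rev, ac_mul]

@[simp] theorem gm_one (L : Sb K N) : gm 1 L = L := by
  ext x; simp [mem_gm]

theorem gm_sh (g : GG K N) (k : ℤ) (L : Sb K N) : gm g (sh k L) = sh k (gm g L) := by
  ext x; simp only [mem_gm, mem_sh, ac_shl]

theorem sh_le_sh_iff {k : ℤ} {L L' : Sb K N} : sh k L ≤ sh k L' ↔ L ≤ L' :=
  Submodule.map_le_map_iff_of_injective (shl k).injective _ _

theorem gm_le_gm_iff {g : GG K N} {L L' : Sb K N} : gm g L ≤ gm g L' ↔ L ≤ L' :=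
  Submodule.map_le_map_iff_of_injective (ac g).injective _ _

theorem sh_mono (k : ℤ) {L L' : Sb K N} (h : L ≤ L') : sh k L ≤ sh k L' := sh_le_sh_iff.2 h
theorem gm_mono (g : GG K N) {L L' : Sb K N} (h : L ≤ L') : gm g L ≤ gm g L' := gm_le_gm_iff.2 h

theorem sh_inj {k : ℤ} {L L' : Sb K N} : sh k L = sh k L' ↔ L = L' := by
  simp only [le_antisymm_iff, sh_le_sh_iff]

theorem gm_inj {g : GG K N} {L L' : Sb K N} : gm g L = gm g L' ↔ L = L' := by
  simp only [le_antisymm_iff, gm_le_gm_iff]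

theorem sh_lt_sh_iff {k : ℤ} {L L' : Sb K N} : sh k L < sh k L' ↔ L < L' := by
  simp only [lt_iff_le_and_ne, sh_le_sh_iff, Ne, sh_inj]

theorem sh_le_iff {k : ℤ} {L L' : Sb K N} : sh k L ≤ L' ↔ L ≤ sh (-k) L' := by
  rw [← sh_le_sh_iff (k := -k), sh_sh]; simp

theorem le_sh_iff {k : ℤ} {L L' : Sb K N} : L ≤ sh k L' ↔ sh (-k) L ≤ L' := by
  rw [sh_le_iff]; simp

theorem sh_sup (k : ℤ) (L L' : Sb K N) : sh k (L ⊔ L') = sh k L ⊔ sh k L' := Submodule.map_sup _ _ _
theorem gm_sup (g : GG K N) (L L' : Sb K N) : gm g (L ⊔ L') = gm g L ⊔ gm g L' :=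
  Submodule.map_sup _ _ _
theorem sh_inf (k : ℤ) (L L' : Sb K N) : sh k (L ⊓ L') = sh k L ⊓ sh k L' :=
  Submodule.map_inf _ (shl k).injective
theorem gm_inf (g : GG K N) (L L' : Sb K N) : gm g (L ⊓ L') = gm g L ⊓ gm g L' :=
  Submodule.map_inf _ (ac g).injective

theorem sh_span (k : ℤ) (x : VV K N) : sh k (K ∙ x) = K ∙ shl k x := by
  simp [sh, Submodule.map_span]
theorem gm_span (g : GG K N) (x : VV K N) : gm g (K ∙ x) = K ∙ ac g x := by
  simp [gm, Submodule.map_span]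

theorem sh_Sup (k : ℤ) (E : Set (Fin N × ℤ)) :
    sh k (Sup E : Sb K N) = Sup {a | (a.1, a.2 - k) ∈ E} := by
  ext x
  simp only [mem_sh, mem_Sup, shl_coeff, Set.mem_setOf_eq]
  constructor
  · intro h i m hm
    have := h i (m - k) hm
    simpa using this
  · intro h i m hm
    exact h i (m - -k) (by simpa using hm)

theorem sh_Std (k a : ℤ) : sh k (Std a : Sb K N) = Std (a + k) := by
  rw [Std, sh_Sup, Std]; congr 1; ext x; simp; omega

theorem sh_Pos (k a : ℤ) : sh k (Pos a : Sb K N) = Pos (a + k) := by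
  rw [Pos, sh_Sup, Pos]; congr 1; ext x; simp; omega

theorem gm_Pos_le (g : GG K N) (k : ℤ) : gm g (Pos k) ≤ Pos k := by
  rintro _ ⟨x, hx, rfl⟩
  refine mem_Pos.2 fun i m hm => ?_
  change (ac g x i).coeff m = 0
  rw [ac_coeff]
  refine Finset.sum_eq_zero fun j _ => Finset.sum_eq_zero fun n _ => ?_
  rw [mem_Pos.1 hx j _ (by omega), mul_zero]

theorem gm_Pos (g : GG K N) (k : ℤ) : gm g (Pos k) = Pos k := by
  refine le_antisymm (gm_Pos_le g k) ?_
  have := gm_mono g (gm_Pos_le g⁻¹ k)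
  rwa [← gm_mul, mul_inv_cancel, gm_one] at this

theorem gm_Std_le (g : GG K N) (D : ℕ) (hD : ∀ i j n, D < n → (g.1 i j).coeff n = 0) (k : ℤ) :
    gm g (Std k) ≤ Std (k + D) := by
  rintro _ ⟨x, hx, rfl⟩
  refine mem_Std.2 fun i m hm => ?_
  change (ac g x i).coeff m = 0
  rw [ac_coeff]
  refine Finset.sum_eq_zero fun j _ => Finset.sum_eq_zero fun n _ => ?_
  by_cases hn : D < n
  · rw [hD i j n hn, zero_mul]
  · rw [mem_Std.1 hx j _ (by omega), mul_zero]

theorem exists_deg_bound (g : GG K N) : ∃ D : ℕ, ∀ i j n, D < n → (g.1 i j).coeff n = 0 := by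
  refine ⟨Finset.univ.sup fun ij : Fin N × Fin N => (g.1 ij.1 ij.2).natDegree, fun i j n hn => ?_⟩
  apply Polynomial.coeff_eq_zero_of_natDegree_lt
  exact lt_of_le_of_lt (Finset.le_sup (f := fun ij : Fin N × Fin N => (g.1 ij.1 ij.2).natDegree)
    (Finset.mem_univ (i, j))) hn

end Vale.Agent.P067
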