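import Vale.Agent.P067.Lat0
import Vale.Agent.P067.ChD

/-! Lattices, their index, vertices of the building, faces. -/

namespace Vale.Agent.P067

open scoped LaurentPolynomial Polynomial Pointwise
open Module

variable {K : Type} [Field K] {N : ℕ}

noncomputable def h0 (L : Sb K N) : ℕ := finrank K (L ⊓ Pos 0 : Sb K N)
noncomputable def h1 (L : Sb K N) : ℕ := finrank K (VV K N ⧸ (L ⊔ Pos 0))
noncomputable def idx (L : Sb K N) : ℤ := (h0 L : ℤ) - h1 L

theorem idx_eq_ix (L : Sb K N) : idx L = ix L (Pos 0) := rfl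

def Com (L : Sb K N) : Prop := ∃ a b, Std a ≤ L ∧ L ≤ Std b
def Lat (L : Sb K N) : Prop := Com L ∧ sh (-1) L ≤ L

theorem Com.fr {L : Sb K N} (h : Com L) (k : ℤ) : Fr L (Pos k) := by
  obtain ⟨a, b, ha, hb⟩ := h
  constructor
  · have : Module.Finite K (Std b ⊓ Pos k : Sb K N) := by
      rw [Std, Pos, Sup_inter]
      exact Sup_finite ((finite_band k b).subset fun x hx => ⟨hx.2, hx.1⟩)
    exact fred_fin_of_le (inf_le_inf_right _ hb)
  · have : Module.Finite K (VV K N ⧸ (Std a ⊔ Pos k : Sb K N)) := by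
      rw [Std, Pos, Sup_union]
      refine Sup_q_finite ((finite_band a k).subset fun x hx => ?_)
      simpa using hx
    exact fred_q_fin (sup_le_sup_right ha _)

theorem com_Std (a : ℤ) : Com (Std a : Sb K N) := ⟨a, a, le_rfl, le_rfl⟩

theorem Com.between {L L' M : Sb K N} (h : Com L) (h' : Com L') (h1 : L ≤ M) (h2 : M ≤ L') :
    Com M := by
  obtain ⟨a, -, ha, -⟩ := h
  obtain ⟨-, b, -, hb⟩ := h'
  exact ⟨a, b, ha.trans h1, h2.trans hb⟩

theorem Com.sh {L : Sb K N} (h : Com L) (k : ℤ) : Com (sh k L) := by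
  obtain ⟨a, b, ha, hb⟩ := h
  exact ⟨a + k, b + k, sh_Std (K := K) (N := N) k a ▸ sh_mono k ha,
    sh_Std (K := K) (N := N) k b ▸ sh_mono k hb⟩

theorem Com.gm {L : Sb K N} (h : Com L) (g : GG K N) : Com (gm g L) := by
  obtain ⟨a, b, ha, hb⟩ := h
  obtain ⟨D, hD⟩ := exists_deg_bound g
  obtain ⟨D', hD'⟩ := exists_deg_bound g⁻¹
  refine ⟨a - D', b + D, ?_, (gm_mono g hb).trans (gm_Std_le g D hD b)⟩
  have := gm_mono g (gm_Std_le g⁻¹ D' hD' (a - D'))
  rw [← gm_mul, mul_inv_cancel, gm_one, sub_add_cancel] at this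
  exact this.trans (gm_mono g ha)

theorem Com.sup {L L' : Sb K N} (h : Com L) (h' : Com L') : Com (L ⊔ L') := by
  obtain ⟨a, b, ha, hb⟩ := h
  obtain ⟨-, b', -, hb'⟩ := h'
  exact ⟨a, max b b', ha.trans le_sup_left,
    sup_le (hb.trans (Std_mono (le_max_left _ _))) (hb'.trans (Std_mono (le_max_right _ _)))⟩

theorem Com.span {L : Sb K N} (h : Com L) (x : VV K N) : Com (L ⊔ K ∙ x) := by
  obtain ⟨a, b, ha, hb⟩ := h
  obtain ⟨k, hk⟩ := exists_mem_Std x
  exact ⟨a, max b k, ha.trans le_sup_left, sup_le (hb.trans (Std_mono (le_max_left _ _)))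
    ((Submodule.span_singleton_le_iff_mem _ _).2 (Std_mono (le_max_right _ _) hk))⟩

theorem h0_mono {L L' : Sb K N} (h' : Com L') (hle : L ≤ L') : h0 L ≤ h0 L' := by
  have := (h'.fr 0).1
  exact Submodule.finrank_mono (inf_le_inf_right _ hle)

theorem h1_anti {L L' : Sb K N} (h : Com L) (hle : L ≤ L') : h1 L' ≤ h1 L := by
  have := (h.fr 0).2
  exact fred_q_le (sup_le_sup_right hle _)

theorem idx_lt {L L' : Sb K N} (h : Com L) (h' : Com L') (hlt : L < L') : idx L < idx L' :=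
  ix_lt (h.fr 0) (h'.fr 0) hlt

theorem idx_le {L L' : Sb K N} (h : Com L) (h' : Com L') (hle : L ≤ L') : idx L ≤ idx L' :=
  ix_le (h.fr 0) (h'.fr 0) hle

theorem eq_of_le_of_idx {L L' : Sb K N} (h : Com L) (h' : Com L') (hle : L ≤ L')
    (hi : idx L' ≤ idx L) : L = L' := by
  by_contra hne
  have := idx_lt h h' (lt_of_le_of_ne hle hne)
  omega

theorem idx_span_le {L : Sb K N} (h : Com L) (x : VV K N) : idx (L ⊔ K ∙ x) ≤ idx L + 1 :=
  ix_span_le (h.fr 0) x

theorem idx_span_eq {L : Sb K N} (h : Com L) {x : VV K N} (hx : x ∉ L) :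
    idx (L ⊔ K ∙ x) = idx L + 1 :=
  ix_span_eq (h.fr 0) hx

theorem h0_eq_zero_iff {L : Sb K N} (h : Com L) : h0 L = 0 ↔ L ⊓ Pos 0 = ⊥ := by
  have := (h.fr 0).1
  exact Submodule.finrank_eq_zero

theorem h1_eq_zero_iff {L : Sb K N} (h : Com L) : h1 L = 0 ↔ L ⊔ Pos 0 = ⊤ := by
  have := (h.fr 0).2
  rw [h1, Module.finrank_zero_iff, Submodule.Quotient.subsingleton_iff]

theorem h0_gm (g : GG K N) (L : Sb K N) : h0 (gm g L) = h0 L := by
  have := fred_inf_map (ac g) L (Pos 0)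
  rw [show (Pos 0 : Sb K N).map (ac g).toLinearMap = Pos 0 from gm_Pos g 0] at this
  exact this

theorem h1_gm (g : GG K N) (L : Sb K N) : h1 (gm g L) = h1 L := by
  have := fred_q_map (ac g) L (Pos 0)
  rw [show (Pos 0 : Sb K N).map (ac g).toLinearMap = Pos 0 from gm_Pos g 0] at this
  exact this

theorem idx_gm (g : GG K N) (L : Sb K N) : idx (gm g L) = idx L := by
  rw [idx, h0_gm, h1_gm, idx]

theorem ix_Sup_union {L : Sb K N} {E : Set (Fin N × ℤ)} (h : Fr (Sup E) L)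
    (s : Finset (Fin N × ℤ)) (hs : ∀ a ∈ s, a ∉ E) :
    Fr (Sup (E ∪ s)) L ∧ ix (Sup (E ∪ s)) L = ix (Sup E) L + s.card := by
  classical
  induction s using Finset.induction_on with
  | empty => simpa using h
  | insert a s ha ih =>
    obtain ⟨i1, i2⟩ := ih fun b hb => hs b (Finset.mem_insert_of_mem hb)
    rw [Finset.coe_insert, Set.union_insert, Sup_insert]
    refine ⟨i1.span _, ?_⟩
    rw [ix_span_eq i1, i2, Finset.card_insert_of_notMem ha]
    · push_cast; ring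
    · rw [mon_mem_Sup]
      rintro (h' | h')
      · exact hs a (Finset.mem_insert_self _ _) h'
      · exact ha h'

theorem ix_Pos_pred {L : Sb K N} (h : Com L) (k : ℤ) :
    ix L (Pos (k - 1)) = ix L (Pos k) + N := by
  have := (ix_Sup_union (h.fr k).symm (Finset.univ.image fun i : Fin N => (i, k - 1))
    (by simp)).2
  rw [ix_comm L, ix_comm L]
  rw [Finset.card_image_of_injective _ (fun _ _ e => (Prod.mk.inj e).1)] at this
  simp only [Finset.card_univ, Fintype.card_fin] at this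
  rw [← show _ = ix (Pos k : Sb K N) L + N from this, Pos]
  congr 2
  ext ⟨i, m⟩; simp; omega

theorem ix_Pos {L : Sb K N} (h : Com L) (k : ℤ) : ix L (Pos (-k)) = ix L (Pos 0) + k * N := by
  induction k using Int.induction_on with
  | zero => simp
  | succ n ih =>
    rw [show (-((n : ℤ) + 1)) = -n - 1 by ring, ix_Pos_pred h, ih]; ring
  | pred n ih =>
    have := ix_Pos_pred h (-(-(n : ℤ) - 1))
    rw [show (-(-(n : ℤ) - 1) - 1) = - -n by ring, ih] at this
    linarith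

theorem idx_sh {L : Sb K N} (h : Com L) (k : ℤ) : idx (sh k L) = idx L + k * N := by
  have := ix_map (shl k) L (Pos (-k))
  have e : sh k (Pos (-k) : Sb K N) = Pos 0 := by rw [sh_Pos, neg_add_cancel]
  rw [show (Pos (-k) : Sb K N).map (shl k).toLinearMap = Pos 0 from e, ix_Pos h] at this
  exact this

theorem h0_sh_eventually {L : Sb K N} (h : Com L) : ∃ k0, ∀ k ≤ k0, h0 (sh k L) = 0 := by
  obtain ⟨a, b, ha, hb⟩ := h
  refine ⟨-b, fun k hk => (h0_eq_zero_iff (Com.sh ⟨a, b, ha, hb⟩ k)).2 ?_⟩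
  rw [eq_bot_iff, ← Std_inf_Pos (show b + k ≤ 0 by omega), ← sh_Std]
  exact inf_le_inf_right _ (sh_mono k hb)

theorem h1_sh_eventually {L : Sb K N} (h : Com L) : ∃ k0, ∀ k ≥ k0, h1 (sh k L) = 0 := by
  obtain ⟨a, b, ha, hb⟩ := h
  refine ⟨-a, fun k hk => (h1_eq_zero_iff (Com.sh ⟨a, b, ha, hb⟩ k)).2 ?_⟩
  rw [eq_top_iff, ← Std_sup_Pos (show 0 ≤ a + k by omega), ← sh_Std]
  exact sup_le_sup_right (sh_mono k ha) _

theorem Lat.sh {L : Sb K N} (h : Lat L) (k : ℤ) : Lat (sh k L) :=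
  ⟨h.1.sh k, by rw [sh_sh, add_comm, ← sh_sh]; exact sh_mono k h.2⟩

theorem Lat.gm {L : Sb K N} (h : Lat L) (g : GG K N) : Lat (gm g L) :=
  ⟨h.1.gm g, by rw [← gm_sh]; exact gm_mono g h.2⟩

theorem Lat.sup {L L' : Sb K N} (h : Lat L) (h' : Lat L') : Lat (L ⊔ L') :=
  ⟨h.1.sup h'.1, by rw [sh_sup]; exact sup_le_sup h.2 h'.2⟩

theorem Lat.sh_le {L : Sb K N} (h : Lat L) {k l : ℤ} (hkl : k ≤ l) :
    P067.sh k L ≤ P067.sh l L := by
  obtain ⟨n, rfl⟩ := Int.le.dest hkl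
  induction n with
  | zero => simp
  | succ n ih =>
    refine (ih (by omega)).trans ?_
    have := (h.sh (k + (n + 1 : ℕ))).2
    rw [sh_sh] at this
    convert this using 2
    push_cast; ring

theorem Lat.le_sh {L : Sb K N} (h : Lat L) {k : ℤ} (hk : 0 ≤ k) : L ≤ P067.sh k L := by
  simpa using h.sh_le hk

theorem Lat.sh_le_self {L : Sb K N} (h : Lat L) {k : ℤ} (hk : k ≤ 0) : P067.sh k L ≤ L := by
  simpa using h.sh_le hk

/-- anything in the window `[t⁻¹ H, H]` is a lattice -/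
theorem Lat.window {H W : Sb K N} (h : Lat H) (h1 : P067.sh (-1) H ≤ W) (h2 : W ≤ H) : Lat W :=
  ⟨(h.1.sh _).between h.1 h1 h2, (sh_mono _ h2).trans h1⟩

theorem lat_Std (a : ℤ) : Lat (Std a : Sb K N) :=
  ⟨com_Std a, by rw [sh_Std]; exact Std_mono (by omega)⟩

theorem Std_le_lamS (c : ℕ) : (Std 0 : Sb K N) ≤ lamS c := Sup_mono fun _ h => Or.inl h

theorem lamS_le_Std (c : ℕ) : (lamS c : Sb K N) ≤ Std 1 :=
  Sup_mono fun _ h => by
    rcases h with h | h
    · exact lt_trans h (by norm_num)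
    · exact lt_of_eq_of_lt h.1 (by norm_num)

theorem lat_lamS (c : ℕ) : Lat (lamS c : Sb K N) :=
  (lat_Std 1).window (by rw [sh_Std]; simpa using Std_le_lamS c) (lamS_le_Std c)

theorem lamS_mono {c c' : ℕ} (h : c ≤ c') : (lamS c : Sb K N) ≤ lamS c' :=
  Sup_mono fun _ hx => hx.imp_right fun h' => ⟨h'.1, lt_of_lt_of_le h'.2 h⟩

theorem lamS_zero : (lamS 0 : Sb K N) = Std 0 := by
  rw [lamS, Std]; congr 1; ext x; simp

theorem h1_lamS (c : ℕ) : h1 (lamS c : Sb K N) = 0 := by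
  rw [h1_eq_zero_iff (lat_lamS c).1, eq_top_iff, ← Std_sup_Pos (le_refl (0 : ℤ))]
  exact sup_le_sup_right (Std_le_lamS c) _

theorem h0_lamS {c : ℕ} (hc : c ≤ N) : h0 (lamS c : Sb K N) = c := by
  have e : ({a : Fin N × ℤ | a.2 < 0 ∨ (a.2 = 0 ∧ a.1.val < c)} ∩ {a | 0 ≤ a.2})
      = (fun i : Fin c => ((Fin.castLE hc i, 0) : Fin N × ℤ)) '' Set.univ := by
    ext ⟨i, m⟩
    simp only [Set.mem_inter_iff, Set.mem_setOf_eq, Set.image_univ, Set.mem_range, Prod.mk.injEq]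
    constructor
    · rintro ⟨h | h, h'⟩
      · omega
      · exact ⟨⟨i.val, h.2⟩, rfl, h.1.symm⟩
    · rintro ⟨j, rfl, rfl⟩
      exact ⟨Or.inr ⟨rfl, j.2⟩, le_rfl⟩
  rw [h0, lamS, Pos, Sup_inter, e, Sup_finrank (Set.finite_univ.image _),
    Set.ncard_image_of_injective _ (fun a b h => Fin.castLE_injective hc (Prod.mk.inj h).1)]
  simp

theorem idx_lamS {c : ℕ} (hc : c ≤ N) : idx (lamS c : Sb K N) = c := by
  rw [idx, h0_lamS hc, h1_lamS]; simp

/-- vertices of the building: normalised lattices -/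
def Vx (K : Type) [Field K] (N : ℕ) : Type :=
  {L : Sb K N // Lat L ∧ 0 ≤ idx L ∧ idx L < N}

noncomputable instance : DecidableEq (Vx K N) := Classical.decEq _

theorem Vx.lat (u : Vx K N) : Lat u.1 := u.2.1
theorem Vx.com (u : Vx K N) : Com u.1 := u.2.1.1
theorem Vx.ext {u w : Vx K N} (h : u.1 = w.1) : u = w := Subtype.ext h

noncomputable instance : MulAction (GG K N) (Vx K N) where
  smul g u := ⟨gm g u.1, u.2.1.gm g, by rw [idx_gm]; exact u.2.2⟩
  one_smul u := Subtype.ext (gm_one u.1)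
  mul_smul g h u := Subtype.ext (gm_mul g h u.1)

theorem Vx.smul_val (g : GG K N) (u : Vx K N) : (g • u).1 = gm g u.1 := rfl

noncomputable def col (u : Vx K N) : Fin N :=
  ⟨(idx u.1).toNat, by have := u.2.2; omega⟩

theorem col_val (u : Vx K N) : ((col u : ℕ) : ℤ) = idx u.1 := by
  have := u.2.2; simp [col]; omega

theorem col_smul (g : GG K N) (u : Vx K N) : col (g • u) = col u := by
  apply Fin.ext; simp only [col, Vx.smul_val, idx_gm]

/-- the standard vertex of colour `c` -/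
def lam (c : Fin N) : Vx K N :=
  ⟨lamS c, lat_lamS c, by rw [idx_lamS c.2.le]; have := c.2; omega⟩

theorem lam_val (c : Fin N) : (lam c : Vx K N).1 = lamS c := rfl

theorem col_lam (c : Fin N) : col (lam c : Vx K N) = c := by
  apply Fin.ext; simp [col, lam_val, idx_lamS c.2.le]

theorem vx_eq_of_sh {u w : Vx K N} {k l : ℤ} (h : sh k u.1 = sh l w.1) : u = w ∧ k = l := by
  have h1 := congrArg idx h
  rw [idx_sh u.com, idx_sh w.com] at h1
  have hu := u.2.2; have hw := w.2.2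
  have hkl : k = l := by
    by_contra hne
    rcases lt_or_gt_of_ne hne with h' | h'
    · have : (k + 1) * N ≤ l * N := mul_le_mul_of_nonneg_right (by omega) (by omega)
      nlinarith
    · have : (l + 1) * N ≤ k * N := mul_le_mul_of_nonneg_right (by omega) (by omega)
      nlinarith
  subst hkl
  exact ⟨Vx.ext (sh_inj.1 h), rfl⟩

section cls
variable [NeZero N]

noncomputable def clsA (L : Sb K N) (h : Lat L) : Vx K N :=
  ⟨sh (-(idx L / N)) L, h.sh _, by
    have hN : (0 : ℤ) < N := by exact_mod_cast Nat.pos_of_ne_zero (NeZero.ne N)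
    rw [idx_sh h.1]
    have h1 := Int.emod_nonneg (idx L) hN.ne'
    have h2 := Int.emod_lt_of_pos (idx L) hN
    have h3 := Int.emod_add_mul_ediv (idx L) N
    constructor <;> nlinarith⟩

open Classical in
/-- the vertex of a lattice -/
noncomputable def cls (L : Sb K N) : Vx K N := if h : Lat L then clsA L h else lam 0

theorem cls_val {L : Sb K N} (h : Lat L) : (cls L).1 = sh (-(idx L / N)) L := by
  rw [cls, dif_pos h]; rfl

theorem cls_eq_iff {L : Sb K N} (h : Lat L) {u : Vx K N} : cls L = u ↔ ∃ k, L = sh k u.1 := by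
  constructor
  · rintro rfl
    exact ⟨idx L / N, by rw [cls_val h, sh_sh]; simp⟩
  · rintro ⟨k, rfl⟩
    refine (vx_eq_of_sh (k := idx (sh k u.1) / N) (l := k) ?_).1
    rw [cls_val h, sh_sh]; simp

theorem exists_sh_cls {L : Sb K N} (h : Lat L) : ∃ k, L = sh k (cls L).1 :=
  (cls_eq_iff h).1 rfl

theorem cls_sh_vx (u : Vx K N) (k : ℤ) : cls (sh k u.1) = u :=
  (cls_eq_iff (u.lat.sh k)).2 ⟨k, rfl⟩

theorem cls_vx (u : Vx K N) : cls u.1 = u := by simpa using cls_sh_vx u 0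

theorem cls_sh {L : Sb K N} (h : Lat L) (k : ℤ) : cls (sh k L) = cls L := by
  obtain ⟨l, hl⟩ := exists_sh_cls h
  exact (cls_eq_iff (h.sh k)).2 ⟨k + l, by rw [← sh_sh, ← hl]⟩

theorem cls_gm {L : Sb K N} (h : Lat L) (g : GG K N) : cls (gm g L) = g • cls L := by
  obtain ⟨l, hl⟩ := exists_sh_cls h
  exact (cls_eq_iff (h.gm g)).2 ⟨l, by rw [Vx.smul_val, ← gm_sh, ← hl]⟩

end cls

def CmpL (L L' : Sb K N) : Prop := ∀ k : ℤ, sh k L ≤ L' ∨ L' ≤ sh k L

theorem CmpL.symm {L L' : Sb K N} (h : CmpL L L') : CmpL L' L := fun k => by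
  rcases h (-k) with h | h
  · right; rwa [le_sh_iff]
  · left; rwa [sh_le_iff]

theorem CmpL.sh_left {L L' : Sb K N} (h : CmpL L L') (k : ℤ) : CmpL (sh k L) L' := fun l => by
  rw [sh_sh]; exact h _

theorem CmpL.sh {L L' : Sb K N} (h : CmpL L L') (k l : ℤ) : CmpL (sh k L) (sh l L') :=
  ((h.sh_left k).symm.sh_left l).symm

theorem CmpL.gm {L L' : Sb K N} (h : CmpL L L') (g : GG K N) : CmpL (gm g L) (gm g L') := fun k => by
  rw [← gm_sh, gm_le_gm_iff, gm_le_gm_iff]; exact h k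

theorem CmpL.total {L L' : Sb K N} (h : CmpL L L') : L ≤ L' ∨ L' ≤ L := by
  simpa using h 0

theorem CmpL.le_of_idx {L L' : Sb K N} (h : CmpL L L') (hL : Com L) (hL' : Com L')
    (hi : idx L ≤ idx L') : L ≤ L' := by
  rcases h.total with h | h
  · exact h
  · exact (eq_of_le_of_idx hL' hL h hi).ge

theorem CmpL.eq_of_idx {L L' : Sb K N} (h : CmpL L L') (hL : Com L) (hL' : Com L')
    (hi : idx L = idx L') : L = L' :=
  le_antisymm (h.le_of_idx hL hL' hi.le) (h.symm.le_of_idx hL' hL hi.ge)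

theorem cmpL_of_window {L L' : Sb K N} (hL : Lat L) (h1 : L ≤ L') (h2 : L' ≤ sh 1 L) :
    CmpL L L' := fun k => by
  rcases le_or_gt k 0 with hk | hk
  · exact Or.inl ((hL.sh_le_self hk).trans h1)
  · exact Or.inr (h2.trans (hL.sh_le (by omega)))

theorem Lat.cmpL_self {L : Sb K N} (h : Lat L) : CmpL L L :=
  cmpL_of_window h le_rfl (h.le_sh (by norm_num))

theorem cmpL_cls [NeZero N] {L L' : Sb K N} (hL : Lat L) (hL' : Lat L') :
    CmpL (cls L).1 (cls L').1 ↔ CmpL L L' := by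
  rw [cls_val hL, cls_val hL']
  refine ⟨fun h => ?_, fun h => h.sh _ _⟩
  have := h.sh (idx L / N) (idx L' / N)
  simpa [sh_sh] using this

def Face (σ : Finset (Vx K N)) : Prop := ∀ u ∈ σ, ∀ w ∈ σ, CmpL u.1 w.1

theorem face_down : Down (Face : Finset (Vx K N) → Prop) :=
  fun _ _ h hs u hu w hw => h u (hs hu) w (hs hw)

theorem Face.smul {σ : Finset (Vx K N)} (h : Face σ) (g : GG K N) : Face (g • σ) := by
  intro u hu w hw
  obtain ⟨u, hu', rfl⟩ := Finset.mem_smul_finset.1 hu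
  obtain ⟨w, hw', rfl⟩ := Finset.mem_smul_finset.1 hw
  exact (h u hu' w hw').gm g

theorem Face.eq_of_col {σ : Finset (Vx K N)} (h : Face σ) {u w : Vx K N} (hu : u ∈ σ) (hw : w ∈ σ)
    (hc : col u = col w) : u = w :=
  Vx.ext ((h u hu w hw).eq_of_idx u.com w.com (by rw [← col_val, ← col_val, hc]))

theorem Face.card_le {σ : Finset (Vx K N)} (h : Face σ) : σ.card ≤ N := by
  have := Finset.card_le_card_of_injOn (s := σ) (t := Finset.univ) col (fun _ _ => by simp)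
    fun u hu w hw hc => h.eq_of_col hu hw hc
  simpa using this

/-- union of the rectangles `[1,h0] × [1,h1]` over all shifts -/
def RL (L : Sb K N) : Set (ℕ × ℕ) :=
  {ab | 1 ≤ ab.1 ∧ 1 ≤ ab.2 ∧ ∃ k : ℤ, ab.1 ≤ h0 (sh k L) ∧ ab.2 ≤ h1 (sh k L)}

def Rs (σ : Finset (Vx K N)) : Set (ℕ × ℕ) := {ab | ∃ u ∈ σ, ab ∈ RL u.1}

theorem RL_sh (k : ℤ) (L : Sb K N) : RL (sh k L) = RL L := by
  ext ab
  simp only [RL, Set.mem_setOf_eq, sh_sh]
  refine and_congr_right fun _ => and_congr_right fun _ => ⟨fun ⟨l, h⟩ => ⟨_, h⟩, fun ⟨l, h⟩ => ?_⟩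
  exact ⟨l - k, by simpa using h⟩

theorem RL_gm (g : GG K N) (L : Sb K N) : RL (gm g L) = RL L := by
  ext ab
  simp only [RL, Set.mem_setOf_eq, ← gm_sh, h0_gm, h1_gm]

theorem RL_cls [NeZero N] {L : Sb K N} (h : Lat L) : RL (cls L).1 = RL L := by
  rw [cls_val h, RL_sh]

theorem Rs_mono {σ τ : Finset (Vx K N)} (h : σ ⊆ τ) : Rs σ ⊆ Rs τ :=
  fun _ ⟨u, hu, h'⟩ => ⟨u, h hu, h'⟩

theorem Rs_smul (g : GG K N) (σ : Finset (Vx K N)) : Rs (g • σ) = Rs σ := by
  ext ab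
  constructor
  · rintro ⟨u, hu, h⟩
    obtain ⟨u, hu', rfl⟩ := Finset.mem_smul_finset.1 hu
    exact ⟨u, hu', by rwa [Vx.smul_val, RL_gm] at h⟩
  · rintro ⟨u, hu, h⟩
    exact ⟨g • u, Finset.smul_mem_smul_finset hu, by rwa [Vx.smul_val, RL_gm]⟩

theorem Rs_subset_iff {σ : Finset (Vx K N)} {E : Set (ℕ × ℕ)} :
    Rs σ ⊆ E ↔ ∀ u ∈ σ, RL u.1 ⊆ E :=
  ⟨fun h u hu _ hab => h ⟨u, hu, hab⟩, fun h _ ⟨u, hu, hab⟩ => h u hu hab⟩

/-- good faces: all vertices have natural cohomology -/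
def Good (σ : Finset (Vx K N)) : Prop := Face σ ∧ Rs σ = ∅

theorem good_down : Down (Good : Finset (Vx K N) → Prop) :=
  fun _ _ h hs => ⟨face_down _ _ h.1 hs, Set.subset_empty_iff.1 (h.2 ▸ Rs_mono hs)⟩

theorem Good.smul {σ : Finset (Vx K N)} (h : Good σ) (g : GG K N) : Good (g • σ) :=
  ⟨h.1.smul g, by rw [Rs_smul, h.2]⟩

/-- the descending link of `ρ` -/
def LL (ρ τ : Finset (Vx K N)) : Prop := Disjoint ρ τ ∧ Face (ρ ∪ τ) ∧ Rs τ ⊆ Rs ρ

theorem LL_down (ρ : Finset (Vx K N)) : Down (LL ρ) := fun _ _ h hs =>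
  ⟨h.1.mono_right hs, face_down _ _ h.2.1 (Finset.union_subset_union_right hs),
    (Rs_mono hs).trans h.2.2⟩

/-- the standard face of type `T` -/
noncomputable def std (T : Finset (Fin N)) : Finset (Vx K N) := T.image lam

/-- the principal congruence subgroup of level `t^s` -/
noncomputable def Gam (K : Type) [Field K] (N s : ℕ) : Subgroup (GG K N) :=
  (Matrix.SpecialLinearGroup.map
    (Ideal.Quotient.mk (Ideal.span {(Polynomial.X : K[X]) ^ s}))).ker

instance (s : ℕ) : (Gam K N s).Normal := MonoidHom.normal_ker _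

theorem mem_Gam {s : ℕ} {g : GG K N} :
    g ∈ Gam K N s ↔ ∀ i j, (Polynomial.X : K[X]) ^ s ∣ (g.1 - 1) i j := by
  rw [Gam, MonoidHom.mem_ker, Matrix.SpecialLinearGroup.ext_iff]
  refine forall_congr' fun i => forall_congr' fun j => ?_
  rw [← Ideal.mem_span_singleton, Matrix.sub_apply, ← Ideal.Quotient.eq]
  by_cases h : i = j <;> simp [Matrix.one_apply, h]

theorem Gam_anti {s s' : ℕ} (h : s ≤ s') : Gam K N s' ≤ Gam K N s := fun _ hg =>
  mem_Gam.2 fun i j => (pow_dvd_pow _ h).trans (mem_Gam.1 hg i j)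

/-- pointwise stabiliser of the standard face of type `T` -/
noncomputable def HH (K : Type) [Field K] {N : ℕ} (T : Finset (Fin N)) : Subgroup (GG K N) :=
  ⨅ c ∈ T, MulAction.stabilizer (GG K N) (lam c : Vx K N)

theorem mem_HH {T : Finset (Fin N)} {g : GG K N} :
    g ∈ HH K T ↔ ∀ c ∈ T, g • (lam c : Vx K N) = lam c := by
  simp [HH, Subgroup.mem_iInf]

/-- the coefficient of `t^s` in `g - 1` -/
noncomputable def kap (s : ℕ) (g : GG K N) : Matrix (Fin N) (Fin N) K :=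
  Matrix.of fun i j => ((g.1 - 1) i j).coeff s

end Vale.Agent.P067
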